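import Vale.Agent.Lib.P154N.D5.Data
import Vale.Agent.Lib.P154N.Red

/-!
# Leaves of the tree of triangles
-/

namespace Vale.Agent.Lib.P154N.D5

open Vale.Agent.Lib.P154K Vale.Agent.Lib.P154Neg

theorem l0 : HoldsN X2 (Trg.left (Trg.left (Trg.left (chamberN 9 20)))) (Trg.left (Trg.left (Trg.left (chamberN 9 20)))) :=
  HoldsN.of_red (k := 16) (m := 16) (leaf ok2 (G483 _ rfl) (G235 _ rfl) (G235 _ rfl) (by decide +kernel))
theorem l1 : HoldsN X2 (Trg.left (Trg.left (Trg.left (chamberN 9 20)))) (Trg.right (Trg.left (Trg.left (chamberN 9 20)))) :=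
  HoldsN.of_red (k := 16) (m := 16) (leaf ok2 (G438 _ rfl) (G322 _ rfl) (G271 _ rfl) (by decide +kernel))
theorem l2 : HoldsN X2 (Trg.left (Trg.left (Trg.left (chamberN 9 20)))) (Trg.right (Trg.left (chamberN 9 20))) :=
  HoldsN.of_red (k := 16) (m := 16) (leaf ok2 (G483 _ rfl) (G236 _ rfl) (G181 _ rfl) (by decide +kernel))
theorem l3 : HoldsN X2 (Trg.right (Trg.left (Trg.left (chamberN 9 20)))) (Trg.left (Trg.left (Trg.left (chamberN 9 20)))) :=
  HoldsN.of_red (k := 16) (m := 16) (leaf ok2 (G438 _ rfl) (G271 _ rfl) (G322 _ rfl) (by decide +kernel))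
theorem l4 : HoldsN X2 (Trg.right (Trg.left (Trg.left (chamberN 9 20)))) (Trg.right (Trg.left (Trg.left (chamberN 9 20)))) :=
  HoldsN.of_red (k := 16) (m := 16) (leaf ok2 (G426 _ rfl) (G340 _ rfl) (G340 _ rfl) (by decide +kernel))
theorem l5 : HoldsN X2 (Trg.right (Trg.left (Trg.left (chamberN 9 20)))) (Trg.right (Trg.left (chamberN 9 20))) :=
  HoldsN.of_red (k := 16) (m := 16) (leaf ok2 (G438 _ rfl) (G273 _ rfl) (G273 _ rfl) (by decide +kernel))
theorem l6 : HoldsN X2 (Trg.right (Trg.left (chamberN 9 20))) (Trg.left (Trg.left (Trg.left (chamberN 9 20)))) :=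
  HoldsN.of_red (k := 16) (m := 16) (leaf ok2 (G483 _ rfl) (G181 _ rfl) (G236 _ rfl) (by decide +kernel))
theorem l7 : HoldsN X2 (Trg.right (Trg.left (chamberN 9 20))) (Trg.right (Trg.left (Trg.left (chamberN 9 20)))) :=
  HoldsN.of_red (k := 16) (m := 16) (leaf ok2 (G438 _ rfl) (G273 _ rfl) (G273 _ rfl) (by decide +kernel))
theorem l8 : HoldsN X2 (Trg.left (Trg.left (Trg.right (Trg.left (chamberN 9 20))))) (Trg.left (Trg.right (Trg.left (chamberN 9 20)))) :=
  HoldsN.of_red (k := 16) (m := 16) (leaf ok2 (G480 _ rfl) (G269 _ rfl) (G233 _ rfl) (by decide +kernel))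
theorem l9 : HoldsN X2 (Trg.right (Trg.left (Trg.right (Trg.left (chamberN 9 20))))) (Trg.left (Trg.right (Trg.left (chamberN 9 20)))) :=
  HoldsN.of_red (k := 16) (m := 16) (leaf ok2 (G493 _ rfl) (G233 _ rfl) (G232 _ rfl) (by decide +kernel))

end Vale.Agent.Lib.P154N.D5
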