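import Vale.Agent.Lib.P154N.D5.Data
import Vale.Agent.Lib.P154N.Red

/-!
# Leaves of the tree of triangles
-/

namespace Vale.Agent.Lib.P154N.D5

open Vale.Agent.Lib.P154K Vale.Agent.Lib.P154Neg

theorem l10 : HoldsN X2 (Trg.left (Trg.right (Trg.left (chamberN 9 20)))) (Trg.right (Trg.right (Trg.left (chamberN 9 20)))) :=
  HoldsN.of_red (k := 16) (m := 16) (leaf ok2 (G481 _ rfl) (G178 _ rfl) (G289 _ rfl) (by decide +kernel))
theorem l11 : HoldsN X2 (Trg.right (Trg.right (Trg.left (chamberN 9 20)))) (Trg.right (Trg.left (chamberN 9 20))) :=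
  HoldsN.of_red (k := 16) (m := 16) (leaf ok2 (G483 _ rfl) (G213 _ rfl) (G181 _ rfl) (by decide +kernel))
theorem l12 : HoldsN X2 (Trg.left (chamberN 9 20)) (Trg.left (Trg.right (chamberN 9 20))) :=
  HoldsN.of_red (k := 16) (m := 16) (leaf ok2 (G458 _ rfl) (G116 _ rfl) (G242 _ rfl) (by decide +kernel))
theorem l13 : HoldsN X2 (Trg.left (Trg.left (Trg.left (Trg.left (chamberN 9 20))))) (Trg.left (Trg.left (Trg.right (Trg.right (chamberN 9 20))))) :=
  HoldsN.of_red (k := 16) (m := 16) (leaf ok2 (G461 _ rfl) (G260 _ rfl) (G383 _ rfl) (by decide +kernel))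
theorem l14 : HoldsN X2 (Trg.left (Trg.left (Trg.left (Trg.left (chamberN 9 20))))) (Trg.right (Trg.left (Trg.right (Trg.right (chamberN 9 20))))) :=
  HoldsN.of_red (k := 16) (m := 16) (leaf ok2 (G430 _ rfl) (G338 _ rfl) (G381 _ rfl) (by decide +kernel))
theorem l15 : HoldsN X2 (Trg.right (Trg.left (Trg.left (Trg.left (chamberN 9 20))))) (Trg.left (Trg.left (Trg.right (Trg.right (chamberN 9 20))))) :=
  HoldsN.of_red (k := 16) (m := 16) (leaf ok2 (G494 _ rfl) (G220 _ rfl) (G318 _ rfl) (by decide +kernel))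
theorem l16 : HoldsN X2 (Trg.right (Trg.left (Trg.left (Trg.left (chamberN 9 20))))) (Trg.right (Trg.left (Trg.right (Trg.right (chamberN 9 20))))) :=
  HoldsN.of_red (k := 16) (m := 16) (leaf ok2 (G438 _ rfl) (G310 _ rfl) (G319 _ rfl) (by decide +kernel))
theorem l17 : HoldsN X2 (Trg.left (Trg.left (Trg.left (chamberN 9 20)))) (Trg.right (Trg.right (Trg.right (chamberN 9 20)))) :=
  HoldsN.of_red (k := 16) (m := 16) (leaf ok2 (G483 _ rfl) (G220 _ rfl) (G236 _ rfl) (by decide +kernel))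
theorem l18 : HoldsN X2 (Trg.right (Trg.left (Trg.left (chamberN 9 20)))) (Trg.left (Trg.left (Trg.right (Trg.right (chamberN 9 20))))) :=
  HoldsN.of_red (k := 16) (m := 16) (leaf ok2 (G432 _ rfl) (G310 _ rfl) (G384 _ rfl) (by decide +kernel))
theorem l19 : HoldsN X2 (Trg.left (Trg.left (Trg.right (Trg.left (Trg.left (chamberN 9 20)))))) (Trg.right (Trg.left (Trg.right (Trg.right (chamberN 9 20))))) :=
  HoldsN.of_red (k := 16) (m := 16) (leaf ok2 (G426 _ rfl) (G348 _ rfl) (G380 _ rfl) (by decide +kernel))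

end Vale.Agent.Lib.P154N.D5
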