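import Vale.Agent.Lib.P154N.D5.Data
import Vale.Agent.Lib.P154N.Red

/-!
# Leaves of the tree of triangles
-/

namespace Vale.Agent.Lib.P154N.D5

open Vale.Agent.Lib.P154K Vale.Agent.Lib.P154Neg

theorem l100 : HoldsN X2 (Trg.left (Trg.right (Trg.right (Trg.left (chamberN 9 20))))) (Trg.left (Trg.left (Trg.left (Trg.left (chamberNR 9 20))))) :=
  HoldsN.of_red (k := 16) (m := 16) (leaf ok2 (G420 _ rfl) (G188 _ rfl) (G459 _ rfl) (by decide +kernel))
theorem l101 : HoldsN X2 (Trg.left (Trg.right (Trg.right (Trg.left (chamberN 9 20))))) (Trg.right (Trg.left (Trg.left (Trg.left (chamberNR 9 20))))) :=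
  HoldsN.of_red (k := 16) (m := 16) (leaf ok2 (G495 _ rfl) (G133 _ rfl) (G460 _ rfl) (by decide +kernel))
theorem l102 : HoldsN X2 (Trg.right (Trg.right (Trg.right (Trg.left (chamberN 9 20))))) (Trg.left (Trg.left (Trg.left (chamberNR 9 20)))) :=
  HoldsN.of_red (k := 16) (m := 16) (leaf ok2 (G406 _ rfl) (G156 _ rfl) (G470 _ rfl) (by decide +kernel))
theorem l103 : HoldsN X2 (Trg.right (Trg.left (chamberN 9 20))) (Trg.right (Trg.left (Trg.left (chamberNR 9 20)))) :=
  HoldsN.of_red (k := 16) (m := 16) (leaf ok2 (G362 _ rfl) (G247 _ rfl) (G428 _ rfl) (by decide +kernel))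
theorem l104 : HoldsN X2 (Trg.left (Trg.left (Trg.right (Trg.left (chamberN 9 20))))) (Trg.left (Trg.right (Trg.left (chamberNR 9 20)))) :=
  HoldsN.of_red (k := 16) (m := 16) (leaf ok2 (G345 _ rfl) (G191 _ rfl) (G478 _ rfl) (by decide +kernel))
theorem l105 : HoldsN X2 (Trg.right (Trg.left (Trg.right (Trg.left (chamberN 9 20))))) (Trg.left (Trg.left (Trg.right (Trg.left (chamberNR 9 20))))) :=
  HoldsN.of_red (k := 16) (m := 16) (leaf ok2 (G345 _ rfl) (G190 _ rfl) (G490 _ rfl) (by decide +kernel))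
theorem l106 : HoldsN X2 (Trg.right (Trg.left (Trg.right (Trg.left (chamberN 9 20))))) (Trg.right (Trg.left (Trg.right (Trg.left (chamberNR 9 20))))) :=
  HoldsN.of_red (k := 16) (m := 16) (leaf ok2 (G314 _ rfl) (G189 _ rfl) (G512 _ rfl) (by decide +kernel))
theorem l107 : HoldsN X2 (Trg.left (Trg.right (Trg.left (chamberN 9 20)))) (Trg.right (Trg.right (Trg.left (chamberNR 9 20)))) :=
  HoldsN.of_red (k := 16) (m := 16) (leaf ok2 (G364 _ rfl) (G156 _ rfl) (G478 _ rfl) (by decide +kernel))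
theorem l108 : HoldsN X2 (Trg.left (Trg.right (Trg.right (Trg.left (chamberN 9 20))))) (Trg.left (Trg.right (Trg.left (chamberNR 9 20)))) :=
  HoldsN.of_red (k := 16) (m := 16) (leaf ok2 (G406 _ rfl) (G154 _ rfl) (G490 _ rfl) (by decide +kernel))
theorem l109 : HoldsN X2 (Trg.left (Trg.right (Trg.right (Trg.left (chamberN 9 20))))) (Trg.left (Trg.right (Trg.right (Trg.left (chamberNR 9 20))))) :=
  HoldsN.of_red (k := 16) (m := 16) (leaf ok2 (G495 _ rfl) (G131 _ rfl) (G477 _ rfl) (by decide +kernel))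

end Vale.Agent.Lib.P154N.D5
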