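import Vale.Agent.Lib.P154N.D5.Data
import Vale.Agent.Lib.P154N.Red

/-!
# Leaves of the tree of triangles
-/

namespace Vale.Agent.Lib.P154N.D5

open Vale.Agent.Lib.P154K Vale.Agent.Lib.P154Neg

theorem l1000 : HoldsN X5 (Trg.right (Trg.left (Trg.right (Trg.right (chamber 1 1))))) (Trg.right (Trg.left (Trg.right (chamberNR 9 20)))) :=
  HoldsN.of_red (k := 16) (m := 16) (leaf ok5 (G76 _ rfl) (G456 _ rfl) (G443 _ rfl) (by decide +kernel))
theorem l1001 : HoldsN X5 (Trg.right (Trg.right (Trg.right (chamber 1 1)))) (Trg.left (Trg.left (Trg.right (chamberNR 9 20)))) :=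
  HoldsN.of_red (k := 16) (m := 16) (leaf ok5 (G29 _ rfl) (G580 _ rfl) (G301 _ rfl) (by decide +kernel))
theorem l1002 : HoldsN X5 (Trg.right (Trg.right (Trg.right (chamber 1 1)))) (Trg.left (Trg.right (Trg.left (Trg.right (chamberNR 9 20))))) :=
  HoldsN.of_red (k := 16) (m := 16) (leaf ok5 (G14 _ rfl) (G610 _ rfl) (G468 _ rfl) (by decide +kernel))
theorem l1003 : HoldsN X5 (Trg.right (Trg.right (Trg.right (chamber 1 1)))) (Trg.right (Trg.right (Trg.left (Trg.right (chamberNR 9 20))))) :=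
  HoldsN.of_red (k := 16) (m := 16) (leaf ok5 (G29 _ rfl) (G580 _ rfl) (G467 _ rfl) (by decide +kernel))
theorem l1004 : HoldsN X5 (Trg.left (Trg.left (Trg.right (Trg.right (chamber 1 1))))) (Trg.left (Trg.left (Trg.right (Trg.right (chamberNR 9 20))))) :=
  HoldsN.of_red (k := 16) (m := 16) (leaf ok5 (G94 _ rfl) (G479 _ rfl) (G409 _ rfl) (by decide +kernel))
theorem l1005 : HoldsN X5 (Trg.left (Trg.left (Trg.left (Trg.right (Trg.right (chamber 1 1)))))) (Trg.left (Trg.right (Trg.left (Trg.right (Trg.right (chamberNR 9 20)))))) :=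
  HoldsN.of_red (k := 16) (m := 16) (leaf ok5 (G234 _ rfl) (G430 _ rfl) (G418 _ rfl) (by decide +kernel))
theorem l1006 : HoldsN X5 (Trg.right (Trg.left (Trg.left (Trg.right (Trg.right (chamber 1 1)))))) (Trg.left (Trg.right (Trg.left (Trg.right (Trg.right (chamberNR 9 20)))))) :=
  HoldsN.of_red (k := 16) (m := 16) (leaf ok5 (G193 _ rfl) (G430 _ rfl) (G430 _ rfl) (by decide +kernel))
theorem l1007 : HoldsN X5 (Trg.left (Trg.left (Trg.right (Trg.right (chamber 1 1))))) (Trg.right (Trg.right (Trg.left (Trg.right (Trg.right (chamberNR 9 20)))))) :=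
  HoldsN.of_red (k := 16) (m := 16) (leaf ok5 (G162 _ rfl) (G479 _ rfl) (G402 _ rfl) (by decide +kernel))
theorem l1008 : HoldsN X5 (Trg.left (Trg.right (Trg.left (Trg.right (Trg.right (chamber 1 1)))))) (Trg.left (Trg.left (Trg.right (Trg.right (chamberNR 9 20))))) :=
  HoldsN.of_red (k := 16) (m := 16) (leaf ok5 (G193 _ rfl) (G430 _ rfl) (G419 _ rfl) (by decide +kernel))
theorem l1009 : HoldsN X5 (Trg.right (Trg.right (Trg.left (Trg.right (Trg.right (chamber 1 1)))))) (Trg.left (Trg.left (Trg.right (Trg.right (chamberNR 9 20))))) :=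
  HoldsN.of_red (k := 16) (m := 16) (leaf ok5 (G162 _ rfl) (G479 _ rfl) (G402 _ rfl) (by decide +kernel))

end Vale.Agent.Lib.P154N.D5
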