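import Vale.Agent.Lib.P154N.D5.Data
import Vale.Agent.Lib.P154N.Red

/-!
# Leaves of the tree of triangles
-/

namespace Vale.Agent.Lib.P154N.D5

open Vale.Agent.Lib.P154K Vale.Agent.Lib.P154Neg

theorem l1010 : HoldsN X5 (Trg.left (Trg.right (Trg.left (Trg.right (Trg.right (chamber 1 1)))))) (Trg.right (Trg.left (Trg.right (Trg.right (chamberNR 9 20))))) :=
  HoldsN.of_red (k := 16) (m := 16) (leaf ok5 (G270 _ rfl) (G430 _ rfl) (G417 _ rfl) (by decide +kernel))
theorem l1011 : HoldsN X5 (Trg.right (Trg.right (Trg.left (Trg.right (Trg.right (chamber 1 1)))))) (Trg.right (Trg.left (Trg.right (Trg.right (chamberNR 9 20))))) :=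
  HoldsN.of_red (k := 16) (m := 16) (leaf ok5 (G263 _ rfl) (G438 _ rfl) (G397 _ rfl) (by decide +kernel))
theorem l1012 : HoldsN X5 (Trg.left (Trg.right (Trg.right (chamber 1 1)))) (Trg.right (Trg.right (Trg.right (chamberNR 9 20)))) :=
  HoldsN.of_red (k := 16) (m := 16) (leaf ok5 (G76 _ rfl) (G456 _ rfl) (G368 _ rfl) (by decide +kernel))
theorem l1013 : HoldsN X5 (Trg.right (Trg.right (Trg.right (chamber 1 1)))) (Trg.left (Trg.left (Trg.right (Trg.right (chamberNR 9 20))))) :=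
  HoldsN.of_red (k := 16) (m := 16) (leaf ok5 (G73 _ rfl) (G516 _ rfl) (G367 _ rfl) (by decide +kernel))
theorem l1014 : HoldsN X5 (Trg.right (Trg.right (Trg.right (chamber 1 1)))) (Trg.right (Trg.left (Trg.right (Trg.right (chamberNR 9 20))))) :=
  HoldsN.of_red (k := 16) (m := 16) (leaf ok5 (G148 _ rfl) (G453 _ rfl) (G360 _ rfl) (by decide +kernel))
theorem l1015 : HoldsN X5 (Trg.right (Trg.right (Trg.right (chamber 1 1)))) (Trg.right (Trg.right (Trg.right (chamberNR 9 20)))) :=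
  HoldsN.of_red (k := 16) (m := 16) (leaf ok5 (G54 _ rfl) (G557 _ rfl) (G300 _ rfl) (by decide +kernel))

end Vale.Agent.Lib.P154N.D5
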