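import Vale.Agent.Lib.P154N.D5.Data
import Vale.Agent.Lib.P154N.Red

/-!
# Leaves of the tree of triangles
-/

namespace Vale.Agent.Lib.P154N.D5

open Vale.Agent.Lib.P154K Vale.Agent.Lib.P154Neg

theorem l110 : HoldsN X2 (Trg.left (Trg.right (Trg.right (Trg.left (chamberN 9 20))))) (Trg.right (Trg.right (Trg.right (Trg.left (chamberNR 9 20))))) :=
  HoldsN.of_red (k := 16) (m := 16) (leaf ok2 (G421 _ rfl) (G154 _ rfl) (G489 _ rfl) (by decide +kernel))
theorem l111 : HoldsN X2 (Trg.right (Trg.right (Trg.right (Trg.left (chamberN 9 20))))) (Trg.right (Trg.left (chamberNR 9 20))) :=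
  HoldsN.of_red (k := 16) (m := 16) (leaf ok2 (G364 _ rfl) (G156 _ rfl) (G478 _ rfl) (by decide +kernel))
theorem l112 : HoldsN X2 (Trg.left (chamberN 9 20)) (Trg.left (Trg.right (chamberNR 9 20))) :=
  HoldsN.of_red (k := 16) (m := 16) (leaf ok2 (G458 _ rfl) (G116 _ rfl) (G317 _ rfl) (by decide +kernel))
theorem l113 : HoldsN X2 (Trg.left (Trg.left (Trg.left (Trg.left (chamberN 9 20))))) (Trg.left (Trg.left (Trg.right (Trg.right (chamberNR 9 20))))) :=
  HoldsN.of_red (k := 16) (m := 16) (leaf ok2 (G433 _ rfl) (G259 _ rfl) (G396 _ rfl) (by decide +kernel))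
theorem l114 : HoldsN X2 (Trg.left (Trg.left (Trg.left (Trg.left (chamberN 9 20))))) (Trg.right (Trg.left (Trg.right (Trg.right (chamberNR 9 20))))) :=
  HoldsN.of_red (k := 16) (m := 16) (leaf ok2 (G425 _ rfl) (G286 _ rfl) (G417 _ rfl) (by decide +kernel))
theorem l115 : HoldsN X2 (Trg.right (Trg.left (Trg.left (Trg.left (chamberN 9 20))))) (Trg.left (Trg.left (Trg.right (Trg.right (chamberNR 9 20))))) :=
  HoldsN.of_red (k := 16) (m := 16) (leaf ok2 (G494 _ rfl) (G219 _ rfl) (G351 _ rfl) (by decide +kernel))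
theorem l116 : HoldsN X2 (Trg.right (Trg.left (Trg.left (Trg.left (chamberN 9 20))))) (Trg.right (Trg.left (Trg.right (Trg.right (chamberNR 9 20))))) :=
  HoldsN.of_red (k := 16) (m := 16) (leaf ok2 (G432 _ rfl) (G247 _ rfl) (G395 _ rfl) (by decide +kernel))
theorem l117 : HoldsN X2 (Trg.left (Trg.left (Trg.left (Trg.left (chamberN 9 20))))) (Trg.right (Trg.right (Trg.right (chamberNR 9 20)))) :=
  HoldsN.of_red (k := 16) (m := 16) (leaf ok2 (G433 _ rfl) (G188 _ rfl) (G400 _ rfl) (by decide +kernel))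
theorem l118 : HoldsN X2 (Trg.left (Trg.right (Trg.left (Trg.left (Trg.left (chamberN 9 20)))))) (Trg.left (Trg.right (Trg.right (Trg.right (chamberNR 9 20))))) :=
  HoldsN.of_red (k := 16) (m := 16) (leaf ok2 (G495 _ rfl) (G133 _ rfl) (G424 _ rfl) (by decide +kernel))
theorem l119 : HoldsN X2 (Trg.left (Trg.right (Trg.left (Trg.left (Trg.left (chamberN 9 20)))))) (Trg.right (Trg.right (Trg.right (Trg.right (chamberNR 9 20))))) :=
  HoldsN.of_red (k := 16) (m := 16) (leaf ok2 (G495 _ rfl) (G159 _ rfl) (G351 _ rfl) (by decide +kernel))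

end Vale.Agent.Lib.P154N.D5
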