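import Vale.Agent.Lib.P154N.D5.Data
import Vale.Agent.Lib.P154N.Red

/-!
# Leaves of the tree of triangles
-/

namespace Vale.Agent.Lib.P154N.D5

open Vale.Agent.Lib.P154K Vale.Agent.Lib.P154Neg

theorem l120 : HoldsN X2 (Trg.right (Trg.right (Trg.left (Trg.left (Trg.left (chamberN 9 20)))))) (Trg.right (Trg.right (Trg.right (chamberNR 9 20)))) :=
  HoldsN.of_red (k := 16) (m := 16) (leaf ok2 (G491 _ rfl) (G186 _ rfl) (G385 _ rfl) (by decide +kernel))
theorem l121 : HoldsN X2 (Trg.right (Trg.left (Trg.left (chamberN 9 20)))) (Trg.left (Trg.left (Trg.right (Trg.right (chamberNR 9 20))))) :=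
  HoldsN.of_red (k := 16) (m := 16) (leaf ok2 (G432 _ rfl) (G310 _ rfl) (G397 _ rfl) (by decide +kernel))
theorem l122 : HoldsN X2 (Trg.left (Trg.left (Trg.right (Trg.left (Trg.left (chamberN 9 20)))))) (Trg.right (Trg.left (Trg.right (Trg.right (chamberNR 9 20))))) :=
  HoldsN.of_red (k := 16) (m := 16) (leaf ok2 (G425 _ rfl) (G319 _ rfl) (G416 _ rfl) (by decide +kernel))
theorem l123 : HoldsN X2 (Trg.right (Trg.left (Trg.right (Trg.left (Trg.left (chamberN 9 20)))))) (Trg.right (Trg.left (Trg.right (Trg.right (chamberNR 9 20))))) :=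
  HoldsN.of_red (k := 16) (m := 16) (leaf ok2 (G422 _ rfl) (G379 _ rfl) (G416 _ rfl) (by decide +kernel))
theorem l124 : HoldsN X2 (Trg.right (Trg.right (Trg.left (Trg.left (chamberN 9 20))))) (Trg.right (Trg.left (Trg.right (Trg.right (chamberNR 9 20))))) :=
  HoldsN.of_red (k := 16) (m := 16) (leaf ok2 (G425 _ rfl) (G319 _ rfl) (G417 _ rfl) (by decide +kernel))
theorem l125 : HoldsN X2 (Trg.right (Trg.left (Trg.left (chamberN 9 20)))) (Trg.right (Trg.right (Trg.right (chamberNR 9 20)))) :=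
  HoldsN.of_red (k := 16) (m := 16) (leaf ok2 (G432 _ rfl) (G247 _ rfl) (G401 _ rfl) (by decide +kernel))
theorem l126 : HoldsN X2 (Trg.left (Trg.right (Trg.left (chamberN 9 20)))) (Trg.left (Trg.right (Trg.right (chamberNR 9 20)))) :=
  HoldsN.of_red (k := 16) (m := 16) (leaf ok2 (G438 _ rfl) (G223 _ rfl) (G428 _ rfl) (by decide +kernel))
theorem l127 : HoldsN X2 (Trg.left (Trg.right (Trg.right (Trg.left (chamberN 9 20))))) (Trg.left (Trg.left (Trg.right (Trg.right (chamberNR 9 20))))) :=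
  HoldsN.of_red (k := 16) (m := 16) (leaf ok2 (G494 _ rfl) (G218 _ rfl) (G355 _ rfl) (by decide +kernel))
theorem l128 : HoldsN X2 (Trg.left (Trg.right (Trg.right (Trg.left (chamberN 9 20))))) (Trg.right (Trg.left (Trg.right (Trg.right (chamberNR 9 20))))) :=
  HoldsN.of_red (k := 16) (m := 16) (leaf ok2 (G432 _ rfl) (G247 _ rfl) (G399 _ rfl) (by decide +kernel))
theorem l129 : HoldsN X2 (Trg.right (Trg.right (Trg.right (Trg.left (chamberN 9 20))))) (Trg.left (Trg.left (Trg.right (Trg.right (chamberNR 9 20))))) :=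
  HoldsN.of_red (k := 16) (m := 16) (leaf ok2 (G437 _ rfl) (G219 _ rfl) (G424 _ rfl) (by decide +kernel))

end Vale.Agent.Lib.P154N.D5
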