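import Vale.Agent.Lib.P154N.D5.Data
import Vale.Agent.Lib.P154N.Red

/-!
# Leaves of the tree of triangles
-/

namespace Vale.Agent.Lib.P154N.D5

open Vale.Agent.Lib.P154K Vale.Agent.Lib.P154Neg

theorem l130 : HoldsN X2 (Trg.right (Trg.right (Trg.right (Trg.left (chamberN 9 20))))) (Trg.right (Trg.left (Trg.right (Trg.right (chamberNR 9 20))))) :=
  HoldsN.of_red (k := 16) (m := 16) (leaf ok2 (G426 _ rfl) (G263 _ rfl) (G425 _ rfl) (by decide +kernel))
theorem l131 : HoldsN X2 (Trg.left (Trg.right (Trg.left (chamberN 9 20)))) (Trg.right (Trg.right (Trg.right (chamberNR 9 20)))) :=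
  HoldsN.of_red (k := 16) (m := 16) (leaf ok2 (G437 _ rfl) (G154 _ rfl) (G463 _ rfl) (by decide +kernel))
theorem l132 : HoldsN X2 (Trg.left (Trg.right (Trg.right (Trg.left (chamberN 9 20))))) (Trg.left (Trg.left (Trg.right (Trg.right (Trg.right (chamberNR 9 20)))))) :=
  HoldsN.of_red (k := 16) (m := 16) (leaf ok2 (G495 _ rfl) (G159 _ rfl) (G427 _ rfl) (by decide +kernel))
theorem l133 : HoldsN X2 (Trg.left (Trg.right (Trg.right (Trg.left (chamberN 9 20))))) (Trg.right (Trg.left (Trg.right (Trg.right (Trg.right (chamberNR 9 20)))))) :=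
  HoldsN.of_red (k := 16) (m := 16) (leaf ok2 (G513 _ rfl) (G130 _ rfl) (G431 _ rfl) (by decide +kernel))
theorem l134 : HoldsN X2 (Trg.left (Trg.right (Trg.right (Trg.left (chamberN 9 20))))) (Trg.right (Trg.right (Trg.right (Trg.right (chamberNR 9 20))))) :=
  HoldsN.of_red (k := 16) (m := 16) (leaf ok2 (G495 _ rfl) (G159 _ rfl) (G355 _ rfl) (by decide +kernel))
theorem l135 : HoldsN X2 (Trg.right (Trg.right (Trg.right (Trg.left (chamberN 9 20))))) (Trg.right (Trg.right (Trg.right (chamberNR 9 20)))) :=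
  HoldsN.of_red (k := 16) (m := 16) (leaf ok2 (G437 _ rfl) (G154 _ rfl) (G431 _ rfl) (by decide +kernel))
theorem l136 : HoldsN X2 (Trg.left (Trg.left (Trg.right (chamberN 9 20)))) (Trg.left (Trg.left (Trg.left (Trg.left (chamberNR 9 20))))) :=
  HoldsN.of_red (k := 16) (m := 16) (leaf ok2 (G464 _ rfl) (G160 _ rfl) (G400 _ rfl) (by decide +kernel))
theorem l137 : HoldsN X2 (Trg.left (Trg.left (Trg.left (Trg.left (Trg.right (chamberN 9 20)))))) (Trg.left (Trg.right (Trg.left (Trg.left (Trg.left (chamberNR 9 20)))))) :=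
  HoldsN.of_red (k := 16) (m := 16) (leaf ok2 (G535 _ rfl) (G121 _ rfl) (G382 _ rfl) (by decide +kernel))
theorem l138 : HoldsN X2 (Trg.left (Trg.left (Trg.left (Trg.left (Trg.right (chamberN 9 20)))))) (Trg.right (Trg.right (Trg.left (Trg.left (Trg.left (chamberNR 9 20)))))) :=
  HoldsN.of_red (k := 16) (m := 16) (leaf ok2 (G522 _ rfl) (G158 _ rfl) (G394 _ rfl) (by decide +kernel))
theorem l139 : HoldsN X2 (Trg.right (Trg.left (Trg.left (Trg.left (Trg.right (chamberN 9 20)))))) (Trg.right (Trg.left (Trg.left (Trg.left (chamberNR 9 20))))) :=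
  HoldsN.of_red (k := 16) (m := 16) (leaf ok2 (G524 _ rfl) (G153 _ rfl) (G351 _ rfl) (by decide +kernel))

end Vale.Agent.Lib.P154N.D5
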