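import Vale.Agent.Lib.P154N.D5.Data
import Vale.Agent.Lib.P154N.Red

/-!
# Leaves of the tree of triangles
-/

namespace Vale.Agent.Lib.P154N.D5

open Vale.Agent.Lib.P154K Vale.Agent.Lib.P154Neg

theorem l140 : HoldsN X2 (Trg.right (Trg.left (Trg.left (Trg.right (chamberN 9 20))))) (Trg.left (Trg.right (Trg.left (Trg.left (Trg.left (chamberNR 9 20)))))) :=
  HoldsN.of_red (k := 16) (m := 16) (leaf ok2 (G535 _ rfl) (G121 _ rfl) (G398 _ rfl) (by decide +kernel))
theorem l141 : HoldsN X2 (Trg.right (Trg.left (Trg.left (Trg.right (chamberN 9 20))))) (Trg.right (Trg.right (Trg.left (Trg.left (Trg.left (chamberNR 9 20)))))) :=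
  HoldsN.of_red (k := 16) (m := 16) (leaf ok2 (G522 _ rfl) (G158 _ rfl) (G398 _ rfl) (by decide +kernel))
theorem l142 : HoldsN X2 (Trg.left (Trg.right (Trg.left (Trg.right (chamberN 9 20))))) (Trg.left (Trg.left (Trg.left (Trg.left (chamberNR 9 20))))) :=
  HoldsN.of_red (k := 16) (m := 16) (leaf ok2 (G496 _ rfl) (G143 _ rfl) (G358 _ rfl) (by decide +kernel))
theorem l143 : HoldsN X2 (Trg.left (Trg.right (Trg.left (Trg.right (chamberN 9 20))))) (Trg.right (Trg.left (Trg.left (Trg.left (chamberNR 9 20))))) :=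
  HoldsN.of_red (k := 16) (m := 16) (leaf ok2 (G562 _ rfl) (G109 _ rfl) (G313 _ rfl) (by decide +kernel))
theorem l144 : HoldsN X2 (Trg.right (Trg.right (Trg.left (Trg.right (chamberN 9 20))))) (Trg.left (Trg.left (Trg.left (Trg.left (chamberNR 9 20))))) :=
  HoldsN.of_red (k := 16) (m := 16) (leaf ok2 (G479 _ rfl) (G160 _ rfl) (G386 _ rfl) (by decide +kernel))
theorem l145 : HoldsN X2 (Trg.left (Trg.right (Trg.right (Trg.left (Trg.right (chamberN 9 20)))))) (Trg.right (Trg.left (Trg.left (Trg.left (chamberNR 9 20))))) :=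
  HoldsN.of_red (k := 16) (m := 16) (leaf ok2 (G527 _ rfl) (G145 _ rfl) (G341 _ rfl) (by decide +kernel))
theorem l146 : HoldsN X2 (Trg.right (Trg.right (Trg.right (Trg.left (Trg.right (chamberN 9 20)))))) (Trg.right (Trg.left (Trg.left (Trg.left (chamberNR 9 20))))) :=
  HoldsN.of_red (k := 16) (m := 16) (leaf ok2 (G546 _ rfl) (G122 _ rfl) (G343 _ rfl) (by decide +kernel))
theorem l147 : HoldsN X2 (Trg.left (Trg.right (chamberN 9 20))) (Trg.right (Trg.left (Trg.left (chamberNR 9 20)))) :=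
  HoldsN.of_red (k := 16) (m := 16) (leaf ok2 (G446 _ rfl) (G223 _ rfl) (G359 _ rfl) (by decide +kernel))
theorem l148 : HoldsN X2 (Trg.left (Trg.left (Trg.right (chamberN 9 20)))) (Trg.left (Trg.right (Trg.left (chamberNR 9 20)))) :=
  HoldsN.of_red (k := 16) (m := 16) (leaf ok2 (G465 _ rfl) (G127 _ rfl) (G463 _ rfl) (by decide +kernel))
theorem l149 : HoldsN X2 (Trg.left (Trg.left (Trg.right (chamberN 9 20)))) (Trg.left (Trg.right (Trg.right (Trg.left (chamberNR 9 20))))) :=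
  HoldsN.of_red (k := 16) (m := 16) (leaf ok2 (G535 _ rfl) (G122 _ rfl) (G361 _ rfl) (by decide +kernel))

end Vale.Agent.Lib.P154N.D5
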