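import Vale.Agent.Lib.P154N.D5.Data
import Vale.Agent.Lib.P154N.Red

/-!
# Leaves of the tree of triangles
-/

namespace Vale.Agent.Lib.P154N.D5

open Vale.Agent.Lib.P154K Vale.Agent.Lib.P154Neg

theorem l150 : HoldsN X2 (Trg.left (Trg.left (Trg.right (chamberN 9 20)))) (Trg.right (Trg.right (Trg.right (Trg.left (chamberNR 9 20))))) :=
  HoldsN.of_red (k := 16) (m := 16) (leaf ok2 (G465 _ rfl) (G127 _ rfl) (G431 _ rfl) (by decide +kernel))
theorem l151 : HoldsN X2 (Trg.right (Trg.left (Trg.right (chamberN 9 20)))) (Trg.right (Trg.left (chamberNR 9 20))) :=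
  HoldsN.of_red (k := 16) (m := 16) (leaf ok2 (G486 _ rfl) (G111 _ rfl) (G316 _ rfl) (by decide +kernel))
theorem l152 : HoldsN X2 (Trg.left (Trg.left (Trg.right (chamberN 9 20)))) (Trg.left (Trg.right (chamberNR 9 20))) :=
  HoldsN.of_red (k := 16) (m := 16) (leaf ok2 (G564 _ rfl) (G111 _ rfl) (G183 _ rfl) (by decide +kernel))
theorem l153 : HoldsN X2 (Trg.left (Trg.right (Trg.left (Trg.right (chamberN 9 20))))) (Trg.left (Trg.left (Trg.left (Trg.left (Trg.right (chamberNR 9 20)))))) :=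
  HoldsN.of_red (k := 16) (m := 16) (leaf ok2 (G604 _ rfl) (G106 _ rfl) (G175 _ rfl) (by decide +kernel))
theorem l154 : HoldsN X2 (Trg.left (Trg.right (Trg.left (Trg.right (chamberN 9 20))))) (Trg.right (Trg.left (Trg.left (Trg.left (Trg.right (chamberNR 9 20)))))) :=
  HoldsN.of_red (k := 16) (m := 16) (leaf ok2 (G592 _ rfl) (G143 _ rfl) (G188 _ rfl) (by decide +kernel))
theorem l155 : HoldsN X2 (Trg.left (Trg.right (Trg.left (Trg.right (chamberN 9 20))))) (Trg.right (Trg.left (Trg.left (Trg.right (chamberNR 9 20))))) :=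
  HoldsN.of_red (k := 16) (m := 16) (leaf ok2 (G604 _ rfl) (G106 _ rfl) (G177 _ rfl) (by decide +kernel))
theorem l156 : HoldsN X2 (Trg.left (Trg.right (Trg.left (Trg.right (chamberN 9 20))))) (Trg.left (Trg.right (Trg.left (Trg.right (chamberNR 9 20))))) :=
  HoldsN.of_red (k := 16) (m := 16) (leaf ok2 (G635 _ rfl) (G106 _ rfl) (G110 _ rfl) (by decide +kernel))
theorem l157 : HoldsN X2 (Trg.left (Trg.right (Trg.left (Trg.right (chamberN 9 20))))) (Trg.left (Trg.right (Trg.right (Trg.left (Trg.right (chamberNR 9 20)))))) :=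
  HoldsN.of_red (k := 16) (m := 16) (leaf ok2 (G593 _ rfl) (G143 _ rfl) (G144 _ rfl) (by decide +kernel))
theorem l158 : HoldsN X2 (Trg.left (Trg.right (Trg.left (Trg.right (chamberN 9 20))))) (Trg.right (Trg.right (Trg.right (Trg.left (Trg.right (chamberNR 9 20)))))) :=
  HoldsN.of_red (k := 16) (m := 16) (leaf ok2 (G620 _ rfl) (G106 _ rfl) (G144 _ rfl) (by decide +kernel))
theorem l159 : HoldsN X2 (Trg.right (Trg.right (Trg.left (Trg.right (chamberN 9 20))))) (Trg.left (Trg.right (chamberNR 9 20))) :=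
  HoldsN.of_red (k := 16) (m := 16) (leaf ok2 (G564 _ rfl) (G111 _ rfl) (G147 _ rfl) (by decide +kernel))

end Vale.Agent.Lib.P154N.D5
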