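import Vale.Agent.Lib.P154N.D5.Data
import Vale.Agent.Lib.P154N.Red

/-!
# Leaves of the tree of triangles
-/

namespace Vale.Agent.Lib.P154N.D5

open Vale.Agent.Lib.P154K Vale.Agent.Lib.P154Neg

theorem l160 : HoldsN X2 (Trg.left (Trg.left (Trg.right (chamberN 9 20)))) (Trg.left (Trg.left (Trg.right (Trg.right (chamberNR 9 20))))) :=
  HoldsN.of_red (k := 16) (m := 16) (leaf ok2 (G510 _ rfl) (G219 _ rfl) (G272 _ rfl) (by decide +kernel))
theorem l161 : HoldsN X2 (Trg.left (Trg.left (Trg.right (chamberN 9 20)))) (Trg.right (Trg.left (Trg.right (Trg.right (chamberNR 9 20))))) :=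
  HoldsN.of_red (k := 16) (m := 16) (leaf ok2 (G440 _ rfl) (G234 _ rfl) (G342 _ rfl) (by decide +kernel))
theorem l162 : HoldsN X2 (Trg.left (Trg.left (Trg.right (Trg.left (Trg.right (chamberN 9 20)))))) (Trg.left (Trg.left (Trg.left (Trg.right (Trg.right (chamberNR 9 20)))))) :=
  HoldsN.of_red (k := 16) (m := 16) (leaf ok2 (G531 _ rfl) (G218 _ rfl) (G309 _ rfl) (by decide +kernel))
theorem l163 : HoldsN X2 (Trg.left (Trg.left (Trg.right (Trg.left (Trg.right (chamberN 9 20)))))) (Trg.right (Trg.left (Trg.left (Trg.right (Trg.right (chamberNR 9 20)))))) :=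
  HoldsN.of_red (k := 16) (m := 16) (leaf ok2 (G533 _ rfl) (G218 _ rfl) (G243 _ rfl) (by decide +kernel))
theorem l164 : HoldsN X2 (Trg.left (Trg.right (Trg.left (Trg.right (Trg.left (Trg.right (chamberN 9 20))))))) (Trg.left (Trg.left (Trg.right (Trg.right (chamberNR 9 20))))) :=
  HoldsN.of_red (k := 16) (m := 16) (leaf ok2 (G556 _ rfl) (G217 _ rfl) (G220 _ rfl) (by decide +kernel))
theorem l165 : HoldsN X2 (Trg.right (Trg.right (Trg.left (Trg.right (Trg.left (Trg.right (chamberN 9 20))))))) (Trg.left (Trg.left (Trg.left (Trg.right (Trg.right (chamberNR 9 20)))))) :=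
  HoldsN.of_red (k := 16) (m := 16) (leaf ok2 (G531 _ rfl) (G218 _ rfl) (G284 _ rfl) (by decide +kernel))
theorem l166 : HoldsN X2 (Trg.right (Trg.right (Trg.left (Trg.right (Trg.left (Trg.right (chamberN 9 20))))))) (Trg.left (Trg.right (Trg.left (Trg.left (Trg.right (Trg.right (chamberNR 9 20))))))) :=
  HoldsN.of_red (k := 16) (m := 16) (leaf ok2 (G571 _ rfl) (G215 _ rfl) (G230 _ rfl) (by decide +kernel))
theorem l167 : HoldsN X2 (Trg.right (Trg.right (Trg.left (Trg.right (Trg.left (Trg.right (chamberN 9 20))))))) (Trg.right (Trg.right (Trg.left (Trg.left (Trg.right (Trg.right (chamberNR 9 20))))))) :=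
  HoldsN.of_red (k := 16) (m := 16) (leaf ok2 (G531 _ rfl) (G218 _ rfl) (G265 _ rfl) (by decide +kernel))
theorem l168 : HoldsN X2 (Trg.left (Trg.right (Trg.left (Trg.right (chamberN 9 20))))) (Trg.right (Trg.left (Trg.right (Trg.right (chamberNR 9 20))))) :=
  HoldsN.of_red (k := 16) (m := 16) (leaf ok2 (G446 _ rfl) (G223 _ rfl) (G310 _ rfl) (by decide +kernel))
theorem l169 : HoldsN X2 (Trg.left (Trg.left (Trg.right (Trg.right (Trg.left (Trg.right (chamberN 9 20))))))) (Trg.left (Trg.left (Trg.right (Trg.right (chamberNR 9 20))))) :=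
  HoldsN.of_red (k := 16) (m := 16) (leaf ok2 (G523 _ rfl) (G258 _ rfl) (G261 _ rfl) (by decide +kernel))

end Vale.Agent.Lib.P154N.D5
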