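import Vale.Agent.Lib.P154N.D5.Data
import Vale.Agent.Lib.P154N.Red

/-!
# Leaves of the tree of triangles
-/

namespace Vale.Agent.Lib.P154N.D5

open Vale.Agent.Lib.P154K Vale.Agent.Lib.P154Neg

theorem l170 : HoldsN X2 (Trg.right (Trg.left (Trg.right (Trg.right (Trg.left (Trg.right (chamberN 9 20))))))) (Trg.left (Trg.left (Trg.right (Trg.right (chamberNR 9 20))))) :=
  HoldsN.of_red (k := 16) (m := 16) (leaf ok2 (G508 _ rfl) (G259 _ rfl) (G268 _ rfl) (by decide +kernel))
theorem l171 : HoldsN X2 (Trg.right (Trg.right (Trg.right (Trg.left (Trg.right (chamberN 9 20)))))) (Trg.left (Trg.left (Trg.left (Trg.right (Trg.right (chamberNR 9 20)))))) :=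
  HoldsN.of_red (k := 16) (m := 16) (leaf ok2 (G521 _ rfl) (G218 _ rfl) (G309 _ rfl) (by decide +kernel))
theorem l172 : HoldsN X2 (Trg.right (Trg.right (Trg.right (Trg.left (Trg.right (chamberN 9 20)))))) (Trg.right (Trg.left (Trg.left (Trg.right (Trg.right (chamberNR 9 20)))))) :=
  HoldsN.of_red (k := 16) (m := 16) (leaf ok2 (G525 _ rfl) (G218 _ rfl) (G259 _ rfl) (by decide +kernel))
theorem l173 : HoldsN X2 (Trg.right (Trg.right (Trg.left (Trg.right (chamberN 9 20))))) (Trg.right (Trg.left (Trg.right (Trg.right (chamberNR 9 20))))) :=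
  HoldsN.of_red (k := 16) (m := 16) (leaf ok2 (G440 _ rfl) (G234 _ rfl) (G338 _ rfl) (by decide +kernel))
theorem l174 : HoldsN X2 (Trg.left (Trg.left (Trg.left (Trg.left (Trg.right (chamberN 9 20)))))) (Trg.left (Trg.left (Trg.right (Trg.right (Trg.right (chamberNR 9 20)))))) :=
  HoldsN.of_red (k := 16) (m := 16) (leaf ok2 (G526 _ rfl) (G152 _ rfl) (G337 _ rfl) (by decide +kernel))
theorem l175 : HoldsN X2 (Trg.left (Trg.left (Trg.left (Trg.left (Trg.right (chamberN 9 20)))))) (Trg.right (Trg.left (Trg.right (Trg.right (Trg.right (chamberNR 9 20)))))) :=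
  HoldsN.of_red (k := 16) (m := 16) (leaf ok2 (G558 _ rfl) (G121 _ rfl) (G337 _ rfl) (by decide +kernel))
theorem l176 : HoldsN X2 (Trg.left (Trg.left (Trg.left (Trg.left (Trg.right (chamberN 9 20)))))) (Trg.right (Trg.right (Trg.right (Trg.right (chamberNR 9 20))))) :=
  HoldsN.of_red (k := 16) (m := 16) (leaf ok2 (G526 _ rfl) (G152 _ rfl) (G269 _ rfl) (by decide +kernel))
theorem l177 : HoldsN X2 (Trg.right (Trg.left (Trg.left (Trg.left (Trg.right (chamberN 9 20)))))) (Trg.right (Trg.right (Trg.right (chamberNR 9 20)))) :=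
  HoldsN.of_red (k := 16) (m := 16) (leaf ok2 (G524 _ rfl) (G153 _ rfl) (G285 _ rfl) (by decide +kernel))
theorem l178 : HoldsN X2 (Trg.right (Trg.left (Trg.left (Trg.right (chamberN 9 20))))) (Trg.left (Trg.left (Trg.right (Trg.right (Trg.right (chamberNR 9 20)))))) :=
  HoldsN.of_red (k := 16) (m := 16) (leaf ok2 (G526 _ rfl) (G152 _ rfl) (G343 _ rfl) (by decide +kernel))
theorem l179 : HoldsN X2 (Trg.right (Trg.left (Trg.left (Trg.right (chamberN 9 20))))) (Trg.right (Trg.left (Trg.right (Trg.right (Trg.right (chamberNR 9 20)))))) :=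
  HoldsN.of_red (k := 16) (m := 16) (leaf ok2 (G558 _ rfl) (G121 _ rfl) (G344 _ rfl) (by decide +kernel))

end Vale.Agent.Lib.P154N.D5
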