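import Vale.Agent.Lib.P154N.D5.Data
import Vale.Agent.Lib.P154N.Red

/-!
# Leaves of the tree of triangles
-/

namespace Vale.Agent.Lib.P154N.D5

open Vale.Agent.Lib.P154K Vale.Agent.Lib.P154Neg

theorem l180 : HoldsN X2 (Trg.right (Trg.left (Trg.left (Trg.right (chamberN 9 20))))) (Trg.right (Trg.right (Trg.right (Trg.right (chamberNR 9 20))))) :=
  HoldsN.of_red (k := 16) (m := 16) (leaf ok2 (G526 _ rfl) (G152 _ rfl) (G272 _ rfl) (by decide +kernel))
theorem l181 : HoldsN X2 (Trg.left (Trg.right (Trg.left (Trg.right (chamberN 9 20))))) (Trg.left (Trg.right (Trg.right (Trg.right (chamberNR 9 20))))) :=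
  HoldsN.of_red (k := 16) (m := 16) (leaf ok2 (G562 _ rfl) (G109 _ rfl) (G262 _ rfl) (by decide +kernel))
theorem l182 : HoldsN X2 (Trg.left (Trg.left (Trg.right (Trg.left (Trg.right (chamberN 9 20)))))) (Trg.right (Trg.right (Trg.right (Trg.right (chamberNR 9 20))))) :=
  HoldsN.of_red (k := 16) (m := 16) (leaf ok2 (G559 _ rfl) (G151 _ rfl) (G246 _ rfl) (by decide +kernel))
theorem l183 : HoldsN X2 (Trg.right (Trg.left (Trg.right (Trg.left (Trg.right (chamberN 9 20)))))) (Trg.right (Trg.right (Trg.right (Trg.right (chamberNR 9 20))))) :=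
  HoldsN.of_red (k := 16) (m := 16) (leaf ok2 (G560 _ rfl) (G143 _ rfl) (G220 _ rfl) (by decide +kernel))
theorem l184 : HoldsN X2 (Trg.left (Trg.right (Trg.right (Trg.left (Trg.right (chamberN 9 20)))))) (Trg.right (Trg.right (Trg.right (chamberNR 9 20)))) :=
  HoldsN.of_red (k := 16) (m := 16) (leaf ok2 (G527 _ rfl) (G145 _ rfl) (G261 _ rfl) (by decide +kernel))
theorem l185 : HoldsN X2 (Trg.right (Trg.right (Trg.right (Trg.left (Trg.right (chamberN 9 20)))))) (Trg.left (Trg.right (Trg.right (Trg.right (chamberNR 9 20))))) :=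
  HoldsN.of_red (k := 16) (m := 16) (leaf ok2 (G546 _ rfl) (G122 _ rfl) (G285 _ rfl) (by decide +kernel))
theorem l186 : HoldsN X2 (Trg.right (Trg.right (Trg.right (Trg.left (Trg.right (chamberN 9 20)))))) (Trg.right (Trg.right (Trg.right (Trg.right (chamberNR 9 20))))) :=
  HoldsN.of_red (k := 16) (m := 16) (leaf ok2 (G545 _ rfl) (G151 _ rfl) (G262 _ rfl) (by decide +kernel))
theorem l187 : HoldsN X2 (Trg.left (Trg.right (Trg.right (chamberN 9 20)))) (Trg.left (Trg.left (Trg.left (chamberNR 9 20)))) :=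
  HoldsN.of_red (k := 16) (m := 16) (leaf ok2 (G446 _ rfl) (G223 _ rfl) (G354 _ rfl) (by decide +kernel))
theorem l188 : HoldsN X2 (Trg.left (Trg.left (Trg.right (Trg.right (chamberN 9 20))))) (Trg.right (Trg.left (Trg.left (chamberNR 9 20)))) :=
  HoldsN.of_red (k := 16) (m := 16) (leaf ok2 (G432 _ rfl) (G310 _ rfl) (G397 _ rfl) (by decide +kernel))
theorem l189 : HoldsN X2 (Trg.left (Trg.right (Trg.left (Trg.right (Trg.right (chamberN 9 20)))))) (Trg.left (Trg.left (Trg.right (Trg.left (Trg.left (chamberNR 9 20)))))) :=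
  HoldsN.of_red (k := 16) (m := 16) (leaf ok2 (G425 _ rfl) (G348 _ rfl) (G415 _ rfl) (by decide +kernel))

end Vale.Agent.Lib.P154N.D5
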