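import Vale.Agent.Lib.P154N.D5.Data
import Vale.Agent.Lib.P154N.Red

/-!
# Leaves of the tree of triangles
-/

namespace Vale.Agent.Lib.P154N.D5

open Vale.Agent.Lib.P154K Vale.Agent.Lib.P154Neg

theorem l190 : HoldsN X2 (Trg.left (Trg.right (Trg.left (Trg.right (Trg.right (chamberN 9 20)))))) (Trg.right (Trg.left (Trg.right (Trg.left (Trg.left (chamberNR 9 20)))))) :=
  HoldsN.of_red (k := 16) (m := 16) (leaf ok2 (G422 _ rfl) (G391 _ rfl) (G415 _ rfl) (by decide +kernel))
theorem l191 : HoldsN X2 (Trg.left (Trg.right (Trg.left (Trg.right (Trg.right (chamberN 9 20)))))) (Trg.right (Trg.right (Trg.left (Trg.left (chamberNR 9 20))))) :=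
  HoldsN.of_red (k := 16) (m := 16) (leaf ok2 (G425 _ rfl) (G348 _ rfl) (G416 _ rfl) (by decide +kernel))
theorem l192 : HoldsN X2 (Trg.right (Trg.right (Trg.left (Trg.right (Trg.right (chamberN 9 20)))))) (Trg.right (Trg.left (Trg.left (chamberNR 9 20)))) :=
  HoldsN.of_red (k := 16) (m := 16) (leaf ok2 (G425 _ rfl) (G319 _ rfl) (G417 _ rfl) (by decide +kernel))
theorem l193 : HoldsN X2 (Trg.left (Trg.right (Trg.right (chamberN 9 20)))) (Trg.right (Trg.left (chamberNR 9 20))) :=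
  HoldsN.of_red (k := 16) (m := 16) (leaf ok2 (G446 _ rfl) (G223 _ rfl) (G359 _ rfl) (by decide +kernel))
theorem l194 : HoldsN X2 (Trg.right (Trg.right (Trg.right (chamberN 9 20)))) (Trg.left (Trg.left (Trg.left (Trg.left (chamberNR 9 20))))) :=
  HoldsN.of_red (k := 16) (m := 16) (leaf ok2 (G433 _ rfl) (G188 _ rfl) (G400 _ rfl) (by decide +kernel))
theorem l195 : HoldsN X2 (Trg.right (Trg.right (Trg.right (chamberN 9 20)))) (Trg.right (Trg.left (Trg.left (Trg.left (chamberNR 9 20))))) :=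
  HoldsN.of_red (k := 16) (m := 16) (leaf ok2 (G495 _ rfl) (G134 _ rfl) (G355 _ rfl) (by decide +kernel))
theorem l196 : HoldsN X2 (Trg.right (Trg.right (Trg.right (chamberN 9 20)))) (Trg.right (Trg.left (Trg.left (chamberNR 9 20)))) :=
  HoldsN.of_red (k := 16) (m := 16) (leaf ok2 (G432 _ rfl) (G247 _ rfl) (G401 _ rfl) (by decide +kernel))
theorem l197 : HoldsN X2 (Trg.right (Trg.right (Trg.right (chamberN 9 20)))) (Trg.left (Trg.right (Trg.left (chamberNR 9 20)))) :=
  HoldsN.of_red (k := 16) (m := 16) (leaf ok2 (G437 _ rfl) (G154 _ rfl) (G463 _ rfl) (by decide +kernel))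
theorem l198 : HoldsN X2 (Trg.right (Trg.right (Trg.right (chamberN 9 20)))) (Trg.left (Trg.right (Trg.right (Trg.left (chamberNR 9 20))))) :=
  HoldsN.of_red (k := 16) (m := 16) (leaf ok2 (G495 _ rfl) (G133 _ rfl) (G361 _ rfl) (by decide +kernel))
theorem l199 : HoldsN X2 (Trg.right (Trg.right (Trg.right (chamberN 9 20)))) (Trg.right (Trg.right (Trg.right (Trg.left (chamberNR 9 20))))) :=
  HoldsN.of_red (k := 16) (m := 16) (leaf ok2 (G437 _ rfl) (G154 _ rfl) (G431 _ rfl) (by decide +kernel))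

end Vale.Agent.Lib.P154N.D5
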