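import Vale.Agent.Lib.P154N.D5.Data
import Vale.Agent.Lib.P154N.Red

/-!
# Leaves of the tree of triangles
-/

namespace Vale.Agent.Lib.P154N.D5

open Vale.Agent.Lib.P154K Vale.Agent.Lib.P154Neg

theorem l20 : HoldsN X2 (Trg.right (Trg.left (Trg.right (Trg.left (Trg.left (chamberN 9 20)))))) (Trg.right (Trg.left (Trg.right (Trg.right (chamberN 9 20))))) :=
  HoldsN.of_red (k := 16) (m := 16) (leaf ok2 (G422 _ rfl) (G379 _ rfl) (G392 _ rfl) (by decide +kernel))
theorem l21 : HoldsN X2 (Trg.right (Trg.right (Trg.left (Trg.left (chamberN 9 20))))) (Trg.right (Trg.left (Trg.right (Trg.right (chamberN 9 20))))) :=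
  HoldsN.of_red (k := 16) (m := 16) (leaf ok2 (G426 _ rfl) (G338 _ rfl) (G381 _ rfl) (by decide +kernel))
theorem l22 : HoldsN X2 (Trg.right (Trg.left (Trg.left (chamberN 9 20)))) (Trg.right (Trg.right (Trg.right (chamberN 9 20)))) :=
  HoldsN.of_red (k := 16) (m := 16) (leaf ok2 (G438 _ rfl) (G270 _ rfl) (G325 _ rfl) (by decide +kernel))
theorem l23 : HoldsN X2 (Trg.left (Trg.right (Trg.left (chamberN 9 20)))) (Trg.left (Trg.right (Trg.right (chamberN 9 20)))) :=
  HoldsN.of_red (k := 16) (m := 16) (leaf ok2 (G438 _ rfl) (G223 _ rfl) (G387 _ rfl) (by decide +kernel))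
theorem l24 : HoldsN X2 (Trg.left (Trg.right (Trg.right (Trg.left (chamberN 9 20))))) (Trg.left (Trg.left (Trg.right (Trg.right (chamberN 9 20))))) :=
  HoldsN.of_red (k := 16) (m := 16) (leaf ok2 (G494 _ rfl) (G218 _ rfl) (G321 _ rfl) (by decide +kernel))
theorem l25 : HoldsN X2 (Trg.left (Trg.right (Trg.right (Trg.left (chamberN 9 20))))) (Trg.right (Trg.left (Trg.right (Trg.right (chamberN 9 20))))) :=
  HoldsN.of_red (k := 16) (m := 16) (leaf ok2 (G438 _ rfl) (G310 _ rfl) (G320 _ rfl) (by decide +kernel))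
theorem l26 : HoldsN X2 (Trg.right (Trg.right (Trg.right (Trg.left (chamberN 9 20))))) (Trg.left (Trg.left (Trg.right (Trg.right (chamberN 9 20))))) :=
  HoldsN.of_red (k := 16) (m := 16) (leaf ok2 (G462 _ rfl) (G219 _ rfl) (G383 _ rfl) (by decide +kernel))
theorem l27 : HoldsN X2 (Trg.right (Trg.right (Trg.right (Trg.left (chamberN 9 20))))) (Trg.right (Trg.left (Trg.right (Trg.right (chamberN 9 20))))) :=
  HoldsN.of_red (k := 16) (m := 16) (leaf ok2 (G432 _ rfl) (G310 _ rfl) (G381 _ rfl) (by decide +kernel))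
theorem l28 : HoldsN X2 (Trg.right (Trg.left (chamberN 9 20))) (Trg.right (Trg.right (Trg.right (chamberN 9 20)))) :=
  HoldsN.of_red (k := 16) (m := 16) (leaf ok2 (G483 _ rfl) (G175 _ rfl) (G239 _ rfl) (by decide +kernel))
theorem l29 : HoldsN X2 (Trg.left (Trg.right (chamberN 9 20))) (Trg.left (Trg.left (Trg.left (chamberN 9 20)))) :=
  HoldsN.of_red (k := 16) (m := 16) (leaf ok2 (G486 _ rfl) (G239 _ rfl) (G112 _ rfl) (by decide +kernel))

end Vale.Agent.Lib.P154N.D5
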