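import Vale.Agent.Lib.P154N.D5.Data
import Vale.Agent.Lib.P154N.Red

/-!
# Leaves of the tree of triangles
-/

namespace Vale.Agent.Lib.P154N.D5

open Vale.Agent.Lib.P154K Vale.Agent.Lib.P154Neg

theorem l200 : HoldsN X2 (Trg.right (Trg.right (chamberN 9 20))) (Trg.left (Trg.right (chamberNR 9 20))) :=
  HoldsN.of_red (k := 16) (m := 16) (leaf ok2 (G458 _ rfl) (G116 _ rfl) (G225 _ rfl) (by decide +kernel))
theorem l201 : HoldsN X2 (Trg.left (Trg.left (Trg.left (Trg.right (Trg.right (chamberN 9 20)))))) (Trg.left (Trg.left (Trg.right (Trg.right (chamberNR 9 20))))) :=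
  HoldsN.of_red (k := 16) (m := 16) (leaf ok2 (G477 _ rfl) (G308 _ rfl) (G339 _ rfl) (by decide +kernel))
theorem l202 : HoldsN X2 (Trg.left (Trg.right (Trg.left (Trg.left (Trg.right (Trg.right (chamberN 9 20))))))) (Trg.left (Trg.left (Trg.left (Trg.right (Trg.right (chamberNR 9 20)))))) :=
  HoldsN.of_red (k := 16) (m := 16) (leaf ok2 (G489 _ rfl) (G307 _ rfl) (G337 _ rfl) (by decide +kernel))
theorem l203 : HoldsN X2 (Trg.left (Trg.right (Trg.left (Trg.left (Trg.right (Trg.right (chamberN 9 20))))))) (Trg.left (Trg.right (Trg.left (Trg.left (Trg.right (Trg.right (chamberNR 9 20))))))) :=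
  HoldsN.of_red (k := 16) (m := 16) (leaf ok2 (G512 _ rfl) (G306 _ rfl) (G307 _ rfl) (by decide +kernel))
theorem l204 : HoldsN X2 (Trg.left (Trg.right (Trg.left (Trg.left (Trg.right (Trg.right (chamberN 9 20))))))) (Trg.right (Trg.right (Trg.left (Trg.left (Trg.right (Trg.right (chamberNR 9 20))))))) :=
  HoldsN.of_red (k := 16) (m := 16) (leaf ok2 (G489 _ rfl) (G307 _ rfl) (G335 _ rfl) (by decide +kernel))
theorem l205 : HoldsN X2 (Trg.right (Trg.right (Trg.left (Trg.left (Trg.right (Trg.right (chamberN 9 20))))))) (Trg.left (Trg.left (Trg.left (Trg.right (Trg.right (chamberNR 9 20)))))) :=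
  HoldsN.of_red (k := 16) (m := 16) (leaf ok2 (G475 _ rfl) (G308 _ rfl) (G347 _ rfl) (by decide +kernel))
theorem l206 : HoldsN X2 (Trg.right (Trg.right (Trg.left (Trg.left (Trg.right (Trg.right (chamberN 9 20))))))) (Trg.left (Trg.right (Trg.left (Trg.left (Trg.right (Trg.right (chamberNR 9 20))))))) :=
  HoldsN.of_red (k := 16) (m := 16) (leaf ok2 (G489 _ rfl) (G307 _ rfl) (G335 _ rfl) (by decide +kernel))
theorem l207 : HoldsN X2 (Trg.right (Trg.right (Trg.left (Trg.left (Trg.right (Trg.right (chamberN 9 20))))))) (Trg.right (Trg.right (Trg.left (Trg.left (Trg.right (Trg.right (chamberNR 9 20))))))) :=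
  HoldsN.of_red (k := 16) (m := 16) (leaf ok2 (G475 _ rfl) (G308 _ rfl) (G346 _ rfl) (by decide +kernel))
theorem l208 : HoldsN X2 (Trg.left (Trg.left (Trg.right (Trg.right (chamberN 9 20))))) (Trg.right (Trg.left (Trg.right (Trg.right (chamberNR 9 20))))) :=
  HoldsN.of_red (k := 16) (m := 16) (leaf ok2 (G432 _ rfl) (G310 _ rfl) (G349 _ rfl) (by decide +kernel))
theorem l209 : HoldsN X2 (Trg.right (Trg.left (Trg.right (Trg.right (chamberN 9 20))))) (Trg.left (Trg.left (Trg.right (Trg.right (chamberNR 9 20))))) :=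
  HoldsN.of_red (k := 16) (m := 16) (leaf ok2 (G432 _ rfl) (G310 _ rfl) (G349 _ rfl) (by decide +kernel))

end Vale.Agent.Lib.P154N.D5
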