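import Vale.Agent.Lib.P154N.D5.Data
import Vale.Agent.Lib.P154N.Red

/-!
# Leaves of the tree of triangles
-/

namespace Vale.Agent.Lib.P154N.D5

open Vale.Agent.Lib.P154K Vale.Agent.Lib.P154Neg

theorem l210 : HoldsN X2 (Trg.left (Trg.left (Trg.right (Trg.left (Trg.right (Trg.right (chamberN 9 20))))))) (Trg.left (Trg.right (Trg.left (Trg.right (Trg.right (chamberNR 9 20)))))) :=
  HoldsN.of_red (k := 16) (m := 16) (leaf ok2 (G423 _ rfl) (G391 _ rfl) (G392 _ rfl) (by decide +kernel))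
theorem l211 : HoldsN X2 (Trg.right (Trg.left (Trg.right (Trg.left (Trg.right (Trg.right (chamberN 9 20))))))) (Trg.left (Trg.right (Trg.left (Trg.right (Trg.right (chamberNR 9 20)))))) :=
  HoldsN.of_red (k := 16) (m := 16) (leaf ok2 (G422 _ rfl) (G391 _ rfl) (G415 _ rfl) (by decide +kernel))
theorem l212 : HoldsN X2 (Trg.left (Trg.right (Trg.left (Trg.right (Trg.right (chamberN 9 20)))))) (Trg.right (Trg.right (Trg.left (Trg.right (Trg.right (chamberNR 9 20)))))) :=
  HoldsN.of_red (k := 16) (m := 16) (leaf ok2 (G425 _ rfl) (G348 _ rfl) (G392 _ rfl) (by decide +kernel))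
theorem l213 : HoldsN X2 (Trg.right (Trg.right (Trg.left (Trg.right (Trg.right (chamberN 9 20)))))) (Trg.right (Trg.left (Trg.right (Trg.right (chamberNR 9 20))))) :=
  HoldsN.of_red (k := 16) (m := 16) (leaf ok2 (G425 _ rfl) (G319 _ rfl) (G392 _ rfl) (by decide +kernel))
theorem l214 : HoldsN X2 (Trg.left (Trg.right (Trg.right (chamberN 9 20)))) (Trg.right (Trg.right (Trg.right (chamberNR 9 20)))) :=
  HoldsN.of_red (k := 16) (m := 16) (leaf ok2 (G446 _ rfl) (G223 _ rfl) (G312 _ rfl) (by decide +kernel))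
theorem l215 : HoldsN X2 (Trg.left (Trg.right (Trg.right (Trg.right (chamberN 9 20))))) (Trg.left (Trg.left (Trg.right (Trg.right (chamberNR 9 20))))) :=
  HoldsN.of_red (k := 16) (m := 16) (leaf ok2 (G494 _ rfl) (G219 _ rfl) (G341 _ rfl) (by decide +kernel))
theorem l216 : HoldsN X2 (Trg.left (Trg.right (Trg.right (Trg.right (Trg.right (chamberN 9 20)))))) (Trg.left (Trg.left (Trg.left (Trg.right (Trg.right (chamberNR 9 20)))))) :=
  HoldsN.of_red (k := 16) (m := 16) (leaf ok2 (G500 _ rfl) (G259 _ rfl) (G337 _ rfl) (by decide +kernel))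
theorem l217 : HoldsN X2 (Trg.left (Trg.right (Trg.right (Trg.right (Trg.right (chamberN 9 20)))))) (Trg.right (Trg.left (Trg.left (Trg.right (Trg.right (chamberNR 9 20)))))) :=
  HoldsN.of_red (k := 16) (m := 16) (leaf ok2 (G502 _ rfl) (G259 _ rfl) (G307 _ rfl) (by decide +kernel))
theorem l218 : HoldsN X2 (Trg.right (Trg.right (Trg.right (Trg.right (Trg.right (chamberN 9 20)))))) (Trg.left (Trg.left (Trg.right (Trg.right (chamberNR 9 20))))) :=
  HoldsN.of_red (k := 16) (m := 16) (leaf ok2 (G492 _ rfl) (G259 _ rfl) (G339 _ rfl) (by decide +kernel))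
theorem l219 : HoldsN X2 (Trg.right (Trg.right (Trg.right (chamberN 9 20)))) (Trg.right (Trg.left (Trg.right (Trg.right (chamberNR 9 20))))) :=
  HoldsN.of_red (k := 16) (m := 16) (leaf ok2 (G432 _ rfl) (G247 _ rfl) (G350 _ rfl) (by decide +kernel))

end Vale.Agent.Lib.P154N.D5
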