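import Vale.Agent.Lib.P154N.D5.Data
import Vale.Agent.Lib.P154N.Red

/-!
# Leaves of the tree of triangles
-/

namespace Vale.Agent.Lib.P154N.D5

open Vale.Agent.Lib.P154K Vale.Agent.Lib.P154Neg

theorem l220 : HoldsN X2 (Trg.left (Trg.right (Trg.right (Trg.right (chamberN 9 20))))) (Trg.right (Trg.right (Trg.right (chamberNR 9 20)))) :=
  HoldsN.of_red (k := 16) (m := 16) (leaf ok2 (G495 _ rfl) (G134 _ rfl) (G344 _ rfl) (by decide +kernel))
theorem l221 : HoldsN X2 (Trg.right (Trg.right (Trg.right (Trg.right (chamberN 9 20))))) (Trg.right (Trg.right (Trg.right (chamberNR 9 20)))) :=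
  HoldsN.of_red (k := 16) (m := 16) (leaf ok2 (G495 _ rfl) (G161 _ rfl) (G311 _ rfl) (by decide +kernel))
theorem l222 : HoldsN X3 (Trg.left (Trg.left (Trg.left (Trg.left (chamber 1 1))))) (Trg.left (Trg.left (Trg.left (Trg.left (chamberN 9 20))))) :=
  HoldsN.of_red (k := 16) (m := 16) (leaf ok3 (G133 _ rfl) (G406 _ rfl) (G406 _ rfl) (by decide +kernel))
theorem l223 : HoldsN X3 (Trg.left (Trg.left (Trg.left (Trg.left (chamber 1 1))))) (Trg.right (Trg.left (Trg.left (Trg.left (chamberN 9 20))))) :=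
  HoldsN.of_red (k := 16) (m := 16) (leaf ok3 (G78 _ rfl) (G504 _ rfl) (G365 _ rfl) (by decide +kernel))
theorem l224 : HoldsN X3 (Trg.right (Trg.left (Trg.left (Trg.left (chamber 1 1))))) (Trg.left (Trg.left (Trg.left (Trg.left (chamberN 9 20))))) :=
  HoldsN.of_red (k := 16) (m := 16) (leaf ok3 (G78 _ rfl) (G365 _ rfl) (G504 _ rfl) (by decide +kernel))
theorem l225 : HoldsN X3 (Trg.left (Trg.right (Trg.left (Trg.left (Trg.left (chamber 1 1)))))) (Trg.right (Trg.left (Trg.left (Trg.left (chamberN 9 20))))) :=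
  HoldsN.of_red (k := 16) (m := 16) (leaf ok3 (G35 _ rfl) (G528 _ rfl) (G506 _ rfl) (by decide +kernel))
theorem l226 : HoldsN X3 (Trg.right (Trg.right (Trg.left (Trg.left (Trg.left (chamber 1 1)))))) (Trg.right (Trg.left (Trg.left (Trg.left (chamberN 9 20))))) :=
  HoldsN.of_red (k := 16) (m := 16) (leaf ok3 (G63 _ rfl) (G504 _ rfl) (G503 _ rfl) (by decide +kernel))
theorem l227 : HoldsN X3 (Trg.left (Trg.left (Trg.left (chamber 1 1)))) (Trg.right (Trg.left (Trg.left (chamberN 9 20)))) :=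
  HoldsN.of_red (k := 16) (m := 16) (leaf ok3 (G116 _ rfl) (G366 _ rfl) (G411 _ rfl) (by decide +kernel))
theorem l228 : HoldsN X3 (Trg.left (Trg.left (Trg.left (Trg.left (chamber 1 1))))) (Trg.left (Trg.right (Trg.left (chamberN 9 20)))) :=
  HoldsN.of_red (k := 16) (m := 16) (leaf ok3 (G105 _ rfl) (G365 _ rfl) (G467 _ rfl) (by decide +kernel))
theorem l229 : HoldsN X3 (Trg.left (Trg.left (Trg.left (Trg.left (chamber 1 1))))) (Trg.left (Trg.right (Trg.right (Trg.left (chamberN 9 20))))) :=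
  HoldsN.of_red (k := 16) (m := 16) (leaf ok3 (G77 _ rfl) (G498 _ rfl) (G370 _ rfl) (by decide +kernel))

end Vale.Agent.Lib.P154N.D5
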