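import Vale.Agent.Lib.P154N.D5.Data
import Vale.Agent.Lib.P154N.Red

/-!
# Leaves of the tree of triangles
-/

namespace Vale.Agent.Lib.P154N.D5

open Vale.Agent.Lib.P154K Vale.Agent.Lib.P154Neg

theorem l230 : HoldsN X3 (Trg.left (Trg.left (Trg.left (Trg.left (chamber 1 1))))) (Trg.right (Trg.right (Trg.right (Trg.left (chamberN 9 20))))) :=
  HoldsN.of_red (k := 16) (m := 16) (leaf ok3 (G105 _ rfl) (G407 _ rfl) (G445 _ rfl) (by decide +kernel))
theorem l231 : HoldsN X3 (Trg.right (Trg.left (Trg.left (Trg.left (chamber 1 1))))) (Trg.left (Trg.right (Trg.left (chamberN 9 20)))) :=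
  HoldsN.of_red (k := 16) (m := 16) (leaf ok3 (G55 _ rfl) (G297 _ rfl) (G541 _ rfl) (by decide +kernel))
theorem l232 : HoldsN X3 (Trg.right (Trg.left (Trg.left (Trg.left (chamber 1 1))))) (Trg.left (Trg.right (Trg.right (Trg.left (chamberN 9 20))))) :=
  HoldsN.of_red (k := 16) (m := 16) (leaf ok3 (G35 _ rfl) (G499 _ rfl) (G550 _ rfl) (by decide +kernel))
theorem l233 : HoldsN X3 (Trg.right (Trg.left (Trg.left (Trg.left (chamber 1 1))))) (Trg.right (Trg.right (Trg.right (Trg.left (chamberN 9 20))))) :=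
  HoldsN.of_red (k := 16) (m := 16) (leaf ok3 (G55 _ rfl) (G364 _ rfl) (G539 _ rfl) (by decide +kernel))
theorem l234 : HoldsN X3 (Trg.right (Trg.left (Trg.left (chamber 1 1)))) (Trg.left (Trg.left (Trg.left (chamberN 9 20)))) :=
  HoldsN.of_red (k := 16) (m := 16) (leaf ok3 (G116 _ rfl) (G411 _ rfl) (G366 _ rfl) (by decide +kernel))
theorem l235 : HoldsN X3 (Trg.right (Trg.left (Trg.left (chamber 1 1)))) (Trg.right (Trg.left (Trg.left (chamberN 9 20)))) :=
  HoldsN.of_red (k := 16) (m := 16) (leaf ok3 (G223 _ rfl) (G404 _ rfl) (G404 _ rfl) (by decide +kernel))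
theorem l236 : HoldsN X3 (Trg.right (Trg.left (Trg.left (chamber 1 1)))) (Trg.right (Trg.left (chamberN 9 20))) :=
  HoldsN.of_red (k := 16) (m := 16) (leaf ok3 (G116 _ rfl) (G372 _ rfl) (G372 _ rfl) (by decide +kernel))
theorem l237 : HoldsN X3 (Trg.left (Trg.right (Trg.left (chamber 1 1)))) (Trg.left (Trg.left (Trg.left (chamberN 9 20)))) :=
  HoldsN.of_red (k := 16) (m := 16) (leaf ok3 (G55 _ rfl) (G469 _ rfl) (G298 _ rfl) (by decide +kernel))
theorem l238 : HoldsN X3 (Trg.left (Trg.right (Trg.right (Trg.left (chamber 1 1))))) (Trg.left (Trg.left (Trg.left (Trg.left (chamberN 9 20))))) :=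
  HoldsN.of_red (k := 16) (m := 16) (leaf ok3 (G77 _ rfl) (G370 _ rfl) (G498 _ rfl) (by decide +kernel))
theorem l239 : HoldsN X3 (Trg.left (Trg.right (Trg.right (Trg.left (chamber 1 1))))) (Trg.right (Trg.left (Trg.left (Trg.left (chamberN 9 20))))) :=
  HoldsN.of_red (k := 16) (m := 16) (leaf ok3 (G35 _ rfl) (G550 _ rfl) (G499 _ rfl) (by decide +kernel))

end Vale.Agent.Lib.P154N.D5
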