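import Vale.Agent.Lib.P154N.D5.Data
import Vale.Agent.Lib.P154N.Red

/-!
# Leaves of the tree of triangles
-/

namespace Vale.Agent.Lib.P154N.D5

open Vale.Agent.Lib.P154K Vale.Agent.Lib.P154Neg

theorem l250 : HoldsN X3 (Trg.right (Trg.left (Trg.left (chamber 1 1)))) (Trg.left (Trg.right (chamberN 9 20))) :=
  HoldsN.of_red (k := 16) (m := 16) (leaf ok3 (G76 _ rfl) (G456 _ rfl) (G207 _ rfl) (by decide +kernel))
theorem l251 : HoldsN X3 (Trg.left (Trg.left (Trg.right (Trg.left (chamber 1 1))))) (Trg.left (Trg.left (Trg.right (chamberN 9 20)))) :=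
  HoldsN.of_red (k := 16) (m := 16) (leaf ok3 (G44 _ rfl) (G577 _ rfl) (G214 _ rfl) (by decide +kernel))
theorem l252 : HoldsN X3 (Trg.left (Trg.right (Trg.left (Trg.right (Trg.left (chamber 1 1)))))) (Trg.left (Trg.left (Trg.left (Trg.left (Trg.right (chamberN 9 20)))))) :=
  HoldsN.of_red (k := 16) (m := 16) (leaf ok3 (G66 _ rfl) (G614 _ rfl) (G162 _ rfl) (by decide +kernel))
theorem l253 : HoldsN X3 (Trg.right (Trg.right (Trg.left (Trg.right (Trg.left (chamber 1 1)))))) (Trg.left (Trg.left (Trg.left (Trg.left (Trg.right (chamberN 9 20)))))) :=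
  HoldsN.of_red (k := 16) (m := 16) (leaf ok3 (G43 _ rfl) (G613 _ rfl) (G212 _ rfl) (by decide +kernel))
theorem l254 : HoldsN X3 (Trg.left (Trg.right (Trg.left (Trg.right (Trg.left (chamber 1 1)))))) (Trg.right (Trg.left (Trg.left (Trg.left (Trg.right (chamberN 9 20)))))) :=
  HoldsN.of_red (k := 16) (m := 16) (leaf ok3 (G91 _ rfl) (G600 _ rfl) (G175 _ rfl) (by decide +kernel))
theorem l255 : HoldsN X3 (Trg.left (Trg.left (Trg.right (Trg.right (Trg.left (Trg.right (Trg.left (chamber 1 1)))))))) (Trg.left (Trg.left (Trg.right (Trg.left (Trg.left (Trg.left (Trg.right (chamberN 9 20)))))))) :=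
  HoldsN.of_red (k := 16) (m := 16) (leaf ok3 (G80 _ rfl) (G622 _ rfl) (G266 _ rfl) (by decide +kernel))
theorem l256 : HoldsN X3 (Trg.right (Trg.left (Trg.right (Trg.right (Trg.left (Trg.right (Trg.left (chamber 1 1)))))))) (Trg.left (Trg.left (Trg.right (Trg.left (Trg.left (Trg.left (Trg.right (chamberN 9 20)))))))) :=
  HoldsN.of_red (k := 16) (m := 16) (leaf ok3 (G70 _ rfl) (G621 _ rfl) (G309 _ rfl) (by decide +kernel))
theorem l257 : HoldsN X3 (Trg.left (Trg.right (Trg.right (Trg.left (Trg.right (Trg.left (chamber 1 1))))))) (Trg.right (Trg.left (Trg.right (Trg.left (Trg.left (Trg.left (Trg.right (chamberN 9 20)))))))) :=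
  HoldsN.of_red (k := 16) (m := 16) (leaf ok3 (G83 _ rfl) (G616 _ rfl) (G269 _ rfl) (by decide +kernel))
theorem l258 : HoldsN X3 (Trg.left (Trg.left (Trg.right (Trg.right (Trg.left (Trg.right (Trg.left (chamber 1 1)))))))) (Trg.right (Trg.right (Trg.left (Trg.left (Trg.left (Trg.right (chamberN 9 20))))))) :=
  HoldsN.of_red (k := 16) (m := 16) (leaf ok3 (G80 _ rfl) (G622 _ rfl) (G269 _ rfl) (by decide +kernel))
theorem l259 : HoldsN X3 (Trg.right (Trg.left (Trg.right (Trg.right (Trg.left (Trg.right (Trg.left (chamber 1 1)))))))) (Trg.right (Trg.right (Trg.left (Trg.left (Trg.left (Trg.right (chamberN 9 20))))))) :=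
  HoldsN.of_red (k := 16) (m := 16) (leaf ok3 (G70 _ rfl) (G621 _ rfl) (G313 _ rfl) (by decide +kernel))

end Vale.Agent.Lib.P154N.D5
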