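import Vale.Agent.Lib.P154N.D5.Data
import Vale.Agent.Lib.P154N.Red

/-!
# Leaves of the tree of triangles
-/

namespace Vale.Agent.Lib.P154N.D5

open Vale.Agent.Lib.P154K Vale.Agent.Lib.P154Neg

theorem l260 : HoldsN X3 (Trg.right (Trg.right (Trg.right (Trg.left (Trg.right (Trg.left (chamber 1 1))))))) (Trg.right (Trg.left (Trg.left (Trg.left (Trg.right (chamberN 9 20)))))) :=
  HoldsN.of_red (k := 16) (m := 16) (leaf ok3 (G91 _ rfl) (G600 _ rfl) (G220 _ rfl) (by decide +kernel))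
theorem l261 : HoldsN X3 (Trg.left (Trg.right (Trg.left (Trg.right (Trg.left (chamber 1 1)))))) (Trg.right (Trg.left (Trg.left (Trg.right (chamberN 9 20))))) :=
  HoldsN.of_red (k := 16) (m := 16) (leaf ok3 (G66 _ rfl) (G614 _ rfl) (G167 _ rfl) (by decide +kernel))
theorem l262 : HoldsN X3 (Trg.right (Trg.right (Trg.left (Trg.right (Trg.left (chamber 1 1)))))) (Trg.right (Trg.left (Trg.left (Trg.right (chamberN 9 20))))) :=
  HoldsN.of_red (k := 16) (m := 16) (leaf ok3 (G43 _ rfl) (G613 _ rfl) (G214 _ rfl) (by decide +kernel))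
theorem l263 : HoldsN X3 (Trg.left (Trg.right (Trg.left (chamber 1 1)))) (Trg.left (Trg.right (Trg.left (Trg.right (chamberN 9 20))))) :=
  HoldsN.of_red (k := 16) (m := 16) (leaf ok3 (G37 _ rfl) (G610 _ rfl) (G98 _ rfl) (by decide +kernel))
theorem l264 : HoldsN X3 (Trg.left (Trg.left (Trg.right (Trg.left (chamber 1 1))))) (Trg.right (Trg.right (Trg.left (Trg.right (chamberN 9 20))))) :=
  HoldsN.of_red (k := 16) (m := 16) (leaf ok3 (G44 _ rfl) (G577 _ rfl) (G180 _ rfl) (by decide +kernel))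
theorem l265 : HoldsN X3 (Trg.left (Trg.right (Trg.left (Trg.right (Trg.left (chamber 1 1)))))) (Trg.left (Trg.right (Trg.right (Trg.left (Trg.right (chamberN 9 20)))))) :=
  HoldsN.of_red (k := 16) (m := 16) (leaf ok3 (G87 _ rfl) (G605 _ rfl) (G132 _ rfl) (by decide +kernel))
theorem l266 : HoldsN X3 (Trg.right (Trg.right (Trg.left (Trg.right (Trg.left (chamber 1 1)))))) (Trg.left (Trg.right (Trg.right (Trg.left (Trg.right (chamberN 9 20)))))) :=
  HoldsN.of_red (k := 16) (m := 16) (leaf ok3 (G64 _ rfl) (G605 _ rfl) (G177 _ rfl) (by decide +kernel))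
theorem l267 : HoldsN X3 (Trg.right (Trg.left (Trg.right (Trg.left (chamber 1 1))))) (Trg.right (Trg.right (Trg.right (Trg.left (Trg.right (chamberN 9 20)))))) :=
  HoldsN.of_red (k := 16) (m := 16) (leaf ok3 (G43 _ rfl) (G630 _ rfl) (G138 _ rfl) (by decide +kernel))
theorem l268 : HoldsN X3 (Trg.left (Trg.left (Trg.right (Trg.right (Trg.left (chamber 1 1)))))) (Trg.left (Trg.left (Trg.left (Trg.left (Trg.right (chamberN 9 20)))))) :=
  HoldsN.of_red (k := 16) (m := 16) (leaf ok3 (G32 _ rfl) (G606 _ rfl) (G406 _ rfl) (by decide +kernel))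
theorem l269 : HoldsN X3 (Trg.right (Trg.left (Trg.right (Trg.right (Trg.left (chamber 1 1)))))) (Trg.left (Trg.left (Trg.left (Trg.left (Trg.right (chamberN 9 20)))))) :=
  HoldsN.of_red (k := 16) (m := 16) (leaf ok3 (G20 _ rfl) (G604 _ rfl) (G472 _ rfl) (by decide +kernel))

end Vale.Agent.Lib.P154N.D5
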