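import Vale.Agent.Lib.P154N.D5.Data
import Vale.Agent.Lib.P154N.Red

/-!
# Leaves of the tree of triangles
-/

namespace Vale.Agent.Lib.P154N.D5

open Vale.Agent.Lib.P154K Vale.Agent.Lib.P154Neg

theorem l270 : HoldsN X3 (Trg.left (Trg.right (Trg.right (Trg.left (chamber 1 1))))) (Trg.right (Trg.left (Trg.left (Trg.left (Trg.right (chamberN 9 20)))))) :=
  HoldsN.of_red (k := 16) (m := 16) (leaf ok3 (G40 _ rfl) (G599 _ rfl) (G370 _ rfl) (by decide +kernel))
theorem l271 : HoldsN X3 (Trg.left (Trg.left (Trg.right (Trg.right (Trg.left (chamber 1 1)))))) (Trg.right (Trg.left (Trg.left (Trg.right (chamberN 9 20))))) :=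
  HoldsN.of_red (k := 16) (m := 16) (leaf ok3 (G32 _ rfl) (G606 _ rfl) (G447 _ rfl) (by decide +kernel))
theorem l272 : HoldsN X3 (Trg.right (Trg.left (Trg.right (Trg.right (Trg.left (chamber 1 1)))))) (Trg.right (Trg.left (Trg.left (Trg.right (chamberN 9 20))))) :=
  HoldsN.of_red (k := 16) (m := 16) (leaf ok3 (G20 _ rfl) (G604 _ rfl) (G506 _ rfl) (by decide +kernel))
theorem l273 : HoldsN X3 (Trg.left (Trg.right (Trg.right (Trg.left (chamber 1 1))))) (Trg.left (Trg.right (Trg.left (Trg.right (chamberN 9 20))))) :=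
  HoldsN.of_red (k := 16) (m := 16) (leaf ok3 (G13 _ rfl) (G641 _ rfl) (G302 _ rfl) (by decide +kernel))
theorem l274 : HoldsN X3 (Trg.left (Trg.right (Trg.right (Trg.left (chamber 1 1))))) (Trg.left (Trg.right (Trg.right (Trg.left (Trg.right (chamberN 9 20)))))) :=
  HoldsN.of_red (k := 16) (m := 16) (leaf ok3 (G33 _ rfl) (G605 _ rfl) (G332 _ rfl) (by decide +kernel))
theorem l275 : HoldsN X3 (Trg.left (Trg.right (Trg.right (Trg.left (chamber 1 1))))) (Trg.right (Trg.right (Trg.right (Trg.left (Trg.right (chamberN 9 20)))))) :=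
  HoldsN.of_red (k := 16) (m := 16) (leaf ok3 (G19 _ rfl) (G624 _ rfl) (G334 _ rfl) (by decide +kernel))
theorem l276 : HoldsN X3 (Trg.right (Trg.right (Trg.right (Trg.left (chamber 1 1))))) (Trg.left (Trg.left (Trg.right (chamberN 9 20)))) :=
  HoldsN.of_red (k := 16) (m := 16) (leaf ok3 (G44 _ rfl) (G577 _ rfl) (G280 _ rfl) (by decide +kernel))
theorem l277 : HoldsN X3 (Trg.right (Trg.right (Trg.right (Trg.left (chamber 1 1))))) (Trg.right (Trg.left (Trg.right (chamberN 9 20)))) :=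
  HoldsN.of_red (k := 16) (m := 16) (leaf ok3 (G39 _ rfl) (G582 _ rfl) (G198 _ rfl) (by decide +kernel))
theorem l278 : HoldsN X3 (Trg.left (Trg.left (Trg.left (Trg.left (chamber 1 1))))) (Trg.left (Trg.left (Trg.right (Trg.right (chamberN 9 20))))) :=
  HoldsN.of_red (k := 16) (m := 16) (leaf ok3 (G135 _ rfl) (G510 _ rfl) (G294 _ rfl) (by decide +kernel))
theorem l279 : HoldsN X3 (Trg.left (Trg.left (Trg.left (Trg.left (chamber 1 1))))) (Trg.right (Trg.left (Trg.right (Trg.right (chamberN 9 20))))) :=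
  HoldsN.of_red (k := 16) (m := 16) (leaf ok3 (G179 _ rfl) (G436 _ rfl) (G359 _ rfl) (by decide +kernel))

end Vale.Agent.Lib.P154N.D5
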