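import Vale.Agent.Lib.P154N.D5.Data
import Vale.Agent.Lib.P154N.Red

/-!
# Leaves of the tree of triangles
-/

namespace Vale.Agent.Lib.P154N.D5

open Vale.Agent.Lib.P154K Vale.Agent.Lib.P154Neg

theorem l280 : HoldsN X3 (Trg.right (Trg.left (Trg.left (Trg.left (chamber 1 1))))) (Trg.left (Trg.left (Trg.right (Trg.right (chamberN 9 20))))) :=
  HoldsN.of_red (k := 16) (m := 16) (leaf ok3 (G73 _ rfl) (G511 _ rfl) (G439 _ rfl) (by decide +kernel))
theorem l281 : HoldsN X3 (Trg.right (Trg.left (Trg.left (Trg.left (chamber 1 1))))) (Trg.right (Trg.left (Trg.right (Trg.right (chamberN 9 20))))) :=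
  HoldsN.of_red (k := 16) (m := 16) (leaf ok3 (G116 _ rfl) (G443 _ rfl) (G440 _ rfl) (by decide +kernel))
theorem l282 : HoldsN X3 (Trg.left (Trg.left (Trg.left (Trg.left (chamber 1 1))))) (Trg.right (Trg.right (Trg.right (chamberN 9 20)))) :=
  HoldsN.of_red (k := 16) (m := 16) (leaf ok3 (G78 _ rfl) (G510 _ rfl) (G298 _ rfl) (by decide +kernel))
theorem l283 : HoldsN X3 (Trg.left (Trg.right (Trg.left (Trg.left (Trg.left (chamber 1 1)))))) (Trg.right (Trg.right (Trg.right (chamberN 9 20)))) :=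
  HoldsN.of_red (k := 16) (m := 16) (leaf ok3 (G35 _ rfl) (G537 _ rfl) (G454 _ rfl) (by decide +kernel))
theorem l284 : HoldsN X3 (Trg.right (Trg.right (Trg.left (Trg.left (Trg.left (chamber 1 1)))))) (Trg.right (Trg.right (Trg.right (chamberN 9 20)))) :=
  HoldsN.of_red (k := 16) (m := 16) (leaf ok3 (G63 _ rfl) (G510 _ rfl) (G449 _ rfl) (by decide +kernel))
theorem l285 : HoldsN X3 (Trg.left (Trg.right (Trg.left (Trg.left (chamber 1 1))))) (Trg.left (Trg.left (Trg.right (Trg.right (chamberN 9 20))))) :=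
  HoldsN.of_red (k := 16) (m := 16) (leaf ok3 (G166 _ rfl) (G443 _ rfl) (G359 _ rfl) (by decide +kernel))
theorem l286 : HoldsN X3 (Trg.right (Trg.right (Trg.left (Trg.left (chamber 1 1))))) (Trg.left (Trg.left (Trg.right (Trg.right (chamberN 9 20))))) :=
  HoldsN.of_red (k := 16) (m := 16) (leaf ok3 (G164 _ rfl) (G479 _ rfl) (G294 _ rfl) (by decide +kernel))
theorem l287 : HoldsN X3 (Trg.right (Trg.left (Trg.left (chamber 1 1)))) (Trg.right (Trg.left (Trg.right (Trg.right (chamberN 9 20))))) :=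
  HoldsN.of_red (k := 16) (m := 16) (leaf ok3 (G223 _ rfl) (G432 _ rfl) (G359 _ rfl) (by decide +kernel))
theorem l288 : HoldsN X3 (Trg.right (Trg.left (Trg.left (chamber 1 1)))) (Trg.right (Trg.right (Trg.right (chamberN 9 20)))) :=
  HoldsN.of_red (k := 16) (m := 16) (leaf ok3 (G116 _ rfl) (G448 _ rfl) (G299 _ rfl) (by decide +kernel))
theorem l289 : HoldsN X3 (Trg.left (Trg.left (Trg.left (Trg.right (Trg.left (chamber 1 1)))))) (Trg.left (Trg.left (Trg.right (Trg.right (chamberN 9 20))))) :=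
  HoldsN.of_red (k := 16) (m := 16) (leaf ok3 (G112 _ rfl) (G548 _ rfl) (G251 _ rfl) (by decide +kernel))

end Vale.Agent.Lib.P154N.D5
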