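import Vale.Agent.Lib.P154N.D5.Data
import Vale.Agent.Lib.P154N.Red

/-!
# Leaves of the tree of triangles
-/

namespace Vale.Agent.Lib.P154N.D5

open Vale.Agent.Lib.P154K Vale.Agent.Lib.P154Neg

theorem l290 : HoldsN X3 (Trg.right (Trg.left (Trg.left (Trg.right (Trg.left (chamber 1 1)))))) (Trg.left (Trg.left (Trg.right (Trg.right (chamberN 9 20))))) :=
  HoldsN.of_red (k := 16) (m := 16) (leaf ok3 (G176 _ rfl) (G515 _ rfl) (G249 _ rfl) (by decide +kernel))
theorem l291 : HoldsN X3 (Trg.right (Trg.left (Trg.right (Trg.left (chamber 1 1))))) (Trg.left (Trg.left (Trg.right (Trg.right (chamberN 9 20))))) :=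
  HoldsN.of_red (k := 16) (m := 16) (leaf ok3 (G112 _ rfl) (G548 _ rfl) (G197 _ rfl) (by decide +kernel))
theorem l292 : HoldsN X3 (Trg.left (Trg.right (Trg.left (chamber 1 1)))) (Trg.right (Trg.left (Trg.right (Trg.right (chamberN 9 20))))) :=
  HoldsN.of_red (k := 16) (m := 16) (leaf ok3 (G148 _ rfl) (G448 _ rfl) (G292 _ rfl) (by decide +kernel))
theorem l293 : HoldsN X3 (Trg.left (Trg.right (Trg.right (Trg.left (chamber 1 1))))) (Trg.left (Trg.right (Trg.right (chamberN 9 20)))) :=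
  HoldsN.of_red (k := 16) (m := 16) (leaf ok3 (G76 _ rfl) (G456 _ rfl) (G366 _ rfl) (by decide +kernel))
theorem l294 : HoldsN X3 (Trg.left (Trg.right (Trg.right (Trg.right (Trg.left (chamber 1 1)))))) (Trg.left (Trg.left (Trg.right (Trg.right (chamberN 9 20))))) :=
  HoldsN.of_red (k := 16) (m := 16) (leaf ok3 (G135 _ rfl) (G515 _ rfl) (G293 _ rfl) (by decide +kernel))
theorem l295 : HoldsN X3 (Trg.right (Trg.right (Trg.right (Trg.right (Trg.left (chamber 1 1)))))) (Trg.left (Trg.left (Trg.right (Trg.right (chamberN 9 20))))) :=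
  HoldsN.of_red (k := 16) (m := 16) (leaf ok3 (G110 _ rfl) (G548 _ rfl) (G327 _ rfl) (by decide +kernel))
theorem l296 : HoldsN X3 (Trg.right (Trg.right (Trg.right (Trg.left (chamber 1 1))))) (Trg.right (Trg.left (Trg.right (Trg.right (chamberN 9 20))))) :=
  HoldsN.of_red (k := 16) (m := 16) (leaf ok3 (G148 _ rfl) (G444 _ rfl) (G357 _ rfl) (by decide +kernel))
theorem l297 : HoldsN X3 (Trg.left (Trg.left (Trg.right (Trg.left (chamber 1 1))))) (Trg.right (Trg.right (Trg.right (chamberN 9 20)))) :=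
  HoldsN.of_red (k := 16) (m := 16) (leaf ok3 (G55 _ rfl) (G539 _ rfl) (G254 _ rfl) (by decide +kernel))
theorem l298 : HoldsN X3 (Trg.left (Trg.right (Trg.left (Trg.right (Trg.left (chamber 1 1)))))) (Trg.left (Trg.left (Trg.right (Trg.right (Trg.right (chamberN 9 20)))))) :=
  HoldsN.of_red (k := 16) (m := 16) (leaf ok3 (G104 _ rfl) (G567 _ rfl) (G248 _ rfl) (by decide +kernel))
theorem l299 : HoldsN X3 (Trg.right (Trg.right (Trg.left (Trg.right (Trg.left (chamber 1 1)))))) (Trg.left (Trg.left (Trg.right (Trg.right (Trg.right (chamberN 9 20)))))) :=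
  HoldsN.of_red (k := 16) (m := 16) (leaf ok3 (G77 _ rfl) (G566 _ rfl) (G276 _ rfl) (by decide +kernel))

end Vale.Agent.Lib.P154N.D5
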