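import Vale.Agent.Lib.P154N.D5.Data
import Vale.Agent.Lib.P154N.Red

/-!
# Leaves of the tree of triangles
-/

namespace Vale.Agent.Lib.P154N.D5

open Vale.Agent.Lib.P154K Vale.Agent.Lib.P154Neg

theorem l30 : HoldsN X2 (Trg.left (Trg.right (chamberN 9 20))) (Trg.right (Trg.left (Trg.left (chamberN 9 20)))) :=
  HoldsN.of_red (k := 16) (m := 16) (leaf ok2 (G446 _ rfl) (G329 _ rfl) (G223 _ rfl) (by decide +kernel))
theorem l31 : HoldsN X2 (Trg.left (Trg.right (chamberN 9 20))) (Trg.right (Trg.left (chamberN 9 20))) :=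
  HoldsN.of_red (k := 16) (m := 16) (leaf ok2 (G486 _ rfl) (G241 _ rfl) (G111 _ rfl) (by decide +kernel))
theorem l32 : HoldsN X2 (Trg.left (Trg.left (Trg.right (chamberN 9 20)))) (Trg.left (Trg.right (chamberN 9 20))) :=
  HoldsN.of_red (k := 16) (m := 16) (leaf ok2 (G564 _ rfl) (G113 _ rfl) (G155 _ rfl) (by decide +kernel))
theorem l33 : HoldsN X2 (Trg.left (Trg.right (Trg.left (Trg.right (chamberN 9 20))))) (Trg.left (Trg.left (Trg.left (Trg.left (Trg.right (chamberN 9 20)))))) :=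
  HoldsN.of_red (k := 16) (m := 16) (leaf ok2 (G604 _ rfl) (G159 _ rfl) (G108 _ rfl) (by decide +kernel))
theorem l34 : HoldsN X2 (Trg.left (Trg.right (Trg.left (Trg.right (chamberN 9 20))))) (Trg.right (Trg.left (Trg.left (Trg.left (Trg.right (chamberN 9 20)))))) :=
  HoldsN.of_red (k := 16) (m := 16) (leaf ok2 (G592 _ rfl) (G185 _ rfl) (G144 _ rfl) (by decide +kernel))
theorem l35 : HoldsN X2 (Trg.left (Trg.right (Trg.left (Trg.right (chamberN 9 20))))) (Trg.right (Trg.left (Trg.left (Trg.right (chamberN 9 20))))) :=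
  HoldsN.of_red (k := 16) (m := 16) (leaf ok2 (G604 _ rfl) (G162 _ rfl) (G107 _ rfl) (by decide +kernel))
theorem l36 : HoldsN X2 (Trg.left (Trg.right (Trg.left (Trg.right (chamberN 9 20))))) (Trg.left (Trg.right (Trg.left (Trg.right (chamberN 9 20))))) :=
  HoldsN.of_red (k := 16) (m := 16) (leaf ok2 (G635 _ rfl) (G108 _ rfl) (G108 _ rfl) (by decide +kernel))
theorem l37 : HoldsN X2 (Trg.left (Trg.right (Trg.left (Trg.right (chamberN 9 20))))) (Trg.left (Trg.right (Trg.right (Trg.left (Trg.right (chamberN 9 20)))))) :=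
  HoldsN.of_red (k := 16) (m := 16) (leaf ok2 (G593 _ rfl) (G143 _ rfl) (G144 _ rfl) (by decide +kernel))
theorem l38 : HoldsN X2 (Trg.left (Trg.right (Trg.left (Trg.right (chamberN 9 20))))) (Trg.right (Trg.right (Trg.right (Trg.left (Trg.right (chamberN 9 20)))))) :=
  HoldsN.of_red (k := 16) (m := 16) (leaf ok2 (G620 _ rfl) (G142 _ rfl) (G108 _ rfl) (by decide +kernel))
theorem l39 : HoldsN X2 (Trg.right (Trg.right (Trg.left (Trg.right (chamberN 9 20))))) (Trg.left (Trg.right (chamberN 9 20))) :=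
  HoldsN.of_red (k := 16) (m := 16) (leaf ok2 (G564 _ rfl) (G113 _ rfl) (G145 _ rfl) (by decide +kernel))

end Vale.Agent.Lib.P154N.D5
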