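import Vale.Agent.Lib.P154N.D5.Data
import Vale.Agent.Lib.P154N.Red

/-!
# Leaves of the tree of triangles
-/

namespace Vale.Agent.Lib.P154N.D5

open Vale.Agent.Lib.P154K Vale.Agent.Lib.P154Neg

theorem l310 : HoldsN X3 (Trg.left (Trg.left (Trg.right (chamber 1 1)))) (Trg.right (Trg.right (Trg.left (chamberN 9 20)))) :=
  HoldsN.of_red (k := 16) (m := 16) (leaf ok3 (G23 _ rfl) (G283 _ rfl) (G577 _ rfl) (by decide +kernel))
theorem l311 : HoldsN X3 (Trg.left (Trg.right (Trg.left (Trg.right (chamber 1 1))))) (Trg.right (Trg.left (chamberN 9 20))) :=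
  HoldsN.of_red (k := 16) (m := 16) (leaf ok3 (G16 _ rfl) (G102 _ rfl) (G610 _ rfl) (by decide +kernel))
theorem l312 : HoldsN X3 (Trg.right (Trg.right (Trg.left (Trg.right (chamber 1 1))))) (Trg.right (Trg.left (chamberN 9 20))) :=
  HoldsN.of_red (k := 16) (m := 16) (leaf ok3 (G23 _ rfl) (G141 _ rfl) (G578 _ rfl) (by decide +kernel))
theorem l313 : HoldsN X3 (Trg.left (Trg.left (Trg.right (chamber 1 1)))) (Trg.left (Trg.left (Trg.right (chamberN 9 20)))) :=
  HoldsN.of_red (k := 16) (m := 16) (leaf ok3 (G9 _ rfl) (G519 _ rfl) (G519 _ rfl) (by decide +kernel))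
theorem l314 : HoldsN X3 (Trg.left (Trg.left (Trg.right (chamber 1 1)))) (Trg.left (Trg.right (Trg.left (Trg.right (chamberN 9 20))))) :=
  HoldsN.of_red (k := 16) (m := 16) (leaf ok3 (G5 _ rfl) (G591 _ rfl) (G553 _ rfl) (by decide +kernel))
theorem l315 : HoldsN X3 (Trg.left (Trg.left (Trg.right (chamber 1 1)))) (Trg.right (Trg.right (Trg.left (Trg.right (chamberN 9 20))))) :=
  HoldsN.of_red (k := 16) (m := 16) (leaf ok3 (G9 _ rfl) (G576 _ rfl) (G518 _ rfl) (by decide +kernel))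
theorem l316 : HoldsN X3 (Trg.left (Trg.right (Trg.left (Trg.right (chamber 1 1))))) (Trg.left (Trg.left (Trg.right (chamberN 9 20)))) :=
  HoldsN.of_red (k := 16) (m := 16) (leaf ok3 (G5 _ rfl) (G553 _ rfl) (G591 _ rfl) (by decide +kernel))
theorem l317 : HoldsN X3 (Trg.left (Trg.left (Trg.right (Trg.left (Trg.right (chamber 1 1)))))) (Trg.left (Trg.right (Trg.left (Trg.right (chamberN 9 20))))) :=
  HoldsN.of_red (k := 16) (m := 16) (leaf ok3 (G2 _ rfl) (G629 _ rfl) (G626 _ rfl) (by decide +kernel))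
theorem l318 : HoldsN X3 (Trg.left (Trg.right (Trg.left (Trg.right (Trg.left (Trg.right (chamber 1 1))))))) (Trg.left (Trg.left (Trg.right (Trg.left (Trg.right (chamberN 9 20)))))) :=
  HoldsN.of_red (k := 16) (m := 16) (leaf ok3 (G1 _ rfl) (G639 _ rfl) (G643 _ rfl) (by decide +kernel))
theorem l319 : HoldsN X3 (Trg.left (Trg.right (Trg.left (Trg.right (Trg.left (Trg.right (chamber 1 1))))))) (Trg.left (Trg.right (Trg.left (Trg.right (Trg.left (Trg.right (chamberN 9 20))))))) :=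
  HoldsN.of_red (k := 16) (m := 16) (leaf ok3 (G0 _ rfl) (G646 _ rfl) (G646 _ rfl) (by decide +kernel))

end Vale.Agent.Lib.P154N.D5
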