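import Vale.Agent.Lib.P154N.D5.Data
import Vale.Agent.Lib.P154N.Red

/-!
# Leaves of the tree of triangles
-/

namespace Vale.Agent.Lib.P154N.D5

open Vale.Agent.Lib.P154K Vale.Agent.Lib.P154Neg

theorem l320 : HoldsN X3 (Trg.left (Trg.right (Trg.left (Trg.right (Trg.left (Trg.right (chamber 1 1))))))) (Trg.right (Trg.right (Trg.left (Trg.right (Trg.left (Trg.right (chamberN 9 20))))))) :=
  HoldsN.of_red (k := 16) (m := 16) (leaf ok3 (G1 _ rfl) (G644 _ rfl) (G643 _ rfl) (by decide +kernel))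
theorem l321 : HoldsN X3 (Trg.right (Trg.right (Trg.left (Trg.right (Trg.left (Trg.right (chamber 1 1))))))) (Trg.left (Trg.right (Trg.left (Trg.right (chamberN 9 20))))) :=
  HoldsN.of_red (k := 16) (m := 16) (leaf ok3 (G2 _ rfl) (G629 _ rfl) (G640 _ rfl) (by decide +kernel))
theorem l322 : HoldsN X3 (Trg.left (Trg.right (Trg.left (Trg.right (chamber 1 1))))) (Trg.right (Trg.right (Trg.left (Trg.right (chamberN 9 20))))) :=
  HoldsN.of_red (k := 16) (m := 16) (leaf ok3 (G5 _ rfl) (G605 _ rfl) (G591 _ rfl) (by decide +kernel))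
theorem l323 : HoldsN X3 (Trg.right (Trg.right (Trg.left (Trg.right (chamber 1 1))))) (Trg.left (Trg.left (Trg.right (chamberN 9 20)))) :=
  HoldsN.of_red (k := 16) (m := 16) (leaf ok3 (G9 _ rfl) (G518 _ rfl) (G576 _ rfl) (by decide +kernel))
theorem l324 : HoldsN X3 (Trg.right (Trg.right (Trg.left (Trg.right (chamber 1 1))))) (Trg.left (Trg.right (Trg.left (Trg.right (chamberN 9 20))))) :=
  HoldsN.of_red (k := 16) (m := 16) (leaf ok3 (G5 _ rfl) (G591 _ rfl) (G605 _ rfl) (by decide +kernel))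
theorem l325 : HoldsN X3 (Trg.right (Trg.right (Trg.left (Trg.right (chamber 1 1))))) (Trg.right (Trg.right (Trg.left (Trg.right (chamberN 9 20))))) :=
  HoldsN.of_red (k := 16) (m := 16) (leaf ok3 (G9 _ rfl) (G576 _ rfl) (G576 _ rfl) (by decide +kernel))
theorem l326 : HoldsN X3 (Trg.left (Trg.right (chamber 1 1))) (Trg.left (Trg.right (Trg.right (chamberN 9 20)))) :=
  HoldsN.of_red (k := 16) (m := 16) (leaf ok3 (G26 _ rfl) (G456 _ rfl) (G456 _ rfl) (by decide +kernel))
theorem l327 : HoldsN X3 (Trg.left (Trg.right (chamber 1 1))) (Trg.right (Trg.right (Trg.right (chamberN 9 20)))) :=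
  HoldsN.of_red (k := 16) (m := 16) (leaf ok3 (G15 _ rfl) (G485 _ rfl) (G520 _ rfl) (by decide +kernel))
theorem l328 : HoldsN X3 (Trg.left (Trg.left (Trg.right (Trg.right (chamber 1 1))))) (Trg.left (Trg.left (Trg.left (chamberN 9 20)))) :=
  HoldsN.of_red (k := 16) (m := 16) (leaf ok3 (G74 _ rfl) (G298 _ rfl) (G511 _ rfl) (by decide +kernel))
theorem l329 : HoldsN X3 (Trg.right (Trg.left (Trg.right (Trg.right (chamber 1 1))))) (Trg.left (Trg.left (Trg.left (chamberN 9 20)))) :=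
  HoldsN.of_red (k := 16) (m := 16) (leaf ok3 (G116 _ rfl) (G366 _ rfl) (G443 _ rfl) (by decide +kernel))

end Vale.Agent.Lib.P154N.D5
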