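import Vale.Agent.Lib.P154N.D5.Data
import Vale.Agent.Lib.P154N.Red

/-!
# Leaves of the tree of triangles
-/

namespace Vale.Agent.Lib.P154N.D5

open Vale.Agent.Lib.P154K Vale.Agent.Lib.P154Neg

theorem l330 : HoldsN X3 (Trg.left (Trg.left (Trg.right (Trg.right (chamber 1 1))))) (Trg.right (Trg.left (Trg.left (chamberN 9 20)))) :=
  HoldsN.of_red (k := 16) (m := 16) (leaf ok3 (G166 _ rfl) (G295 _ rfl) (G443 _ rfl) (by decide +kernel))
theorem l331 : HoldsN X3 (Trg.right (Trg.left (Trg.right (Trg.right (chamber 1 1))))) (Trg.right (Trg.left (Trg.left (chamberN 9 20)))) :=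
  HoldsN.of_red (k := 16) (m := 16) (leaf ok3 (G223 _ rfl) (G359 _ rfl) (G432 _ rfl) (by decide +kernel))
theorem l332 : HoldsN X3 (Trg.left (Trg.left (Trg.right (Trg.right (chamber 1 1))))) (Trg.right (Trg.left (chamberN 9 20))) :=
  HoldsN.of_red (k := 16) (m := 16) (leaf ok3 (G74 _ rfl) (G206 _ rfl) (G516 _ rfl) (by decide +kernel))
theorem l333 : HoldsN X3 (Trg.right (Trg.left (Trg.right (Trg.right (chamber 1 1))))) (Trg.right (Trg.left (chamberN 9 20))) :=
  HoldsN.of_red (k := 16) (m := 16) (leaf ok3 (G116 _ rfl) (G299 _ rfl) (G448 _ rfl) (by decide +kernel))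
theorem l334 : HoldsN X3 (Trg.right (Trg.right (Trg.right (chamber 1 1)))) (Trg.left (Trg.left (Trg.left (Trg.left (chamberN 9 20))))) :=
  HoldsN.of_red (k := 16) (m := 16) (leaf ok3 (G78 _ rfl) (G298 _ rfl) (G510 _ rfl) (by decide +kernel))
theorem l335 : HoldsN X3 (Trg.right (Trg.right (Trg.right (chamber 1 1)))) (Trg.right (Trg.left (Trg.left (Trg.left (chamberN 9 20))))) :=
  HoldsN.of_red (k := 16) (m := 16) (leaf ok3 (G36 _ rfl) (G454 _ rfl) (G511 _ rfl) (by decide +kernel))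
theorem l336 : HoldsN X3 (Trg.right (Trg.right (Trg.right (chamber 1 1)))) (Trg.right (Trg.left (Trg.left (chamberN 9 20)))) :=
  HoldsN.of_red (k := 16) (m := 16) (leaf ok3 (G116 _ rfl) (G299 _ rfl) (G448 _ rfl) (by decide +kernel))
theorem l337 : HoldsN X3 (Trg.right (Trg.right (Trg.right (chamber 1 1)))) (Trg.left (Trg.right (Trg.left (chamberN 9 20)))) :=
  HoldsN.of_red (k := 16) (m := 16) (leaf ok3 (G55 _ rfl) (G202 _ rfl) (G541 _ rfl) (by decide +kernel))
theorem l338 : HoldsN X3 (Trg.right (Trg.right (Trg.right (chamber 1 1)))) (Trg.left (Trg.right (Trg.right (Trg.left (chamberN 9 20))))) :=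
  HoldsN.of_red (k := 16) (m := 16) (leaf ok3 (G35 _ rfl) (G374 _ rfl) (G550 _ rfl) (by decide +kernel))
theorem l339 : HoldsN X3 (Trg.right (Trg.right (Trg.right (chamber 1 1)))) (Trg.right (Trg.right (Trg.right (Trg.left (chamberN 9 20))))) :=
  HoldsN.of_red (k := 16) (m := 16) (leaf ok3 (G55 _ rfl) (G297 _ rfl) (G539 _ rfl) (by decide +kernel))

end Vale.Agent.Lib.P154N.D5
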