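import Vale.Agent.Lib.P154N.D5.Data
import Vale.Agent.Lib.P154N.Red

/-!
# Leaves of the tree of triangles
-/

namespace Vale.Agent.Lib.P154N.D5

open Vale.Agent.Lib.P154K Vale.Agent.Lib.P154Neg

theorem l340 : HoldsN X3 (Trg.left (Trg.left (Trg.right (Trg.right (chamber 1 1))))) (Trg.left (Trg.right (chamberN 9 20))) :=
  HoldsN.of_red (k := 16) (m := 16) (leaf ok3 (G25 _ rfl) (G485 _ rfl) (G485 _ rfl) (by decide +kernel))
theorem l341 : HoldsN X3 (Trg.right (Trg.left (Trg.right (Trg.right (chamber 1 1))))) (Trg.left (Trg.right (chamberN 9 20))) :=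
  HoldsN.of_red (k := 16) (m := 16) (leaf ok3 (G76 _ rfl) (G456 _ rfl) (G443 _ rfl) (by decide +kernel))
theorem l342 : HoldsN X3 (Trg.right (Trg.right (Trg.right (chamber 1 1)))) (Trg.left (Trg.right (chamberN 9 20))) :=
  HoldsN.of_red (k := 16) (m := 16) (leaf ok3 (G15 _ rfl) (G520 _ rfl) (G485 _ rfl) (by decide +kernel))
theorem l343 : HoldsN X3 (Trg.left (Trg.left (Trg.right (Trg.right (chamber 1 1))))) (Trg.left (Trg.right (Trg.right (chamberN 9 20)))) :=
  HoldsN.of_red (k := 16) (m := 16) (leaf ok3 (G97 _ rfl) (G443 _ rfl) (G443 _ rfl) (by decide +kernel))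
theorem l344 : HoldsN X3 (Trg.right (Trg.left (Trg.right (Trg.right (chamber 1 1))))) (Trg.left (Trg.right (Trg.right (chamberN 9 20)))) :=
  HoldsN.of_red (k := 16) (m := 16) (leaf ok3 (G166 _ rfl) (G443 _ rfl) (G430 _ rfl) (by decide +kernel))
theorem l345 : HoldsN X3 (Trg.left (Trg.right (Trg.right (chamber 1 1)))) (Trg.right (Trg.right (Trg.right (chamberN 9 20)))) :=
  HoldsN.of_red (k := 16) (m := 16) (leaf ok3 (G76 _ rfl) (G443 _ rfl) (G456 _ rfl) (by decide +kernel))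
theorem l346 : HoldsN X3 (Trg.right (Trg.right (Trg.right (chamber 1 1)))) (Trg.left (Trg.right (Trg.right (chamberN 9 20)))) :=
  HoldsN.of_red (k := 16) (m := 16) (leaf ok3 (G76 _ rfl) (G456 _ rfl) (G443 _ rfl) (by decide +kernel))
theorem l347 : HoldsN X3 (Trg.right (Trg.right (Trg.right (chamber 1 1)))) (Trg.right (Trg.right (Trg.right (chamberN 9 20)))) :=
  HoldsN.of_red (k := 16) (m := 16) (leaf ok3 (G36 _ rfl) (G485 _ rfl) (G485 _ rfl) (by decide +kernel))
theorem l348 : HoldsN X3 (Trg.left (Trg.left (Trg.left (Trg.left (chamber 1 1))))) (Trg.left (Trg.left (Trg.left (chamberNR 9 20)))) :=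
  HoldsN.of_red (k := 16) (m := 16) (leaf ok3 (G139 _ rfl) (G486 _ rfl) (G191 _ rfl) (by decide +kernel))
theorem l349 : HoldsN X3 (Trg.right (Trg.left (Trg.left (Trg.left (chamber 1 1))))) (Trg.left (Trg.left (Trg.left (chamberNR 9 20)))) :=
  HoldsN.of_red (k := 16) (m := 16) (leaf ok3 (G57 _ rfl) (G543 _ rfl) (G191 _ rfl) (by decide +kernel))

end Vale.Agent.Lib.P154N.D5
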