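import Vale.Agent.Lib.P154N.D5.Data
import Vale.Agent.Lib.P154N.Red

/-!
# Leaves of the tree of triangles
-/

namespace Vale.Agent.Lib.P154N.D5

open Vale.Agent.Lib.P154K Vale.Agent.Lib.P154Neg

theorem l360 : HoldsN X3 (Trg.left (Trg.right (Trg.left (chamber 1 1)))) (Trg.right (Trg.left (chamberNR 9 20))) :=
  HoldsN.of_red (k := 16) (m := 16) (leaf ok3 (G126 _ rfl) (G488 _ rfl) (G94 _ rfl) (by decide +kernel))
theorem l361 : HoldsN X3 (Trg.left (Trg.right (Trg.right (Trg.left (chamber 1 1))))) (Trg.right (Trg.left (chamberNR 9 20))) :=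
  HoldsN.of_red (k := 16) (m := 16) (leaf ok3 (G59 _ rfl) (G555 _ rfl) (G94 _ rfl) (by decide +kernel))
theorem l362 : HoldsN X3 (Trg.right (Trg.right (Trg.right (Trg.left (chamber 1 1))))) (Trg.right (Trg.left (chamberNR 9 20))) :=
  HoldsN.of_red (k := 16) (m := 16) (leaf ok3 (G125 _ rfl) (G488 _ rfl) (G94 _ rfl) (by decide +kernel))
theorem l363 : HoldsN X3 (Trg.left (Trg.left (Trg.left (Trg.left (chamber 1 1))))) (Trg.left (Trg.right (chamberNR 9 20))) :=
  HoldsN.of_red (k := 16) (m := 16) (leaf ok3 (G49 _ rfl) (G576 _ rfl) (G200 _ rfl) (by decide +kernel))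
theorem l364 : HoldsN X3 (Trg.right (Trg.left (Trg.left (Trg.left (chamber 1 1))))) (Trg.left (Trg.left (Trg.right (chamberNR 9 20)))) :=
  HoldsN.of_red (k := 16) (m := 16) (leaf ok3 (G29 _ rfl) (G580 _ rfl) (G253 _ rfl) (by decide +kernel))
theorem l365 : HoldsN X3 (Trg.right (Trg.left (Trg.left (Trg.left (chamber 1 1))))) (Trg.left (Trg.right (Trg.left (Trg.right (chamberNR 9 20))))) :=
  HoldsN.of_red (k := 16) (m := 16) (leaf ok3 (G14 _ rfl) (G610 _ rfl) (G333 _ rfl) (by decide +kernel))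
theorem l366 : HoldsN X3 (Trg.right (Trg.left (Trg.left (Trg.left (chamber 1 1))))) (Trg.right (Trg.right (Trg.left (Trg.right (chamberNR 9 20))))) :=
  HoldsN.of_red (k := 16) (m := 16) (leaf ok3 (G29 _ rfl) (G580 _ rfl) (G331 _ rfl) (by decide +kernel))
theorem l367 : HoldsN X3 (Trg.right (Trg.left (Trg.left (chamber 1 1)))) (Trg.left (Trg.right (chamberNR 9 20))) :=
  HoldsN.of_red (k := 16) (m := 16) (leaf ok3 (G76 _ rfl) (G456 _ rfl) (G201 _ rfl) (by decide +kernel))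
theorem l368 : HoldsN X3 (Trg.left (Trg.right (Trg.left (chamber 1 1)))) (Trg.left (Trg.left (Trg.right (chamberNR 9 20)))) :=
  HoldsN.of_red (k := 16) (m := 16) (leaf ok3 (G69 _ rfl) (G579 _ rfl) (G96 _ rfl) (by decide +kernel))
theorem l369 : HoldsN X3 (Trg.left (Trg.right (Trg.left (chamber 1 1)))) (Trg.left (Trg.right (Trg.left (Trg.right (chamberNR 9 20))))) :=
  HoldsN.of_red (k := 16) (m := 16) (leaf ok3 (G38 _ rfl) (G610 _ rfl) (G95 _ rfl) (by decide +kernel))

end Vale.Agent.Lib.P154N.D5
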