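import Vale.Agent.Lib.P154N.D5.Data
import Vale.Agent.Lib.P154N.Red

/-!
# Leaves of the tree of triangles
-/

namespace Vale.Agent.Lib.P154N.D5

open Vale.Agent.Lib.P154K Vale.Agent.Lib.P154Neg

theorem l370 : HoldsN X3 (Trg.left (Trg.left (Trg.right (Trg.left (chamber 1 1))))) (Trg.right (Trg.right (Trg.left (Trg.right (chamberNR 9 20))))) :=
  HoldsN.of_red (k := 16) (m := 16) (leaf ok3 (G65 _ rfl) (G579 _ rfl) (G135 _ rfl) (by decide +kernel))
theorem l371 : HoldsN X3 (Trg.right (Trg.left (Trg.right (Trg.left (chamber 1 1))))) (Trg.left (Trg.right (Trg.right (Trg.left (Trg.right (chamberNR 9 20)))))) :=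
  HoldsN.of_red (k := 16) (m := 16) (leaf ok3 (G64 _ rfl) (G605 _ rfl) (G135 _ rfl) (by decide +kernel))
theorem l372 : HoldsN X3 (Trg.right (Trg.left (Trg.right (Trg.left (chamber 1 1))))) (Trg.right (Trg.right (Trg.right (Trg.left (Trg.right (chamberNR 9 20)))))) :=
  HoldsN.of_red (k := 16) (m := 16) (leaf ok3 (G63 _ rfl) (G631 _ rfl) (G95 _ rfl) (by decide +kernel))
theorem l373 : HoldsN X3 (Trg.left (Trg.right (Trg.right (Trg.left (chamber 1 1))))) (Trg.left (Trg.left (Trg.right (chamberNR 9 20)))) :=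
  HoldsN.of_red (k := 16) (m := 16) (leaf ok3 (G28 _ rfl) (G608 _ rfl) (G170 _ rfl) (by decide +kernel))
theorem l374 : HoldsN X3 (Trg.left (Trg.right (Trg.right (Trg.left (chamber 1 1))))) (Trg.left (Trg.right (Trg.left (Trg.right (chamberNR 9 20))))) :=
  HoldsN.of_red (k := 16) (m := 16) (leaf ok3 (G13 _ rfl) (G641 _ rfl) (G228 _ rfl) (by decide +kernel))
theorem l375 : HoldsN X3 (Trg.left (Trg.right (Trg.right (Trg.left (chamber 1 1))))) (Trg.right (Trg.right (Trg.left (Trg.right (chamberNR 9 20))))) :=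
  HoldsN.of_red (k := 16) (m := 16) (leaf ok3 (G28 _ rfl) (G608 _ rfl) (G227 _ rfl) (by decide +kernel))
theorem l376 : HoldsN X3 (Trg.right (Trg.right (Trg.right (Trg.left (chamber 1 1))))) (Trg.left (Trg.left (Trg.right (chamberNR 9 20)))) :=
  HoldsN.of_red (k := 16) (m := 16) (leaf ok3 (G69 _ rfl) (G579 _ rfl) (G165 _ rfl) (by decide +kernel))
theorem l377 : HoldsN X3 (Trg.right (Trg.right (Trg.right (Trg.left (chamber 1 1))))) (Trg.left (Trg.right (Trg.left (Trg.right (chamberNR 9 20))))) :=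
  HoldsN.of_red (k := 16) (m := 16) (leaf ok3 (G38 _ rfl) (G610 _ rfl) (G192 _ rfl) (by decide +kernel))
theorem l378 : HoldsN X3 (Trg.right (Trg.right (Trg.right (Trg.left (chamber 1 1))))) (Trg.right (Trg.right (Trg.left (Trg.right (chamberNR 9 20))))) :=
  HoldsN.of_red (k := 16) (m := 16) (leaf ok3 (G65 _ rfl) (G579 _ rfl) (G192 _ rfl) (by decide +kernel))
theorem l379 : HoldsN X3 (Trg.left (Trg.left (Trg.left (Trg.left (Trg.left (chamber 1 1)))))) (Trg.left (Trg.left (Trg.right (Trg.right (chamberNR 9 20))))) :=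
  HoldsN.of_red (k := 16) (m := 16) (leaf ok3 (G134 _ rfl) (G515 _ rfl) (G324 _ rfl) (by decide +kernel))

end Vale.Agent.Lib.P154N.D5
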