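import Vale.Agent.Lib.P154N.D5.Data
import Vale.Agent.Lib.P154N.Red

/-!
# Leaves of the tree of triangles
-/

namespace Vale.Agent.Lib.P154N.D5

open Vale.Agent.Lib.P154K Vale.Agent.Lib.P154Neg

theorem l380 : HoldsN X3 (Trg.right (Trg.left (Trg.left (Trg.left (Trg.left (chamber 1 1)))))) (Trg.left (Trg.left (Trg.right (Trg.right (chamberNR 9 20))))) :=
  HoldsN.of_red (k := 16) (m := 16) (leaf ok3 (G136 _ rfl) (G515 _ rfl) (G285 _ rfl) (by decide +kernel))
theorem l381 : HoldsN X3 (Trg.left (Trg.left (Trg.left (Trg.left (chamber 1 1))))) (Trg.right (Trg.left (Trg.right (Trg.right (chamberNR 9 20))))) :=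
  HoldsN.of_red (k := 16) (m := 16) (leaf ok3 (G247 _ rfl) (G446 _ rfl) (G288 _ rfl) (by decide +kernel))
theorem l382 : HoldsN X3 (Trg.right (Trg.left (Trg.left (Trg.left (chamber 1 1))))) (Trg.left (Trg.left (Trg.right (Trg.right (chamberNR 9 20))))) :=
  HoldsN.of_red (k := 16) (m := 16) (leaf ok3 (G73 _ rfl) (G516 _ rfl) (G330 _ rfl) (by decide +kernel))
theorem l383 : HoldsN X3 (Trg.right (Trg.left (Trg.left (Trg.left (chamber 1 1))))) (Trg.right (Trg.left (Trg.right (Trg.right (chamberNR 9 20))))) :=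
  HoldsN.of_red (k := 16) (m := 16) (leaf ok3 (G148 _ rfl) (G453 _ rfl) (G325 _ rfl) (by decide +kernel))
theorem l384 : HoldsN X3 (Trg.left (Trg.left (Trg.left (Trg.left (chamber 1 1))))) (Trg.right (Trg.right (Trg.right (chamberNR 9 20)))) :=
  HoldsN.of_red (k := 16) (m := 16) (leaf ok3 (G136 _ rfl) (G540 _ rfl) (G195 _ rfl) (by decide +kernel))
theorem l385 : HoldsN X3 (Trg.right (Trg.left (Trg.left (Trg.left (chamber 1 1))))) (Trg.right (Trg.right (Trg.right (chamberNR 9 20)))) :=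
  HoldsN.of_red (k := 16) (m := 16) (leaf ok3 (G54 _ rfl) (G557 _ rfl) (G253 _ rfl) (by decide +kernel))
theorem l386 : HoldsN X3 (Trg.left (Trg.right (Trg.left (Trg.left (chamber 1 1))))) (Trg.left (Trg.left (Trg.right (Trg.right (chamberNR 9 20))))) :=
  HoldsN.of_red (k := 16) (m := 16) (leaf ok3 (G166 _ rfl) (G443 _ rfl) (G354 _ rfl) (by decide +kernel))
theorem l387 : HoldsN X3 (Trg.right (Trg.right (Trg.left (Trg.left (chamber 1 1))))) (Trg.left (Trg.left (Trg.right (Trg.right (chamberNR 9 20))))) :=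
  HoldsN.of_red (k := 16) (m := 16) (leaf ok3 (G165 _ rfl) (G479 _ rfl) (G289 _ rfl) (by decide +kernel))
theorem l388 : HoldsN X3 (Trg.right (Trg.left (Trg.left (chamber 1 1)))) (Trg.right (Trg.left (Trg.right (Trg.right (chamberNR 9 20))))) :=
  HoldsN.of_red (k := 16) (m := 16) (leaf ok3 (G263 _ rfl) (G438 _ rfl) (G288 _ rfl) (by decide +kernel))
theorem l389 : HoldsN X3 (Trg.right (Trg.left (Trg.left (chamber 1 1)))) (Trg.right (Trg.right (Trg.right (chamberNR 9 20)))) :=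
  HoldsN.of_red (k := 16) (m := 16) (leaf ok3 (G148 _ rfl) (G453 _ rfl) (G196 _ rfl) (by decide +kernel))

end Vale.Agent.Lib.P154N.D5
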