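import Vale.Agent.Lib.P154N.D5.Data
import Vale.Agent.Lib.P154N.Red

/-!
# Leaves of the tree of triangles
-/

namespace Vale.Agent.Lib.P154N.D5

open Vale.Agent.Lib.P154K Vale.Agent.Lib.P154Neg

theorem l400 : HoldsN X3 (Trg.left (Trg.right (Trg.right (Trg.left (chamber 1 1))))) (Trg.right (Trg.right (Trg.right (chamberNR 9 20)))) :=
  HoldsN.of_red (k := 16) (m := 16) (leaf ok3 (G53 _ rfl) (G587 _ rfl) (G170 _ rfl) (by decide +kernel))
theorem l401 : HoldsN X3 (Trg.right (Trg.right (Trg.right (Trg.left (chamber 1 1))))) (Trg.right (Trg.right (Trg.right (chamberNR 9 20)))) :=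
  HoldsN.of_red (k := 16) (m := 16) (leaf ok3 (G115 _ rfl) (G542 _ rfl) (G165 _ rfl) (by decide +kernel))
theorem l402 : HoldsN X3 (Trg.left (Trg.left (Trg.right (chamber 1 1)))) (Trg.left (Trg.left (Trg.left (chamberNR 9 20)))) :=
  HoldsN.of_red (k := 16) (m := 16) (leaf ok3 (G31 _ rfl) (G580 _ rfl) (G200 _ rfl) (by decide +kernel))
theorem l403 : HoldsN X3 (Trg.left (Trg.right (Trg.left (Trg.right (chamber 1 1))))) (Trg.left (Trg.left (Trg.left (chamberNR 9 20)))) :=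
  HoldsN.of_red (k := 16) (m := 16) (leaf ok3 (G17 _ rfl) (G610 _ rfl) (G208 _ rfl) (by decide +kernel))
theorem l404 : HoldsN X3 (Trg.right (Trg.right (Trg.left (Trg.right (chamber 1 1))))) (Trg.left (Trg.left (Trg.left (chamberNR 9 20)))) :=
  HoldsN.of_red (k := 16) (m := 16) (leaf ok3 (G30 _ rfl) (G580 _ rfl) (G205 _ rfl) (by decide +kernel))
theorem l405 : HoldsN X3 (Trg.left (Trg.right (chamber 1 1))) (Trg.right (Trg.left (Trg.left (chamberNR 9 20)))) :=
  HoldsN.of_red (k := 16) (m := 16) (leaf ok3 (G76 _ rfl) (G456 _ rfl) (G201 _ rfl) (by decide +kernel))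
theorem l406 : HoldsN X3 (Trg.left (Trg.left (Trg.right (chamber 1 1)))) (Trg.right (Trg.left (chamberNR 9 20))) :=
  HoldsN.of_red (k := 16) (m := 16) (leaf ok3 (G31 _ rfl) (G580 _ rfl) (G99 _ rfl) (by decide +kernel))
theorem l407 : HoldsN X3 (Trg.left (Trg.right (Trg.left (Trg.right (chamber 1 1))))) (Trg.right (Trg.left (chamberNR 9 20))) :=
  HoldsN.of_red (k := 16) (m := 16) (leaf ok3 (G17 _ rfl) (G610 _ rfl) (G101 _ rfl) (by decide +kernel))
theorem l408 : HoldsN X3 (Trg.right (Trg.right (Trg.left (Trg.right (chamber 1 1))))) (Trg.right (Trg.left (chamberNR 9 20))) :=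
  HoldsN.of_red (k := 16) (m := 16) (leaf ok3 (G30 _ rfl) (G580 _ rfl) (G100 _ rfl) (by decide +kernel))
theorem l409 : HoldsN X3 (Trg.left (Trg.left (Trg.right (chamber 1 1)))) (Trg.left (Trg.left (Trg.right (chamberNR 9 20)))) :=
  HoldsN.of_red (k := 16) (m := 16) (leaf ok3 (G12 _ rfl) (G581 _ rfl) (G302 _ rfl) (by decide +kernel))

end Vale.Agent.Lib.P154N.D5
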