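import Vale.Agent.Lib.P154N.D5.Data
import Vale.Agent.Lib.P154N.Red

/-!
# Leaves of the tree of triangles
-/

namespace Vale.Agent.Lib.P154N.D5

open Vale.Agent.Lib.P154K Vale.Agent.Lib.P154Neg

theorem l410 : HoldsN X3 (Trg.left (Trg.left (Trg.right (chamber 1 1)))) (Trg.left (Trg.right (Trg.left (Trg.right (chamberNR 9 20))))) :=
  HoldsN.of_red (k := 16) (m := 16) (leaf ok3 (G5 _ rfl) (G610 _ rfl) (G487 _ rfl) (by decide +kernel))
theorem l411 : HoldsN X3 (Trg.left (Trg.left (Trg.right (chamber 1 1)))) (Trg.right (Trg.right (Trg.left (Trg.right (chamberNR 9 20))))) :=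
  HoldsN.of_red (k := 16) (m := 16) (leaf ok3 (G12 _ rfl) (G581 _ rfl) (G484 _ rfl) (by decide +kernel))
theorem l412 : HoldsN X3 (Trg.left (Trg.right (Trg.left (Trg.right (chamber 1 1))))) (Trg.left (Trg.left (Trg.right (chamberNR 9 20)))) :=
  HoldsN.of_red (k := 16) (m := 16) (leaf ok3 (G5 _ rfl) (G610 _ rfl) (G487 _ rfl) (by decide +kernel))
theorem l413 : HoldsN X3 (Trg.left (Trg.left (Trg.right (Trg.left (Trg.right (chamber 1 1)))))) (Trg.left (Trg.right (Trg.left (Trg.right (chamberNR 9 20))))) :=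
  HoldsN.of_red (k := 16) (m := 16) (leaf ok3 (G2 _ rfl) (G641 _ rfl) (G594 _ rfl) (by decide +kernel))
theorem l414 : HoldsN X3 (Trg.left (Trg.right (Trg.left (Trg.right (Trg.left (Trg.right (chamber 1 1))))))) (Trg.left (Trg.left (Trg.right (Trg.left (Trg.right (chamberNR 9 20)))))) :=
  HoldsN.of_red (k := 16) (m := 16) (leaf ok3 (G1 _ rfl) (G645 _ rfl) (G625 _ rfl) (by decide +kernel))
theorem l415 : HoldsN X3 (Trg.left (Trg.right (Trg.left (Trg.right (Trg.left (Trg.right (chamber 1 1))))))) (Trg.left (Trg.right (Trg.left (Trg.right (Trg.left (Trg.right (chamberNR 9 20))))))) :=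
  HoldsN.of_red (k := 16) (m := 16) (leaf ok3 (G0 _ rfl) (G647 _ rfl) (G645 _ rfl) (by decide +kernel))
theorem l416 : HoldsN X3 (Trg.left (Trg.right (Trg.left (Trg.right (Trg.left (Trg.right (chamber 1 1))))))) (Trg.right (Trg.right (Trg.left (Trg.right (Trg.left (Trg.right (chamberNR 9 20))))))) :=
  HoldsN.of_red (k := 16) (m := 16) (leaf ok3 (G1 _ rfl) (G645 _ rfl) (G642 _ rfl) (by decide +kernel))
theorem l417 : HoldsN X3 (Trg.right (Trg.right (Trg.left (Trg.right (Trg.left (Trg.right (chamber 1 1))))))) (Trg.left (Trg.right (Trg.left (Trg.right (chamberNR 9 20))))) :=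
  HoldsN.of_red (k := 16) (m := 16) (leaf ok3 (G2 _ rfl) (G641 _ rfl) (G627 _ rfl) (by decide +kernel))
theorem l418 : HoldsN X3 (Trg.left (Trg.right (Trg.left (Trg.right (chamber 1 1))))) (Trg.right (Trg.right (Trg.left (Trg.right (chamberNR 9 20))))) :=
  HoldsN.of_red (k := 16) (m := 16) (leaf ok3 (G5 _ rfl) (G610 _ rfl) (G590 _ rfl) (by decide +kernel))
theorem l419 : HoldsN X3 (Trg.right (Trg.right (Trg.left (Trg.right (chamber 1 1))))) (Trg.left (Trg.left (Trg.right (chamberNR 9 20)))) :=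
  HoldsN.of_red (k := 16) (m := 16) (leaf ok3 (G12 _ rfl) (G581 _ rfl) (G484 _ rfl) (by decide +kernel))

end Vale.Agent.Lib.P154N.D5
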