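import Vale.Agent.Lib.P154N.D5.Data
import Vale.Agent.Lib.P154N.Red

/-!
# Leaves of the tree of triangles
-/

namespace Vale.Agent.Lib.P154N.D5

open Vale.Agent.Lib.P154K Vale.Agent.Lib.P154Neg

theorem l420 : HoldsN X3 (Trg.right (Trg.right (Trg.left (Trg.right (chamber 1 1))))) (Trg.left (Trg.right (Trg.left (Trg.right (chamberNR 9 20))))) :=
  HoldsN.of_red (k := 16) (m := 16) (leaf ok3 (G5 _ rfl) (G610 _ rfl) (G590 _ rfl) (by decide +kernel))
theorem l421 : HoldsN X3 (Trg.right (Trg.right (Trg.left (Trg.right (chamber 1 1))))) (Trg.right (Trg.right (Trg.left (Trg.right (chamberNR 9 20))))) :=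
  HoldsN.of_red (k := 16) (m := 16) (leaf ok3 (G12 _ rfl) (G581 _ rfl) (G572 _ rfl) (by decide +kernel))
theorem l422 : HoldsN X3 (Trg.left (Trg.right (chamber 1 1))) (Trg.left (Trg.right (Trg.right (chamberNR 9 20)))) :=
  HoldsN.of_red (k := 16) (m := 16) (leaf ok3 (G26 _ rfl) (G456 _ rfl) (G376 _ rfl) (by decide +kernel))
theorem l423 : HoldsN X3 (Trg.left (Trg.right (chamber 1 1))) (Trg.right (Trg.right (Trg.right (chamberNR 9 20)))) :=
  HoldsN.of_red (k := 16) (m := 16) (leaf ok3 (G15 _ rfl) (G582 _ rfl) (G304 _ rfl) (by decide +kernel))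
theorem l424 : HoldsN X3 (Trg.left (Trg.left (Trg.right (Trg.right (chamber 1 1))))) (Trg.left (Trg.left (Trg.left (chamberNR 9 20)))) :=
  HoldsN.of_red (k := 16) (m := 16) (leaf ok3 (G75 _ rfl) (G516 _ rfl) (G296 _ rfl) (by decide +kernel))
theorem l425 : HoldsN X3 (Trg.right (Trg.left (Trg.right (Trg.right (chamber 1 1))))) (Trg.left (Trg.left (Trg.left (chamberNR 9 20)))) :=
  HoldsN.of_red (k := 16) (m := 16) (leaf ok3 (G148 _ rfl) (G453 _ rfl) (G290 _ rfl) (by decide +kernel))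
theorem l426 : HoldsN X3 (Trg.left (Trg.left (Trg.right (Trg.right (chamber 1 1))))) (Trg.right (Trg.left (Trg.left (chamberNR 9 20)))) :=
  HoldsN.of_red (k := 16) (m := 16) (leaf ok3 (G166 _ rfl) (G443 _ rfl) (G290 _ rfl) (by decide +kernel))
theorem l427 : HoldsN X3 (Trg.right (Trg.left (Trg.right (Trg.right (chamber 1 1))))) (Trg.right (Trg.left (Trg.left (chamberNR 9 20)))) :=
  HoldsN.of_red (k := 16) (m := 16) (leaf ok3 (G263 _ rfl) (G438 _ rfl) (G288 _ rfl) (by decide +kernel))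
theorem l428 : HoldsN X3 (Trg.left (Trg.left (Trg.right (Trg.right (chamber 1 1))))) (Trg.right (Trg.left (chamberNR 9 20))) :=
  HoldsN.of_red (k := 16) (m := 16) (leaf ok3 (G75 _ rfl) (G516 _ rfl) (G200 _ rfl) (by decide +kernel))
theorem l429 : HoldsN X3 (Trg.right (Trg.left (Trg.right (Trg.right (chamber 1 1))))) (Trg.right (Trg.left (chamberNR 9 20))) :=
  HoldsN.of_red (k := 16) (m := 16) (leaf ok3 (G148 _ rfl) (G453 _ rfl) (G196 _ rfl) (by decide +kernel))

end Vale.Agent.Lib.P154N.D5
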