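import Vale.Agent.Lib.P154N.D5.Data
import Vale.Agent.Lib.P154N.Red

/-!
# Leaves of the tree of triangles
-/

namespace Vale.Agent.Lib.P154N.D5

open Vale.Agent.Lib.P154K Vale.Agent.Lib.P154Neg

theorem l440 : HoldsN X3 (Trg.right (Trg.right (Trg.right (chamber 1 1)))) (Trg.left (Trg.right (Trg.right (chamberNR 9 20)))) :=
  HoldsN.of_red (k := 16) (m := 16) (leaf ok3 (G76 _ rfl) (G456 _ rfl) (G368 _ rfl) (by decide +kernel))
theorem l441 : HoldsN X3 (Trg.right (Trg.right (Trg.right (chamber 1 1)))) (Trg.right (Trg.right (Trg.right (chamberNR 9 20)))) :=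
  HoldsN.of_red (k := 16) (m := 16) (leaf ok3 (G54 _ rfl) (G557 _ rfl) (G300 _ rfl) (by decide +kernel))
theorem l442 : HoldsN X4 (Trg.left (Trg.left (Trg.left (Trg.left (chamber 1 1))))) (Trg.left (Trg.left (Trg.left (chamberN 9 20)))) :=
  HoldsN.of_red (k := 16) (m := 16) (leaf ok4 (G78 _ rfl) (G413 _ rfl) (G365 _ rfl) (by decide +kernel))
theorem l443 : HoldsN X4 (Trg.right (Trg.left (Trg.left (Trg.left (chamber 1 1))))) (Trg.left (Trg.left (Trg.left (chamberN 9 20)))) :=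
  HoldsN.of_red (k := 16) (m := 16) (leaf ok4 (G39 _ rfl) (G374 _ rfl) (G506 _ rfl) (by decide +kernel))
theorem l444 : HoldsN X4 (Trg.left (Trg.left (Trg.left (chamber 1 1)))) (Trg.right (Trg.left (Trg.left (chamberN 9 20)))) :=
  HoldsN.of_red (k := 16) (m := 16) (leaf ok4 (G116 _ rfl) (G366 _ rfl) (G411 _ rfl) (by decide +kernel))
theorem l445 : HoldsN X4 (Trg.left (Trg.left (Trg.left (chamber 1 1)))) (Trg.right (Trg.left (chamberN 9 20))) :=
  HoldsN.of_red (k := 16) (m := 16) (leaf ok4 (G39 _ rfl) (G303 _ rfl) (G378 _ rfl) (by decide +kernel))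
theorem l446 : HoldsN X4 (Trg.right (Trg.left (Trg.left (chamber 1 1)))) (Trg.left (chamberN 9 20)) :=
  HoldsN.of_red (k := 16) (m := 16) (leaf ok4 (G116 _ rfl) (G372 _ rfl) (G372 _ rfl) (by decide +kernel))
theorem l447 : HoldsN X4 (Trg.left (Trg.right (Trg.left (chamber 1 1)))) (Trg.left (Trg.left (Trg.left (chamberN 9 20)))) :=
  HoldsN.of_red (k := 16) (m := 16) (leaf ok4 (G55 _ rfl) (G469 _ rfl) (G298 _ rfl) (by decide +kernel))
theorem l448 : HoldsN X4 (Trg.left (Trg.right (Trg.right (Trg.left (chamber 1 1))))) (Trg.left (Trg.left (Trg.left (chamberN 9 20)))) :=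
  HoldsN.of_red (k := 16) (m := 16) (leaf ok4 (G37 _ rfl) (G377 _ rfl) (G499 _ rfl) (by decide +kernel))
theorem l449 : HoldsN X4 (Trg.right (Trg.right (Trg.right (Trg.left (chamber 1 1))))) (Trg.left (Trg.left (Trg.left (chamberN 9 20)))) :=
  HoldsN.of_red (k := 16) (m := 16) (leaf ok4 (G55 _ rfl) (G457 _ rfl) (G365 _ rfl) (by decide +kernel))

end Vale.Agent.Lib.P154N.D5
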