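import Vale.Agent.Lib.P154N.D5.Data
import Vale.Agent.Lib.P154N.Red

/-!
# Leaves of the tree of triangles
-/

namespace Vale.Agent.Lib.P154N.D5

open Vale.Agent.Lib.P154K Vale.Agent.Lib.P154Neg

theorem l490 : HoldsN X4 (Trg.right (Trg.left (Trg.left (Trg.right (Trg.left (chamber 1 1)))))) (Trg.left (Trg.right (Trg.left (Trg.left (Trg.right (Trg.right (chamberN 9 20))))))) :=
  HoldsN.of_red (k := 16) (m := 16) (leaf ok4 (G174 _ rfl) (G544 _ rfl) (G244 _ rfl) (by decide +kernel))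
theorem l491 : HoldsN X4 (Trg.right (Trg.left (Trg.left (Trg.right (Trg.left (chamber 1 1)))))) (Trg.right (Trg.right (Trg.left (Trg.left (Trg.right (Trg.right (chamberN 9 20))))))) :=
  HoldsN.of_red (k := 16) (m := 16) (leaf ok4 (G189 _ rfl) (G513 _ rfl) (G267 _ rfl) (by decide +kernel))
theorem l492 : HoldsN X4 (Trg.right (Trg.left (Trg.right (Trg.left (chamber 1 1))))) (Trg.left (Trg.left (Trg.right (Trg.right (chamberN 9 20))))) :=
  HoldsN.of_red (k := 16) (m := 16) (leaf ok4 (G112 _ rfl) (G548 _ rfl) (G197 _ rfl) (by decide +kernel))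
theorem l493 : HoldsN X4 (Trg.left (Trg.right (Trg.left (chamber 1 1)))) (Trg.right (Trg.left (Trg.right (Trg.right (chamberN 9 20))))) :=
  HoldsN.of_red (k := 16) (m := 16) (leaf ok4 (G148 _ rfl) (G448 _ rfl) (G292 _ rfl) (by decide +kernel))
theorem l494 : HoldsN X4 (Trg.left (Trg.right (Trg.right (Trg.left (chamber 1 1))))) (Trg.left (Trg.left (Trg.right (Trg.right (chamberN 9 20))))) :=
  HoldsN.of_red (k := 16) (m := 16) (leaf ok4 (G72 _ rfl) (G548 _ rfl) (G365 _ rfl) (by decide +kernel))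
theorem l495 : HoldsN X4 (Trg.left (Trg.right (Trg.right (Trg.left (chamber 1 1))))) (Trg.right (Trg.left (Trg.right (Trg.right (chamberN 9 20))))) :=
  HoldsN.of_red (k := 16) (m := 16) (leaf ok4 (G116 _ rfl) (G444 _ rfl) (G408 _ rfl) (by decide +kernel))
theorem l496 : HoldsN X4 (Trg.left (Trg.right (Trg.right (Trg.right (Trg.left (chamber 1 1)))))) (Trg.left (Trg.left (Trg.right (Trg.right (chamberN 9 20))))) :=
  HoldsN.of_red (k := 16) (m := 16) (leaf ok4 (G135 _ rfl) (G515 _ rfl) (G293 _ rfl) (by decide +kernel))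
theorem l497 : HoldsN X4 (Trg.right (Trg.right (Trg.right (Trg.right (Trg.left (chamber 1 1)))))) (Trg.left (Trg.left (Trg.right (Trg.right (chamberN 9 20))))) :=
  HoldsN.of_red (k := 16) (m := 16) (leaf ok4 (G110 _ rfl) (G548 _ rfl) (G327 _ rfl) (by decide +kernel))
theorem l498 : HoldsN X4 (Trg.right (Trg.right (Trg.right (Trg.left (chamber 1 1))))) (Trg.right (Trg.left (Trg.right (Trg.right (chamberN 9 20))))) :=
  HoldsN.of_red (k := 16) (m := 16) (leaf ok4 (G148 _ rfl) (G444 _ rfl) (G357 _ rfl) (by decide +kernel))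
theorem l499 : HoldsN X4 (Trg.left (Trg.left (Trg.left (Trg.right (Trg.left (chamber 1 1)))))) (Trg.left (Trg.right (Trg.right (Trg.right (chamberN 9 20))))) :=
  HoldsN.of_red (k := 16) (m := 16) (leaf ok4 (G53 _ rfl) (G561 _ rfl) (G279 _ rfl) (by decide +kernel))

end Vale.Agent.Lib.P154N.D5
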