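import Vale.Agent.Lib.P154N.D5.Data
import Vale.Agent.Lib.P154N.Red

/-!
# Leaves of the tree of triangles
-/

namespace Vale.Agent.Lib.P154N.D5

open Vale.Agent.Lib.P154K Vale.Agent.Lib.P154Neg

theorem l50 : HoldsN X2 (Trg.right (Trg.left (Trg.right (Trg.right (Trg.left (Trg.right (chamberN 9 20))))))) (Trg.left (Trg.left (Trg.right (Trg.right (chamberN 9 20))))) :=
  HoldsN.of_red (k := 16) (m := 16) (leaf ok2 (G508 _ rfl) (G261 _ rfl) (G266 _ rfl) (by decide +kernel))
theorem l51 : HoldsN X2 (Trg.right (Trg.right (Trg.right (Trg.left (Trg.right (chamberN 9 20)))))) (Trg.left (Trg.left (Trg.right (Trg.right (chamberN 9 20))))) :=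
  HoldsN.of_red (k := 16) (m := 16) (leaf ok2 (G525 _ rfl) (G220 _ rfl) (G259 _ rfl) (by decide +kernel))
theorem l52 : HoldsN X2 (Trg.right (Trg.right (Trg.left (Trg.right (chamberN 9 20))))) (Trg.right (Trg.left (Trg.right (Trg.right (chamberN 9 20))))) :=
  HoldsN.of_red (k := 16) (m := 16) (leaf ok2 (G442 _ rfl) (G310 _ rfl) (G263 _ rfl) (by decide +kernel))
theorem l53 : HoldsN X2 (Trg.left (Trg.left (Trg.right (chamberN 9 20)))) (Trg.right (Trg.right (Trg.right (chamberN 9 20)))) :=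
  HoldsN.of_red (k := 16) (m := 16) (leaf ok2 (G529 _ rfl) (G221 _ rfl) (G155 _ rfl) (by decide +kernel))
theorem l54 : HoldsN X2 (Trg.left (Trg.right (Trg.left (Trg.right (chamberN 9 20))))) (Trg.right (Trg.right (Trg.right (chamberN 9 20)))) :=
  HoldsN.of_red (k := 16) (m := 16) (leaf ok2 (G562 _ rfl) (G220 _ rfl) (G110 _ rfl) (by decide +kernel))
theorem l55 : HoldsN X2 (Trg.right (Trg.right (Trg.left (Trg.right (chamberN 9 20))))) (Trg.right (Trg.right (Trg.right (chamberN 9 20)))) :=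
  HoldsN.of_red (k := 16) (m := 16) (leaf ok2 (G529 _ rfl) (G221 _ rfl) (G145 _ rfl) (by decide +kernel))
theorem l56 : HoldsN X2 (Trg.left (Trg.right (Trg.right (chamberN 9 20)))) (Trg.left (Trg.left (Trg.left (chamberN 9 20)))) :=
  HoldsN.of_red (k := 16) (m := 16) (leaf ok2 (G446 _ rfl) (G325 _ rfl) (G223 _ rfl) (by decide +kernel))
theorem l57 : HoldsN X2 (Trg.left (Trg.left (Trg.right (Trg.right (chamberN 9 20))))) (Trg.right (Trg.left (Trg.left (chamberN 9 20)))) :=
  HoldsN.of_red (k := 16) (m := 16) (leaf ok2 (G432 _ rfl) (G384 _ rfl) (G310 _ rfl) (by decide +kernel))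
theorem l58 : HoldsN X2 (Trg.left (Trg.right (Trg.left (Trg.right (Trg.right (chamberN 9 20)))))) (Trg.left (Trg.left (Trg.right (Trg.left (Trg.left (chamberN 9 20)))))) :=
  HoldsN.of_red (k := 16) (m := 16) (leaf ok2 (G425 _ rfl) (G392 _ rfl) (G348 _ rfl) (by decide +kernel))
theorem l59 : HoldsN X2 (Trg.left (Trg.right (Trg.left (Trg.right (Trg.right (chamberN 9 20)))))) (Trg.right (Trg.left (Trg.right (Trg.left (Trg.left (chamberN 9 20)))))) :=
  HoldsN.of_red (k := 16) (m := 16) (leaf ok2 (G422 _ rfl) (G415 _ rfl) (G391 _ rfl) (by decide +kernel))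

end Vale.Agent.Lib.P154N.D5
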