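import Vale.Agent.Lib.P154N.D5.Data
import Vale.Agent.Lib.P154N.Red

/-!
# Leaves of the tree of triangles
-/

namespace Vale.Agent.Lib.P154N.D5

open Vale.Agent.Lib.P154K Vale.Agent.Lib.P154Neg

theorem l550 : HoldsN X4 (Trg.right (Trg.right (Trg.left (Trg.right (chamber 1 1))))) (Trg.right (Trg.right (Trg.right (chamberN 9 20)))) :=
  HoldsN.of_red (k := 16) (m := 16) (leaf ok4 (G22 _ rfl) (G485 _ rfl) (G576 _ rfl) (by decide +kernel))
theorem l551 : HoldsN X4 (Trg.left (Trg.left (Trg.right (Trg.right (chamber 1 1))))) (Trg.left (Trg.left (Trg.left (chamberN 9 20)))) :=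
  HoldsN.of_red (k := 16) (m := 16) (leaf ok4 (G74 _ rfl) (G298 _ rfl) (G511 _ rfl) (by decide +kernel))
theorem l552 : HoldsN X4 (Trg.right (Trg.left (Trg.right (Trg.right (chamber 1 1))))) (Trg.left (Trg.left (Trg.left (chamberN 9 20)))) :=
  HoldsN.of_red (k := 16) (m := 16) (leaf ok4 (G116 _ rfl) (G366 _ rfl) (G443 _ rfl) (by decide +kernel))
theorem l553 : HoldsN X4 (Trg.left (Trg.left (Trg.right (Trg.right (chamber 1 1))))) (Trg.right (Trg.left (Trg.left (chamberN 9 20)))) :=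
  HoldsN.of_red (k := 16) (m := 16) (leaf ok4 (G166 _ rfl) (G295 _ rfl) (G443 _ rfl) (by decide +kernel))
theorem l554 : HoldsN X4 (Trg.left (Trg.right (Trg.left (Trg.right (Trg.right (chamber 1 1)))))) (Trg.right (Trg.left (Trg.left (chamberN 9 20)))) :=
  HoldsN.of_red (k := 16) (m := 16) (leaf ok4 (G270 _ rfl) (G354 _ rfl) (G430 _ rfl) (by decide +kernel))
theorem l555 : HoldsN X4 (Trg.right (Trg.right (Trg.left (Trg.right (Trg.right (chamber 1 1)))))) (Trg.right (Trg.left (Trg.left (chamberN 9 20)))) :=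
  HoldsN.of_red (k := 16) (m := 16) (leaf ok4 (G223 _ rfl) (G359 _ rfl) (G432 _ rfl) (by decide +kernel))
theorem l556 : HoldsN X4 (Trg.left (Trg.left (Trg.right (Trg.right (chamber 1 1))))) (Trg.right (Trg.left (chamberN 9 20))) :=
  HoldsN.of_red (k := 16) (m := 16) (leaf ok4 (G74 _ rfl) (G206 _ rfl) (G516 _ rfl) (by decide +kernel))
theorem l557 : HoldsN X4 (Trg.right (Trg.left (Trg.right (Trg.right (chamber 1 1))))) (Trg.right (Trg.left (chamberN 9 20))) :=
  HoldsN.of_red (k := 16) (m := 16) (leaf ok4 (G116 _ rfl) (G299 _ rfl) (G448 _ rfl) (by decide +kernel))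
theorem l558 : HoldsN X4 (Trg.right (Trg.right (Trg.right (chamber 1 1)))) (Trg.left (Trg.left (Trg.left (Trg.left (chamberN 9 20))))) :=
  HoldsN.of_red (k := 16) (m := 16) (leaf ok4 (G78 _ rfl) (G298 _ rfl) (G510 _ rfl) (by decide +kernel))
theorem l559 : HoldsN X4 (Trg.right (Trg.right (Trg.right (chamber 1 1)))) (Trg.right (Trg.left (Trg.left (Trg.left (chamberN 9 20))))) :=
  HoldsN.of_red (k := 16) (m := 16) (leaf ok4 (G36 _ rfl) (G454 _ rfl) (G511 _ rfl) (by decide +kernel))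

end Vale.Agent.Lib.P154N.D5
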