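import Vale.Agent.Lib.P154N.D5.Data
import Vale.Agent.Lib.P154N.Red

/-!
# Leaves of the tree of triangles
-/

namespace Vale.Agent.Lib.P154N.D5

open Vale.Agent.Lib.P154K Vale.Agent.Lib.P154Neg

theorem l580 : HoldsN X4 (Trg.right (Trg.right (Trg.right (Trg.left (chamber 1 1))))) (Trg.left (Trg.left (Trg.left (chamberNR 9 20)))) :=
  HoldsN.of_red (k := 16) (m := 16) (leaf ok4 (G124 _ rfl) (G488 _ rfl) (G161 _ rfl) (by decide +kernel))
theorem l581 : HoldsN X4 (Trg.right (Trg.left (chamber 1 1))) (Trg.right (Trg.left (Trg.left (chamberNR 9 20)))) :=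
  HoldsN.of_red (k := 16) (m := 16) (leaf ok4 (G150 _ rfl) (G453 _ rfl) (G193 _ rfl) (by decide +kernel))
theorem l582 : HoldsN X4 (Trg.left (Trg.right (Trg.left (chamber 1 1)))) (Trg.right (Trg.left (chamberNR 9 20))) :=
  HoldsN.of_red (k := 16) (m := 16) (leaf ok4 (G126 _ rfl) (G488 _ rfl) (G94 _ rfl) (by decide +kernel))
theorem l583 : HoldsN X4 (Trg.left (Trg.right (Trg.right (Trg.left (chamber 1 1))))) (Trg.right (Trg.left (chamberNR 9 20))) :=
  HoldsN.of_red (k := 16) (m := 16) (leaf ok4 (G59 _ rfl) (G555 _ rfl) (G94 _ rfl) (by decide +kernel))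
theorem l584 : HoldsN X4 (Trg.right (Trg.right (Trg.right (Trg.left (chamber 1 1))))) (Trg.right (Trg.left (chamberNR 9 20))) :=
  HoldsN.of_red (k := 16) (m := 16) (leaf ok4 (G125 _ rfl) (G488 _ rfl) (G94 _ rfl) (by decide +kernel))
theorem l585 : HoldsN X4 (Trg.left (Trg.left (Trg.left (Trg.left (chamber 1 1))))) (Trg.left (Trg.right (chamberNR 9 20))) :=
  HoldsN.of_red (k := 16) (m := 16) (leaf ok4 (G49 _ rfl) (G576 _ rfl) (G200 _ rfl) (by decide +kernel))
theorem l586 : HoldsN X4 (Trg.right (Trg.left (Trg.left (Trg.left (chamber 1 1))))) (Trg.left (Trg.left (Trg.right (chamberNR 9 20)))) :=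
  HoldsN.of_red (k := 16) (m := 16) (leaf ok4 (G29 _ rfl) (G580 _ rfl) (G253 _ rfl) (by decide +kernel))
theorem l587 : HoldsN X4 (Trg.right (Trg.left (Trg.left (Trg.left (chamber 1 1))))) (Trg.left (Trg.right (Trg.left (Trg.right (chamberNR 9 20))))) :=
  HoldsN.of_red (k := 16) (m := 16) (leaf ok4 (G14 _ rfl) (G610 _ rfl) (G333 _ rfl) (by decide +kernel))
theorem l588 : HoldsN X4 (Trg.right (Trg.left (Trg.left (Trg.left (chamber 1 1))))) (Trg.right (Trg.right (Trg.left (Trg.right (chamberNR 9 20))))) :=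
  HoldsN.of_red (k := 16) (m := 16) (leaf ok4 (G29 _ rfl) (G580 _ rfl) (G331 _ rfl) (by decide +kernel))
theorem l589 : HoldsN X4 (Trg.right (Trg.left (Trg.left (chamber 1 1)))) (Trg.left (Trg.right (chamberNR 9 20))) :=
  HoldsN.of_red (k := 16) (m := 16) (leaf ok4 (G76 _ rfl) (G456 _ rfl) (G201 _ rfl) (by decide +kernel))

end Vale.Agent.Lib.P154N.D5
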