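import Vale.Agent.Lib.P154N.D5.Data
import Vale.Agent.Lib.P154N.Red

/-!
# Leaves of the tree of triangles
-/

namespace Vale.Agent.Lib.P154N.D5

open Vale.Agent.Lib.P154K Vale.Agent.Lib.P154Neg

theorem l60 : HoldsN X2 (Trg.left (Trg.right (Trg.left (Trg.right (Trg.right (chamberN 9 20)))))) (Trg.right (Trg.right (Trg.left (Trg.left (chamberN 9 20))))) :=
  HoldsN.of_red (k := 16) (m := 16) (leaf ok2 (G425 _ rfl) (G393 _ rfl) (G348 _ rfl) (by decide +kernel))
theorem l61 : HoldsN X2 (Trg.right (Trg.right (Trg.left (Trg.right (Trg.right (chamberN 9 20)))))) (Trg.right (Trg.left (Trg.left (chamberN 9 20)))) :=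
  HoldsN.of_red (k := 16) (m := 16) (leaf ok2 (G426 _ rfl) (G381 _ rfl) (G338 _ rfl) (by decide +kernel))
theorem l62 : HoldsN X2 (Trg.left (Trg.right (Trg.right (chamberN 9 20)))) (Trg.right (Trg.left (chamberN 9 20))) :=
  HoldsN.of_red (k := 16) (m := 16) (leaf ok2 (G446 _ rfl) (G329 _ rfl) (G223 _ rfl) (by decide +kernel))
theorem l63 : HoldsN X2 (Trg.right (Trg.right (Trg.right (chamberN 9 20)))) (Trg.left (Trg.left (Trg.left (chamberN 9 20)))) :=
  HoldsN.of_red (k := 16) (m := 16) (leaf ok2 (G483 _ rfl) (G236 _ rfl) (G220 _ rfl) (by decide +kernel))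
theorem l64 : HoldsN X2 (Trg.right (Trg.right (Trg.right (chamberN 9 20)))) (Trg.right (Trg.left (Trg.left (chamberN 9 20)))) :=
  HoldsN.of_red (k := 16) (m := 16) (leaf ok2 (G438 _ rfl) (G325 _ rfl) (G270 _ rfl) (by decide +kernel))
theorem l65 : HoldsN X2 (Trg.right (Trg.right (Trg.right (chamberN 9 20)))) (Trg.right (Trg.left (chamberN 9 20))) :=
  HoldsN.of_red (k := 16) (m := 16) (leaf ok2 (G483 _ rfl) (G239 _ rfl) (G175 _ rfl) (by decide +kernel))
theorem l66 : HoldsN X2 (Trg.right (Trg.right (chamberN 9 20))) (Trg.left (Trg.right (chamberN 9 20))) :=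
  HoldsN.of_red (k := 16) (m := 16) (leaf ok2 (G458 _ rfl) (G116 _ rfl) (G223 _ rfl) (by decide +kernel))
theorem l67 : HoldsN X2 (Trg.left (Trg.left (Trg.left (Trg.right (Trg.right (chamberN 9 20)))))) (Trg.left (Trg.left (Trg.right (Trg.right (chamberN 9 20))))) :=
  HoldsN.of_red (k := 16) (m := 16) (leaf ok2 (G477 _ rfl) (G309 _ rfl) (G337 _ rfl) (by decide +kernel))
theorem l68 : HoldsN X2 (Trg.left (Trg.right (Trg.left (Trg.left (Trg.right (Trg.right (chamberN 9 20))))))) (Trg.left (Trg.left (Trg.left (Trg.right (Trg.right (chamberN 9 20)))))) :=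
  HoldsN.of_red (k := 16) (m := 16) (leaf ok2 (G489 _ rfl) (G336 _ rfl) (G307 _ rfl) (by decide +kernel))
theorem l69 : HoldsN X2 (Trg.left (Trg.right (Trg.left (Trg.left (Trg.right (Trg.right (chamberN 9 20))))))) (Trg.left (Trg.right (Trg.left (Trg.left (Trg.right (Trg.right (chamberN 9 20))))))) :=
  HoldsN.of_red (k := 16) (m := 16) (leaf ok2 (G512 _ rfl) (G306 _ rfl) (G306 _ rfl) (by decide +kernel))

end Vale.Agent.Lib.P154N.D5
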