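import Vale.Agent.Lib.P154N.D5.Data
import Vale.Agent.Lib.P154N.Red

/-!
# Leaves of the tree of triangles
-/

namespace Vale.Agent.Lib.P154N.D5

open Vale.Agent.Lib.P154K Vale.Agent.Lib.P154Neg

theorem l610 : HoldsN X4 (Trg.left (Trg.left (Trg.left (Trg.left (chamber 1 1))))) (Trg.right (Trg.right (Trg.right (chamberNR 9 20)))) :=
  HoldsN.of_red (k := 16) (m := 16) (leaf ok4 (G136 _ rfl) (G540 _ rfl) (G195 _ rfl) (by decide +kernel))
theorem l611 : HoldsN X4 (Trg.right (Trg.left (Trg.left (Trg.left (chamber 1 1))))) (Trg.right (Trg.right (Trg.right (chamberNR 9 20)))) :=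
  HoldsN.of_red (k := 16) (m := 16) (leaf ok4 (G54 _ rfl) (G557 _ rfl) (G253 _ rfl) (by decide +kernel))
theorem l612 : HoldsN X4 (Trg.right (Trg.left (Trg.left (chamber 1 1)))) (Trg.left (Trg.right (Trg.right (chamberNR 9 20)))) :=
  HoldsN.of_red (k := 16) (m := 16) (leaf ok4 (G166 _ rfl) (G443 _ rfl) (G290 _ rfl) (by decide +kernel))
theorem l613 : HoldsN X4 (Trg.right (Trg.left (Trg.left (chamber 1 1)))) (Trg.right (Trg.right (Trg.right (chamberNR 9 20)))) :=
  HoldsN.of_red (k := 16) (m := 16) (leaf ok4 (G148 _ rfl) (G453 _ rfl) (G196 _ rfl) (by decide +kernel))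
theorem l614 : HoldsN X4 (Trg.left (Trg.left (Trg.left (Trg.right (Trg.left (chamber 1 1)))))) (Trg.left (Trg.left (Trg.right (Trg.right (chamberNR 9 20))))) :=
  HoldsN.of_red (k := 16) (m := 16) (leaf ok4 (G114 _ rfl) (G548 _ rfl) (G245 _ rfl) (by decide +kernel))
theorem l615 : HoldsN X4 (Trg.right (Trg.left (Trg.left (Trg.right (Trg.left (chamber 1 1)))))) (Trg.left (Trg.left (Trg.left (Trg.right (Trg.right (chamberNR 9 20)))))) :=
  HoldsN.of_red (k := 16) (m := 16) (leaf ok4 (G232 _ rfl) (G514 _ rfl) (G244 _ rfl) (by decide +kernel))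
theorem l616 : HoldsN X4 (Trg.right (Trg.left (Trg.left (Trg.right (Trg.left (chamber 1 1)))))) (Trg.left (Trg.right (Trg.left (Trg.left (Trg.right (Trg.right (chamberNR 9 20))))))) :=
  HoldsN.of_red (k := 16) (m := 16) (leaf ok4 (G175 _ rfl) (G544 _ rfl) (G243 _ rfl) (by decide +kernel))
theorem l617 : HoldsN X4 (Trg.right (Trg.left (Trg.left (Trg.right (Trg.left (chamber 1 1)))))) (Trg.right (Trg.right (Trg.left (Trg.left (Trg.right (Trg.right (chamberNR 9 20))))))) :=
  HoldsN.of_red (k := 16) (m := 16) (leaf ok4 (G219 _ rfl) (G514 _ rfl) (G244 _ rfl) (by decide +kernel))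
theorem l618 : HoldsN X4 (Trg.right (Trg.left (Trg.right (Trg.left (chamber 1 1))))) (Trg.left (Trg.left (Trg.right (Trg.right (chamberNR 9 20))))) :=
  HoldsN.of_red (k := 16) (m := 16) (leaf ok4 (G114 _ rfl) (G548 _ rfl) (G191 _ rfl) (by decide +kernel))
theorem l619 : HoldsN X4 (Trg.left (Trg.right (Trg.left (chamber 1 1)))) (Trg.right (Trg.left (Trg.right (Trg.right (chamberNR 9 20))))) :=
  HoldsN.of_red (k := 16) (m := 16) (leaf ok4 (G223 _ rfl) (G451 _ rfl) (G193 _ rfl) (by decide +kernel))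

end Vale.Agent.Lib.P154N.D5
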