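import Vale.Agent.Lib.P154N.D5.Data
import Vale.Agent.Lib.P154N.Red

/-!
# Leaves of the tree of triangles
-/

namespace Vale.Agent.Lib.P154N.D5

open Vale.Agent.Lib.P154K Vale.Agent.Lib.P154Neg

theorem l640 : HoldsN X4 (Trg.right (Trg.right (Trg.left (Trg.right (chamber 1 1))))) (Trg.right (Trg.left (chamberNR 9 20))) :=
  HoldsN.of_red (k := 16) (m := 16) (leaf ok4 (G30 _ rfl) (G580 _ rfl) (G100 _ rfl) (by decide +kernel))
theorem l641 : HoldsN X4 (Trg.left (Trg.left (Trg.right (chamber 1 1)))) (Trg.left (Trg.left (Trg.right (chamberNR 9 20)))) :=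
  HoldsN.of_red (k := 16) (m := 16) (leaf ok4 (G12 _ rfl) (G581 _ rfl) (G302 _ rfl) (by decide +kernel))
theorem l642 : HoldsN X4 (Trg.left (Trg.left (Trg.right (chamber 1 1)))) (Trg.left (Trg.right (Trg.left (Trg.right (chamberNR 9 20))))) :=
  HoldsN.of_red (k := 16) (m := 16) (leaf ok4 (G5 _ rfl) (G610 _ rfl) (G487 _ rfl) (by decide +kernel))
theorem l643 : HoldsN X4 (Trg.left (Trg.left (Trg.right (chamber 1 1)))) (Trg.right (Trg.right (Trg.left (Trg.right (chamberNR 9 20))))) :=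
  HoldsN.of_red (k := 16) (m := 16) (leaf ok4 (G12 _ rfl) (G581 _ rfl) (G484 _ rfl) (by decide +kernel))
theorem l644 : HoldsN X4 (Trg.left (Trg.right (Trg.left (Trg.right (chamber 1 1))))) (Trg.left (Trg.left (Trg.right (chamberNR 9 20)))) :=
  HoldsN.of_red (k := 16) (m := 16) (leaf ok4 (G5 _ rfl) (G610 _ rfl) (G487 _ rfl) (by decide +kernel))
theorem l645 : HoldsN X4 (Trg.left (Trg.left (Trg.right (Trg.left (Trg.right (chamber 1 1)))))) (Trg.left (Trg.right (Trg.left (Trg.right (chamberNR 9 20))))) :=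
  HoldsN.of_red (k := 16) (m := 16) (leaf ok4 (G2 _ rfl) (G641 _ rfl) (G594 _ rfl) (by decide +kernel))
theorem l646 : HoldsN X4 (Trg.left (Trg.right (Trg.left (Trg.right (Trg.left (Trg.right (chamber 1 1))))))) (Trg.left (Trg.left (Trg.right (Trg.left (Trg.right (chamberNR 9 20)))))) :=
  HoldsN.of_red (k := 16) (m := 16) (leaf ok4 (G1 _ rfl) (G645 _ rfl) (G625 _ rfl) (by decide +kernel))
theorem l647 : HoldsN X4 (Trg.left (Trg.right (Trg.left (Trg.right (Trg.left (Trg.right (chamber 1 1))))))) (Trg.left (Trg.right (Trg.left (Trg.right (Trg.left (Trg.right (chamberNR 9 20))))))) :=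
  HoldsN.of_red (k := 16) (m := 16) (leaf ok4 (G0 _ rfl) (G647 _ rfl) (G645 _ rfl) (by decide +kernel))
theorem l648 : HoldsN X4 (Trg.left (Trg.right (Trg.left (Trg.right (Trg.left (Trg.right (chamber 1 1))))))) (Trg.right (Trg.right (Trg.left (Trg.right (Trg.left (Trg.right (chamberNR 9 20))))))) :=
  HoldsN.of_red (k := 16) (m := 16) (leaf ok4 (G1 _ rfl) (G645 _ rfl) (G642 _ rfl) (by decide +kernel))
theorem l649 : HoldsN X4 (Trg.right (Trg.right (Trg.left (Trg.right (Trg.left (Trg.right (chamber 1 1))))))) (Trg.left (Trg.right (Trg.left (Trg.right (chamberNR 9 20))))) :=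
  HoldsN.of_red (k := 16) (m := 16) (leaf ok4 (G2 _ rfl) (G641 _ rfl) (G627 _ rfl) (by decide +kernel))

end Vale.Agent.Lib.P154N.D5
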