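import Vale.Agent.Lib.P154N.D5.Data
import Vale.Agent.Lib.P154N.Red

/-!
# Leaves of the tree of triangles
-/

namespace Vale.Agent.Lib.P154N.D5

open Vale.Agent.Lib.P154K Vale.Agent.Lib.P154Neg

theorem l670 : HoldsN X4 (Trg.right (Trg.right (Trg.right (chamber 1 1)))) (Trg.right (Trg.left (chamberNR 9 20))) :=
  HoldsN.of_red (k := 16) (m := 16) (leaf ok4 (G56 _ rfl) (G543 _ rfl) (G99 _ rfl) (by decide +kernel))
theorem l671 : HoldsN X4 (Trg.left (Trg.right (Trg.right (chamber 1 1)))) (Trg.left (Trg.right (chamberNR 9 20))) :=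
  HoldsN.of_red (k := 16) (m := 16) (leaf ok4 (G26 _ rfl) (G456 _ rfl) (G376 _ rfl) (by decide +kernel))
theorem l672 : HoldsN X4 (Trg.right (Trg.right (Trg.right (chamber 1 1)))) (Trg.left (Trg.right (chamberNR 9 20))) :=
  HoldsN.of_red (k := 16) (m := 16) (leaf ok4 (G15 _ rfl) (G582 _ rfl) (G304 _ rfl) (by decide +kernel))
theorem l673 : HoldsN X4 (Trg.left (Trg.left (Trg.right (Trg.right (chamber 1 1))))) (Trg.left (Trg.left (Trg.right (Trg.right (chamberNR 9 20))))) :=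
  HoldsN.of_red (k := 16) (m := 16) (leaf ok4 (G94 _ rfl) (G479 _ rfl) (G409 _ rfl) (by decide +kernel))
theorem l674 : HoldsN X4 (Trg.left (Trg.left (Trg.right (Trg.right (chamber 1 1))))) (Trg.right (Trg.left (Trg.right (Trg.right (chamberNR 9 20))))) :=
  HoldsN.of_red (k := 16) (m := 16) (leaf ok4 (G166 _ rfl) (G443 _ rfl) (G403 _ rfl) (by decide +kernel))
theorem l675 : HoldsN X4 (Trg.right (Trg.left (Trg.right (Trg.right (chamber 1 1))))) (Trg.left (Trg.right (Trg.right (chamberNR 9 20)))) :=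
  HoldsN.of_red (k := 16) (m := 16) (leaf ok4 (G166 _ rfl) (G443 _ rfl) (G403 _ rfl) (by decide +kernel))
theorem l676 : HoldsN X4 (Trg.left (Trg.right (Trg.right (chamber 1 1)))) (Trg.right (Trg.right (Trg.right (chamberNR 9 20)))) :=
  HoldsN.of_red (k := 16) (m := 16) (leaf ok4 (G76 _ rfl) (G456 _ rfl) (G368 _ rfl) (by decide +kernel))
theorem l677 : HoldsN X4 (Trg.right (Trg.right (Trg.right (chamber 1 1)))) (Trg.left (Trg.right (Trg.right (chamberNR 9 20)))) :=
  HoldsN.of_red (k := 16) (m := 16) (leaf ok4 (G76 _ rfl) (G456 _ rfl) (G368 _ rfl) (by decide +kernel))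
theorem l678 : HoldsN X4 (Trg.right (Trg.right (Trg.right (chamber 1 1)))) (Trg.right (Trg.right (Trg.right (chamberNR 9 20)))) :=
  HoldsN.of_red (k := 16) (m := 16) (leaf ok4 (G54 _ rfl) (G557 _ rfl) (G300 _ rfl) (by decide +kernel))
theorem l679 : HoldsN X5 (Trg.left (Trg.left (Trg.left (Trg.left (chamber 1 1))))) (Trg.left (Trg.left (Trg.left (chamberN 9 20)))) :=
  HoldsN.of_red (k := 16) (m := 16) (leaf ok5 (G78 _ rfl) (G413 _ rfl) (G365 _ rfl) (by decide +kernel))

end Vale.Agent.Lib.P154N.D5
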