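import Vale.Agent.Lib.P154N.D5.Data
import Vale.Agent.Lib.P154N.Red

/-!
# Leaves of the tree of triangles
-/

namespace Vale.Agent.Lib.P154N.D5

open Vale.Agent.Lib.P154K Vale.Agent.Lib.P154Neg

theorem l680 : HoldsN X5 (Trg.right (Trg.left (Trg.left (Trg.left (chamber 1 1))))) (Trg.left (Trg.left (Trg.left (Trg.left (chamberN 9 20))))) :=
  HoldsN.of_red (k := 16) (m := 16) (leaf ok5 (G78 _ rfl) (G365 _ rfl) (G504 _ rfl) (by decide +kernel))
theorem l681 : HoldsN X5 (Trg.right (Trg.left (Trg.left (Trg.left (chamber 1 1))))) (Trg.right (Trg.left (Trg.left (Trg.left (chamberN 9 20))))) :=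
  HoldsN.of_red (k := 16) (m := 16) (leaf ok5 (G36 _ rfl) (G506 _ rfl) (G506 _ rfl) (by decide +kernel))
theorem l682 : HoldsN X5 (Trg.left (Trg.left (Trg.left (chamber 1 1)))) (Trg.right (Trg.left (Trg.left (chamberN 9 20)))) :=
  HoldsN.of_red (k := 16) (m := 16) (leaf ok5 (G116 _ rfl) (G366 _ rfl) (G411 _ rfl) (by decide +kernel))
theorem l683 : HoldsN X5 (Trg.left (Trg.left (Trg.left (Trg.left (chamber 1 1))))) (Trg.right (Trg.left (chamberN 9 20))) :=
  HoldsN.of_red (k := 16) (m := 16) (leaf ok5 (G78 _ rfl) (G373 _ rfl) (G373 _ rfl) (by decide +kernel))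
theorem l684 : HoldsN X5 (Trg.right (Trg.left (Trg.left (Trg.left (chamber 1 1))))) (Trg.left (Trg.right (Trg.left (chamberN 9 20)))) :=
  HoldsN.of_red (k := 16) (m := 16) (leaf ok5 (G55 _ rfl) (G297 _ rfl) (G541 _ rfl) (by decide +kernel))
theorem l685 : HoldsN X5 (Trg.right (Trg.left (Trg.left (Trg.left (chamber 1 1))))) (Trg.left (Trg.right (Trg.right (Trg.left (chamberN 9 20))))) :=
  HoldsN.of_red (k := 16) (m := 16) (leaf ok5 (G35 _ rfl) (G499 _ rfl) (G550 _ rfl) (by decide +kernel))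
theorem l686 : HoldsN X5 (Trg.right (Trg.left (Trg.left (Trg.left (chamber 1 1))))) (Trg.right (Trg.right (Trg.right (Trg.left (chamberN 9 20))))) :=
  HoldsN.of_red (k := 16) (m := 16) (leaf ok5 (G55 _ rfl) (G364 _ rfl) (G539 _ rfl) (by decide +kernel))
theorem l687 : HoldsN X5 (Trg.right (Trg.left (Trg.left (chamber 1 1)))) (Trg.left (Trg.left (Trg.left (chamberN 9 20)))) :=
  HoldsN.of_red (k := 16) (m := 16) (leaf ok5 (G116 _ rfl) (G411 _ rfl) (G366 _ rfl) (by decide +kernel))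
theorem l688 : HoldsN X5 (Trg.right (Trg.left (Trg.left (chamber 1 1)))) (Trg.right (Trg.left (Trg.left (chamberN 9 20)))) :=
  HoldsN.of_red (k := 16) (m := 16) (leaf ok5 (G223 _ rfl) (G404 _ rfl) (G404 _ rfl) (by decide +kernel))
theorem l689 : HoldsN X5 (Trg.right (Trg.left (Trg.left (chamber 1 1)))) (Trg.left (Trg.right (Trg.left (chamberN 9 20)))) :=
  HoldsN.of_red (k := 16) (m := 16) (leaf ok5 (G148 _ rfl) (G366 _ rfl) (G448 _ rfl) (by decide +kernel))

end Vale.Agent.Lib.P154N.D5
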