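import Vale.Agent.Lib.P154N.D5.Data
import Vale.Agent.Lib.P154N.Red

/-!
# Leaves of the tree of triangles
-/

namespace Vale.Agent.Lib.P154N.D5

open Vale.Agent.Lib.P154K Vale.Agent.Lib.P154Neg

theorem l690 : HoldsN X5 (Trg.right (Trg.left (Trg.left (chamber 1 1)))) (Trg.right (Trg.right (Trg.left (chamberN 9 20)))) :=
  HoldsN.of_red (k := 16) (m := 16) (leaf ok5 (G116 _ rfl) (G411 _ rfl) (G369 _ rfl) (by decide +kernel))
theorem l691 : HoldsN X5 (Trg.left (Trg.right (Trg.left (chamber 1 1)))) (Trg.left (Trg.left (Trg.left (chamberN 9 20)))) :=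
  HoldsN.of_red (k := 16) (m := 16) (leaf ok5 (G55 _ rfl) (G469 _ rfl) (G298 _ rfl) (by decide +kernel))
theorem l692 : HoldsN X5 (Trg.left (Trg.right (Trg.right (Trg.left (chamber 1 1))))) (Trg.left (Trg.left (Trg.left (chamberN 9 20)))) :=
  HoldsN.of_red (k := 16) (m := 16) (leaf ok5 (G37 _ rfl) (G377 _ rfl) (G499 _ rfl) (by decide +kernel))
theorem l693 : HoldsN X5 (Trg.right (Trg.right (Trg.right (Trg.left (chamber 1 1))))) (Trg.left (Trg.left (Trg.left (chamberN 9 20)))) :=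
  HoldsN.of_red (k := 16) (m := 16) (leaf ok5 (G55 _ rfl) (G457 _ rfl) (G365 _ rfl) (by decide +kernel))
theorem l694 : HoldsN X5 (Trg.left (Trg.left (Trg.left (Trg.right (Trg.left (chamber 1 1)))))) (Trg.right (Trg.left (Trg.left (chamberN 9 20)))) :=
  HoldsN.of_red (k := 16) (m := 16) (leaf ok5 (G148 _ rfl) (G444 _ rfl) (G390 _ rfl) (by decide +kernel))
theorem l695 : HoldsN X5 (Trg.right (Trg.left (Trg.left (Trg.right (Trg.left (chamber 1 1)))))) (Trg.right (Trg.left (Trg.left (chamberN 9 20)))) :=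
  HoldsN.of_red (k := 16) (m := 16) (leaf ok5 (G211 _ rfl) (G442 _ rfl) (G388 _ rfl) (by decide +kernel))
theorem l696 : HoldsN X5 (Trg.right (Trg.left (Trg.right (Trg.left (chamber 1 1))))) (Trg.left (Trg.left (Trg.right (Trg.left (Trg.left (chamberN 9 20)))))) :=
  HoldsN.of_red (k := 16) (m := 16) (leaf ok5 (G146 _ rfl) (G447 _ rfl) (G358 _ rfl) (by decide +kernel))
theorem l697 : HoldsN X5 (Trg.left (Trg.right (Trg.left (Trg.right (Trg.left (chamber 1 1)))))) (Trg.right (Trg.left (Trg.right (Trg.left (Trg.left (chamberN 9 20)))))) :=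
  HoldsN.of_red (k := 16) (m := 16) (leaf ok5 (G270 _ rfl) (G432 _ rfl) (G399 _ rfl) (by decide +kernel))
theorem l698 : HoldsN X5 (Trg.right (Trg.right (Trg.left (Trg.right (Trg.left (chamber 1 1)))))) (Trg.right (Trg.left (Trg.right (Trg.left (Trg.left (chamberN 9 20)))))) :=
  HoldsN.of_red (k := 16) (m := 16) (leaf ok5 (G263 _ rfl) (G432 _ rfl) (G401 _ rfl) (by decide +kernel))
theorem l699 : HoldsN X5 (Trg.right (Trg.left (Trg.right (Trg.left (chamber 1 1))))) (Trg.right (Trg.right (Trg.left (Trg.left (chamberN 9 20))))) :=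
  HoldsN.of_red (k := 16) (m := 16) (leaf ok5 (G146 _ rfl) (G447 _ rfl) (G365 _ rfl) (by decide +kernel))

end Vale.Agent.Lib.P154N.D5
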