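import Vale.Agent.Lib.P154N.D5.Data
import Vale.Agent.Lib.P154N.Red

/-!
# Leaves of the tree of triangles
-/

namespace Vale.Agent.Lib.P154N.D5

open Vale.Agent.Lib.P154K Vale.Agent.Lib.P154Neg

theorem l700 : HoldsN X5 (Trg.right (Trg.right (Trg.left (chamber 1 1)))) (Trg.right (Trg.left (Trg.left (chamberN 9 20)))) :=
  HoldsN.of_red (k := 16) (m := 16) (leaf ok5 (G116 _ rfl) (G369 _ rfl) (G411 _ rfl) (by decide +kernel))
theorem l701 : HoldsN X5 (Trg.left (Trg.right (Trg.left (chamber 1 1)))) (Trg.right (Trg.left (chamberN 9 20))) :=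
  HoldsN.of_red (k := 16) (m := 16) (leaf ok5 (G55 _ rfl) (G469 _ rfl) (G303 _ rfl) (by decide +kernel))
theorem l702 : HoldsN X5 (Trg.left (Trg.right (Trg.right (Trg.left (chamber 1 1))))) (Trg.right (Trg.left (chamberN 9 20))) :=
  HoldsN.of_red (k := 16) (m := 16) (leaf ok5 (G37 _ rfl) (G305 _ rfl) (G541 _ rfl) (by decide +kernel))
theorem l703 : HoldsN X5 (Trg.right (Trg.right (Trg.right (Trg.left (chamber 1 1))))) (Trg.right (Trg.left (chamberN 9 20))) :=
  HoldsN.of_red (k := 16) (m := 16) (leaf ok5 (G55 _ rfl) (G457 _ rfl) (G374 _ rfl) (by decide +kernel))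
theorem l704 : HoldsN X5 (Trg.left (Trg.left (Trg.left (Trg.left (chamber 1 1))))) (Trg.left (Trg.right (chamberN 9 20))) :=
  HoldsN.of_red (k := 16) (m := 16) (leaf ok5 (G48 _ rfl) (G565 _ rfl) (G206 _ rfl) (by decide +kernel))
theorem l705 : HoldsN X5 (Trg.right (Trg.left (Trg.left (Trg.left (chamber 1 1))))) (Trg.left (Trg.left (Trg.right (chamberN 9 20)))) :=
  HoldsN.of_red (k := 16) (m := 16) (leaf ok5 (G22 _ rfl) (G563 _ rfl) (G454 _ rfl) (by decide +kernel))
theorem l706 : HoldsN X5 (Trg.right (Trg.left (Trg.left (Trg.left (chamber 1 1))))) (Trg.left (Trg.right (Trg.left (Trg.right (chamberN 9 20))))) :=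
  HoldsN.of_red (k := 16) (m := 16) (leaf ok5 (G14 _ rfl) (G597 _ rfl) (G450 _ rfl) (by decide +kernel))
theorem l707 : HoldsN X5 (Trg.right (Trg.left (Trg.left (Trg.left (chamber 1 1))))) (Trg.right (Trg.right (Trg.left (Trg.right (chamberN 9 20))))) :=
  HoldsN.of_red (k := 16) (m := 16) (leaf ok5 (G22 _ rfl) (G576 _ rfl) (G450 _ rfl) (by decide +kernel))
theorem l708 : HoldsN X5 (Trg.right (Trg.left (Trg.left (chamber 1 1)))) (Trg.left (Trg.left (Trg.right (chamberN 9 20)))) :=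
  HoldsN.of_red (k := 16) (m := 16) (leaf ok5 (G84 _ rfl) (G453 _ rfl) (G282 _ rfl) (by decide +kernel))
theorem l709 : HoldsN X5 (Trg.right (Trg.left (Trg.left (chamber 1 1)))) (Trg.right (Trg.left (Trg.right (chamberN 9 20)))) :=
  HoldsN.of_red (k := 16) (m := 16) (leaf ok5 (G76 _ rfl) (G456 _ rfl) (G204 _ rfl) (by decide +kernel))

end Vale.Agent.Lib.P154N.D5
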