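import Vale.Agent.Lib.P154N.D5.Data
import Vale.Agent.Lib.P154N.Red

/-!
# Leaves of the tree of triangles
-/

namespace Vale.Agent.Lib.P154N.D5

open Vale.Agent.Lib.P154K Vale.Agent.Lib.P154Neg

theorem l710 : HoldsN X5 (Trg.left (Trg.left (Trg.left (Trg.right (Trg.left (chamber 1 1)))))) (Trg.left (Trg.left (Trg.left (Trg.left (Trg.right (chamberN 9 20)))))) :=
  HoldsN.of_red (k := 16) (m := 16) (leaf ok5 (G43 _ rfl) (G611 _ rfl) (G212 _ rfl) (by decide +kernel))
theorem l711 : HoldsN X5 (Trg.left (Trg.left (Trg.left (Trg.right (Trg.left (chamber 1 1)))))) (Trg.right (Trg.left (Trg.left (Trg.left (Trg.right (chamberN 9 20)))))) :=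
  HoldsN.of_red (k := 16) (m := 16) (leaf ok5 (G72 _ rfl) (G599 _ rfl) (G224 _ rfl) (by decide +kernel))
theorem l712 : HoldsN X5 (Trg.left (Trg.left (Trg.left (Trg.right (Trg.left (chamber 1 1)))))) (Trg.right (Trg.left (Trg.left (Trg.right (chamberN 9 20))))) :=
  HoldsN.of_red (k := 16) (m := 16) (leaf ok5 (G43 _ rfl) (G611 _ rfl) (G214 _ rfl) (by decide +kernel))
theorem l713 : HoldsN X5 (Trg.right (Trg.left (Trg.left (Trg.right (Trg.left (chamber 1 1)))))) (Trg.left (Trg.left (Trg.right (chamberN 9 20)))) :=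
  HoldsN.of_red (k := 16) (m := 16) (leaf ok5 (G88 _ rfl) (G573 _ rfl) (G212 _ rfl) (by decide +kernel))
theorem l714 : HoldsN X5 (Trg.right (Trg.left (Trg.right (Trg.left (chamber 1 1))))) (Trg.left (Trg.left (Trg.left (Trg.left (Trg.right (chamberN 9 20)))))) :=
  HoldsN.of_red (k := 16) (m := 16) (leaf ok5 (G43 _ rfl) (G614 _ rfl) (G168 _ rfl) (by decide +kernel))
theorem l715 : HoldsN X5 (Trg.left (Trg.left (Trg.right (Trg.left (Trg.right (Trg.left (chamber 1 1))))))) (Trg.right (Trg.left (Trg.left (Trg.left (Trg.right (chamberN 9 20)))))) :=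
  HoldsN.of_red (k := 16) (m := 16) (leaf ok5 (G91 _ rfl) (G600 _ rfl) (G188 _ rfl) (by decide +kernel))
theorem l716 : HoldsN X5 (Trg.right (Trg.left (Trg.right (Trg.left (Trg.right (Trg.left (chamber 1 1))))))) (Trg.left (Trg.right (Trg.left (Trg.left (Trg.left (Trg.right (chamberN 9 20))))))) :=
  HoldsN.of_red (k := 16) (m := 16) (leaf ok5 (G90 _ rfl) (G618 _ rfl) (G173 _ rfl) (by decide +kernel))
theorem l717 : HoldsN X5 (Trg.right (Trg.left (Trg.right (Trg.left (Trg.right (Trg.left (chamber 1 1))))))) (Trg.right (Trg.right (Trg.left (Trg.left (Trg.left (Trg.right (chamberN 9 20))))))) :=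
  HoldsN.of_red (k := 16) (m := 16) (leaf ok5 (G89 _ rfl) (G622 _ rfl) (G175 _ rfl) (by decide +kernel))
theorem l718 : HoldsN X5 (Trg.right (Trg.right (Trg.left (Trg.right (Trg.left (chamber 1 1)))))) (Trg.right (Trg.left (Trg.left (Trg.left (Trg.right (chamberN 9 20)))))) :=
  HoldsN.of_red (k := 16) (m := 16) (leaf ok5 (G72 _ rfl) (G600 _ rfl) (G224 _ rfl) (by decide +kernel))
theorem l719 : HoldsN X5 (Trg.right (Trg.left (Trg.right (Trg.left (chamber 1 1))))) (Trg.right (Trg.left (Trg.left (Trg.right (chamberN 9 20))))) :=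
  HoldsN.of_red (k := 16) (m := 16) (leaf ok5 (G43 _ rfl) (G614 _ rfl) (G171 _ rfl) (by decide +kernel))

end Vale.Agent.Lib.P154N.D5
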