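import Vale.Agent.Lib.P154N.D5.Data
import Vale.Agent.Lib.P154N.Red

/-!
# Leaves of the tree of triangles
-/

namespace Vale.Agent.Lib.P154N.D5

open Vale.Agent.Lib.P154K Vale.Agent.Lib.P154Neg

theorem l720 : HoldsN X5 (Trg.left (Trg.right (Trg.left (chamber 1 1)))) (Trg.left (Trg.right (Trg.left (Trg.right (chamberN 9 20))))) :=
  HoldsN.of_red (k := 16) (m := 16) (leaf ok5 (G37 _ rfl) (G610 _ rfl) (G98 _ rfl) (by decide +kernel))
theorem l721 : HoldsN X5 (Trg.left (Trg.left (Trg.left (Trg.right (Trg.left (chamber 1 1)))))) (Trg.left (Trg.right (Trg.right (Trg.left (Trg.right (chamberN 9 20)))))) :=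
  HoldsN.of_red (k := 16) (m := 16) (leaf ok5 (G64 _ rfl) (G605 _ rfl) (G177 _ rfl) (by decide +kernel))
theorem l722 : HoldsN X5 (Trg.left (Trg.left (Trg.left (Trg.right (Trg.left (chamber 1 1)))))) (Trg.right (Trg.right (Trg.right (Trg.left (Trg.right (chamberN 9 20)))))) :=
  HoldsN.of_red (k := 16) (m := 16) (leaf ok5 (G43 _ rfl) (G624 _ rfl) (G180 _ rfl) (by decide +kernel))
theorem l723 : HoldsN X5 (Trg.right (Trg.left (Trg.left (Trg.right (Trg.left (chamber 1 1)))))) (Trg.right (Trg.right (Trg.left (Trg.right (chamberN 9 20))))) :=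
  HoldsN.of_red (k := 16) (m := 16) (leaf ok5 (G88 _ rfl) (G573 _ rfl) (G175 _ rfl) (by decide +kernel))
theorem l724 : HoldsN X5 (Trg.left (Trg.right (Trg.left (Trg.right (Trg.left (chamber 1 1)))))) (Trg.left (Trg.left (Trg.right (Trg.right (Trg.left (Trg.right (chamberN 9 20))))))) :=
  HoldsN.of_red (k := 16) (m := 16) (leaf ok5 (G85 _ rfl) (G623 _ rfl) (G132 _ rfl) (by decide +kernel))
theorem l725 : HoldsN X5 (Trg.left (Trg.left (Trg.right (Trg.left (Trg.right (Trg.left (chamber 1 1))))))) (Trg.right (Trg.left (Trg.right (Trg.right (Trg.left (Trg.right (chamberN 9 20))))))) :=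
  HoldsN.of_red (k := 16) (m := 16) (leaf ok5 (G91 _ rfl) (G600 _ rfl) (G184 _ rfl) (by decide +kernel))
theorem l726 : HoldsN X5 (Trg.right (Trg.left (Trg.right (Trg.left (Trg.right (Trg.left (chamber 1 1))))))) (Trg.left (Trg.right (Trg.left (Trg.right (Trg.right (Trg.left (Trg.right (chamberN 9 20)))))))) :=
  HoldsN.of_red (k := 16) (m := 16) (leaf ok5 (G118 _ rfl) (G617 _ rfl) (G158 _ rfl) (by decide +kernel))
theorem l727 : HoldsN X5 (Trg.right (Trg.left (Trg.right (Trg.left (Trg.right (Trg.left (chamber 1 1))))))) (Trg.right (Trg.right (Trg.left (Trg.right (Trg.right (Trg.left (Trg.right (chamberN 9 20)))))))) :=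
  HoldsN.of_red (k := 16) (m := 16) (leaf ok5 (G89 _ rfl) (G633 _ rfl) (G158 _ rfl) (by decide +kernel))
theorem l728 : HoldsN X5 (Trg.left (Trg.right (Trg.right (Trg.left (Trg.right (Trg.left (chamber 1 1))))))) (Trg.left (Trg.left (Trg.right (Trg.right (Trg.left (Trg.right (chamberN 9 20))))))) :=
  HoldsN.of_red (k := 16) (m := 16) (leaf ok5 (G60 _ rfl) (G638 _ rfl) (G210 _ rfl) (by decide +kernel))
theorem l729 : HoldsN X5 (Trg.left (Trg.right (Trg.right (Trg.left (Trg.right (Trg.left (chamber 1 1))))))) (Trg.right (Trg.left (Trg.right (Trg.right (Trg.left (Trg.right (chamberN 9 20))))))) :=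
  HoldsN.of_red (k := 16) (m := 16) (leaf ok5 (G71 _ rfl) (G618 _ rfl) (G232 _ rfl) (by decide +kernel))

end Vale.Agent.Lib.P154N.D5
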