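import Vale.Agent.Lib.P154N.D5.Data
import Vale.Agent.Lib.P154N.Red

/-!
# Leaves of the tree of triangles
-/

namespace Vale.Agent.Lib.P154N.D5

open Vale.Agent.Lib.P154K Vale.Agent.Lib.P154Neg

theorem l730 : HoldsN X5 (Trg.right (Trg.right (Trg.right (Trg.left (Trg.right (Trg.left (chamber 1 1))))))) (Trg.left (Trg.right (Trg.right (Trg.left (Trg.right (chamberN 9 20)))))) :=
  HoldsN.of_red (k := 16) (m := 16) (leaf ok5 (G87 _ rfl) (G605 _ rfl) (G173 _ rfl) (by decide +kernel))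
theorem l731 : HoldsN X5 (Trg.right (Trg.left (Trg.right (Trg.left (chamber 1 1))))) (Trg.right (Trg.right (Trg.right (Trg.left (Trg.right (chamberN 9 20)))))) :=
  HoldsN.of_red (k := 16) (m := 16) (leaf ok5 (G43 _ rfl) (G630 _ rfl) (G138 _ rfl) (by decide +kernel))
theorem l732 : HoldsN X5 (Trg.left (Trg.right (Trg.right (Trg.left (chamber 1 1))))) (Trg.left (Trg.left (Trg.left (Trg.left (Trg.right (chamberN 9 20)))))) :=
  HoldsN.of_red (k := 16) (m := 16) (leaf ok5 (G20 _ rfl) (G606 _ rfl) (G412 _ rfl) (by decide +kernel))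
theorem l733 : HoldsN X5 (Trg.left (Trg.right (Trg.right (Trg.left (chamber 1 1))))) (Trg.right (Trg.left (Trg.left (Trg.left (Trg.right (chamberN 9 20)))))) :=
  HoldsN.of_red (k := 16) (m := 16) (leaf ok5 (G40 _ rfl) (G599 _ rfl) (G370 _ rfl) (by decide +kernel))
theorem l734 : HoldsN X5 (Trg.left (Trg.right (Trg.right (Trg.left (chamber 1 1))))) (Trg.right (Trg.left (Trg.left (Trg.right (chamberN 9 20))))) :=
  HoldsN.of_red (k := 16) (m := 16) (leaf ok5 (G20 _ rfl) (G606 _ rfl) (G454 _ rfl) (by decide +kernel))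
theorem l735 : HoldsN X5 (Trg.left (Trg.right (Trg.right (Trg.left (chamber 1 1))))) (Trg.left (Trg.right (Trg.left (Trg.right (chamberN 9 20))))) :=
  HoldsN.of_red (k := 16) (m := 16) (leaf ok5 (G13 _ rfl) (G641 _ rfl) (G302 _ rfl) (by decide +kernel))
theorem l736 : HoldsN X5 (Trg.left (Trg.left (Trg.right (Trg.right (Trg.left (chamber 1 1)))))) (Trg.left (Trg.right (Trg.right (Trg.left (Trg.right (chamberN 9 20)))))) :=
  HoldsN.of_red (k := 16) (m := 16) (leaf ok5 (G42 _ rfl) (G605 _ rfl) (G328 _ rfl) (by decide +kernel))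
theorem l737 : HoldsN X5 (Trg.right (Trg.left (Trg.right (Trg.right (Trg.left (chamber 1 1)))))) (Trg.left (Trg.right (Trg.right (Trg.left (Trg.right (chamberN 9 20)))))) :=
  HoldsN.of_red (k := 16) (m := 16) (leaf ok5 (G33 _ rfl) (G605 _ rfl) (G441 _ rfl) (by decide +kernel))
theorem l738 : HoldsN X5 (Trg.left (Trg.right (Trg.right (Trg.left (chamber 1 1))))) (Trg.right (Trg.right (Trg.right (Trg.left (Trg.right (chamberN 9 20)))))) :=
  HoldsN.of_red (k := 16) (m := 16) (leaf ok5 (G19 _ rfl) (G624 _ rfl) (G334 _ rfl) (by decide +kernel))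
theorem l739 : HoldsN X5 (Trg.right (Trg.right (Trg.right (Trg.left (chamber 1 1))))) (Trg.left (Trg.left (Trg.right (chamberN 9 20)))) :=
  HoldsN.of_red (k := 16) (m := 16) (leaf ok5 (G44 _ rfl) (G577 _ rfl) (G280 _ rfl) (by decide +kernel))

end Vale.Agent.Lib.P154N.D5
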