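import Vale.Agent.Lib.P154N.D5.Data
import Vale.Agent.Lib.P154N.Red

/-!
# Leaves of the tree of triangles
-/

namespace Vale.Agent.Lib.P154N.D5

open Vale.Agent.Lib.P154K Vale.Agent.Lib.P154Neg

theorem l750 : HoldsN X5 (Trg.left (Trg.left (Trg.left (Trg.right (Trg.left (chamber 1 1)))))) (Trg.left (Trg.left (Trg.right (Trg.right (chamberN 9 20))))) :=
  HoldsN.of_red (k := 16) (m := 16) (leaf ok5 (G112 _ rfl) (G548 _ rfl) (G251 _ rfl) (by decide +kernel))
theorem l751 : HoldsN X5 (Trg.right (Trg.left (Trg.left (Trg.right (Trg.left (chamber 1 1)))))) (Trg.left (Trg.left (Trg.right (Trg.right (chamberN 9 20))))) :=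
  HoldsN.of_red (k := 16) (m := 16) (leaf ok5 (G176 _ rfl) (G515 _ rfl) (G249 _ rfl) (by decide +kernel))
theorem l752 : HoldsN X5 (Trg.right (Trg.left (Trg.right (Trg.left (chamber 1 1))))) (Trg.left (Trg.left (Trg.right (Trg.right (chamberN 9 20))))) :=
  HoldsN.of_red (k := 16) (m := 16) (leaf ok5 (G112 _ rfl) (G548 _ rfl) (G197 _ rfl) (by decide +kernel))
theorem l753 : HoldsN X5 (Trg.left (Trg.left (Trg.left (Trg.right (Trg.left (chamber 1 1)))))) (Trg.right (Trg.left (Trg.right (Trg.right (chamberN 9 20))))) :=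
  HoldsN.of_red (k := 16) (m := 16) (leaf ok5 (G148 _ rfl) (G444 _ rfl) (G326 _ rfl) (by decide +kernel))
theorem l754 : HoldsN X5 (Trg.right (Trg.left (Trg.left (Trg.right (Trg.left (chamber 1 1)))))) (Trg.right (Trg.left (Trg.right (Trg.right (chamberN 9 20))))) :=
  HoldsN.of_red (k := 16) (m := 16) (leaf ok5 (G211 _ rfl) (G442 _ rfl) (G322 _ rfl) (by decide +kernel))
theorem l755 : HoldsN X5 (Trg.left (Trg.right (Trg.left (Trg.right (Trg.left (chamber 1 1)))))) (Trg.left (Trg.left (Trg.right (Trg.left (Trg.right (Trg.right (chamberN 9 20))))))) :=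
  HoldsN.of_red (k := 16) (m := 16) (leaf ok5 (G260 _ rfl) (G502 _ rfl) (G287 _ rfl) (by decide +kernel))
theorem l756 : HoldsN X5 (Trg.left (Trg.right (Trg.left (Trg.right (Trg.left (chamber 1 1)))))) (Trg.right (Trg.left (Trg.right (Trg.left (Trg.right (Trg.right (chamberN 9 20))))))) :=
  HoldsN.of_red (k := 16) (m := 16) (leaf ok5 (G270 _ rfl) (G432 _ rfl) (G349 _ rfl) (by decide +kernel))
theorem l757 : HoldsN X5 (Trg.right (Trg.right (Trg.left (Trg.right (Trg.left (chamber 1 1)))))) (Trg.left (Trg.right (Trg.left (Trg.right (Trg.right (chamberN 9 20)))))) :=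
  HoldsN.of_red (k := 16) (m := 16) (leaf ok5 (G223 _ rfl) (G443 _ rfl) (G323 _ rfl) (by decide +kernel))
theorem l758 : HoldsN X5 (Trg.right (Trg.left (Trg.right (Trg.left (chamber 1 1))))) (Trg.right (Trg.right (Trg.left (Trg.right (Trg.right (chamberN 9 20)))))) :=
  HoldsN.of_red (k := 16) (m := 16) (leaf ok5 (G146 _ rfl) (G508 _ rfl) (G291 _ rfl) (by decide +kernel))
theorem l759 : HoldsN X5 (Trg.left (Trg.right (Trg.right (Trg.left (chamber 1 1))))) (Trg.left (Trg.left (Trg.right (Trg.right (chamberN 9 20))))) :=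
  HoldsN.of_red (k := 16) (m := 16) (leaf ok5 (G72 _ rfl) (G548 _ rfl) (G365 _ rfl) (by decide +kernel))

end Vale.Agent.Lib.P154N.D5
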