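import Vale.Agent.Lib.P154N.D5.Data
import Vale.Agent.Lib.P154N.Red

/-!
# Leaves of the tree of triangles
-/

namespace Vale.Agent.Lib.P154N.D5

open Vale.Agent.Lib.P154K Vale.Agent.Lib.P154Neg

theorem l760 : HoldsN X5 (Trg.left (Trg.right (Trg.right (Trg.left (chamber 1 1))))) (Trg.right (Trg.left (Trg.right (Trg.right (chamberN 9 20))))) :=
  HoldsN.of_red (k := 16) (m := 16) (leaf ok5 (G116 _ rfl) (G444 _ rfl) (G408 _ rfl) (by decide +kernel))
theorem l761 : HoldsN X5 (Trg.right (Trg.right (Trg.right (Trg.left (chamber 1 1))))) (Trg.left (Trg.left (Trg.right (Trg.right (chamberN 9 20))))) :=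
  HoldsN.of_red (k := 16) (m := 16) (leaf ok5 (G113 _ rfl) (G516 _ rfl) (G293 _ rfl) (by decide +kernel))
theorem l762 : HoldsN X5 (Trg.right (Trg.right (Trg.right (Trg.left (chamber 1 1))))) (Trg.right (Trg.left (Trg.right (Trg.right (chamberN 9 20))))) :=
  HoldsN.of_red (k := 16) (m := 16) (leaf ok5 (G148 _ rfl) (G444 _ rfl) (G357 _ rfl) (by decide +kernel))
theorem l763 : HoldsN X5 (Trg.left (Trg.left (Trg.left (Trg.right (Trg.left (chamber 1 1)))))) (Trg.left (Trg.right (Trg.right (Trg.right (chamberN 9 20))))) :=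
  HoldsN.of_red (k := 16) (m := 16) (leaf ok5 (G53 _ rfl) (G561 _ rfl) (G279 _ rfl) (by decide +kernel))
theorem l764 : HoldsN X5 (Trg.left (Trg.left (Trg.left (Trg.right (Trg.left (chamber 1 1)))))) (Trg.right (Trg.right (Trg.right (Trg.right (chamberN 9 20))))) :=
  HoldsN.of_red (k := 16) (m := 16) (leaf ok5 (G77 _ rfl) (G560 _ rfl) (G251 _ rfl) (by decide +kernel))
theorem l765 : HoldsN X5 (Trg.right (Trg.left (Trg.left (Trg.right (Trg.left (chamber 1 1)))))) (Trg.right (Trg.right (Trg.right (chamberN 9 20)))) :=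
  HoldsN.of_red (k := 16) (m := 16) (leaf ok5 (G105 _ rfl) (G536 _ rfl) (G250 _ rfl) (by decide +kernel))
theorem l766 : HoldsN X5 (Trg.right (Trg.left (Trg.right (Trg.left (chamber 1 1))))) (Trg.left (Trg.right (Trg.right (Trg.right (chamberN 9 20))))) :=
  HoldsN.of_red (k := 16) (m := 16) (leaf ok5 (G53 _ rfl) (G568 _ rfl) (G254 _ rfl) (by decide +kernel))
theorem l767 : HoldsN X5 (Trg.right (Trg.left (Trg.right (Trg.left (chamber 1 1))))) (Trg.right (Trg.right (Trg.right (Trg.right (chamberN 9 20))))) :=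
  HoldsN.of_red (k := 16) (m := 16) (leaf ok5 (G77 _ rfl) (G567 _ rfl) (G197 _ rfl) (by decide +kernel))
theorem l768 : HoldsN X5 (Trg.left (Trg.right (Trg.right (Trg.left (chamber 1 1))))) (Trg.left (Trg.right (Trg.right (Trg.right (chamberN 9 20))))) :=
  HoldsN.of_red (k := 16) (m := 16) (leaf ok5 (G35 _ rfl) (G550 _ rfl) (G474 _ rfl) (by decide +kernel))
theorem l769 : HoldsN X5 (Trg.left (Trg.right (Trg.right (Trg.left (chamber 1 1))))) (Trg.right (Trg.right (Trg.right (Trg.right (chamberN 9 20))))) :=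
  HoldsN.of_red (k := 16) (m := 16) (leaf ok5 (G45 _ rfl) (G549 _ rfl) (G370 _ rfl) (by decide +kernel))

end Vale.Agent.Lib.P154N.D5
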