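import Vale.Agent.Lib.P154N.D5.Data
import Vale.Agent.Lib.P154N.Red

/-!
# Leaves of the tree of triangles
-/

namespace Vale.Agent.Lib.P154N.D5

open Vale.Agent.Lib.P154K Vale.Agent.Lib.P154Neg

theorem l770 : HoldsN X5 (Trg.left (Trg.right (Trg.right (Trg.right (Trg.left (chamber 1 1)))))) (Trg.right (Trg.right (Trg.right (chamberN 9 20)))) :=
  HoldsN.of_red (k := 16) (m := 16) (leaf ok5 (G78 _ rfl) (G534 _ rfl) (G297 _ rfl) (by decide +kernel))
theorem l771 : HoldsN X5 (Trg.right (Trg.right (Trg.right (Trg.right (Trg.left (chamber 1 1)))))) (Trg.right (Trg.right (Trg.right (chamberN 9 20)))) :=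
  HoldsN.of_red (k := 16) (m := 16) (leaf ok5 (G52 _ rfl) (G550 _ rfl) (G331 _ rfl) (by decide +kernel))
theorem l772 : HoldsN X5 (Trg.left (Trg.left (Trg.right (chamber 1 1)))) (Trg.left (Trg.left (Trg.left (Trg.left (chamberN 9 20))))) :=
  HoldsN.of_red (k := 16) (m := 16) (leaf ok5 (G65 _ rfl) (G281 _ rfl) (G562 _ rfl) (by decide +kernel))
theorem l773 : HoldsN X5 (Trg.left (Trg.left (Trg.left (Trg.right (chamber 1 1))))) (Trg.right (Trg.left (Trg.left (Trg.left (chamberN 9 20))))) :=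
  HoldsN.of_red (k := 16) (m := 16) (leaf ok5 (G22 _ rfl) (G450 _ rfl) (G570 _ rfl) (by decide +kernel))
theorem l774 : HoldsN X5 (Trg.right (Trg.left (Trg.left (Trg.right (chamber 1 1))))) (Trg.right (Trg.left (Trg.left (Trg.left (chamberN 9 20))))) :=
  HoldsN.of_red (k := 16) (m := 16) (leaf ok5 (G21 _ rfl) (G506 _ rfl) (G563 _ rfl) (by decide +kernel))
theorem l775 : HoldsN X5 (Trg.left (Trg.right (Trg.left (Trg.right (chamber 1 1))))) (Trg.left (Trg.left (Trg.left (Trg.left (chamberN 9 20))))) :=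
  HoldsN.of_red (k := 16) (m := 16) (leaf ok5 (G46 _ rfl) (G203 _ rfl) (G596 _ rfl) (by decide +kernel))
theorem l776 : HoldsN X5 (Trg.left (Trg.right (Trg.left (Trg.right (chamber 1 1))))) (Trg.right (Trg.left (Trg.left (Trg.left (chamberN 9 20))))) :=
  HoldsN.of_red (k := 16) (m := 16) (leaf ok5 (G14 _ rfl) (G450 _ rfl) (G597 _ rfl) (by decide +kernel))
theorem l777 : HoldsN X5 (Trg.right (Trg.right (Trg.left (Trg.right (chamber 1 1))))) (Trg.left (Trg.left (Trg.left (Trg.left (chamberN 9 20))))) :=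
  HoldsN.of_red (k := 16) (m := 16) (leaf ok5 (G65 _ rfl) (G255 _ rfl) (G572 _ rfl) (by decide +kernel))
theorem l778 : HoldsN X5 (Trg.right (Trg.right (Trg.left (Trg.right (chamber 1 1))))) (Trg.right (Trg.left (Trg.left (Trg.left (chamberN 9 20))))) :=
  HoldsN.of_red (k := 16) (m := 16) (leaf ok5 (G22 _ rfl) (G450 _ rfl) (G576 _ rfl) (by decide +kernel))
theorem l779 : HoldsN X5 (Trg.left (Trg.left (Trg.right (chamber 1 1)))) (Trg.right (Trg.left (Trg.left (chamberN 9 20)))) :=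
  HoldsN.of_red (k := 16) (m := 16) (leaf ok5 (G84 _ rfl) (G282 _ rfl) (G453 _ rfl) (by decide +kernel))

end Vale.Agent.Lib.P154N.D5
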