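import Vale.Agent.Lib.P154N.D5.Data
import Vale.Agent.Lib.P154N.Red

/-!
# Leaves of the tree of triangles
-/

namespace Vale.Agent.Lib.P154N.D5

open Vale.Agent.Lib.P154K Vale.Agent.Lib.P154Neg

theorem l780 : HoldsN X5 (Trg.left (Trg.right (Trg.left (Trg.right (chamber 1 1))))) (Trg.right (Trg.left (Trg.left (chamberN 9 20)))) :=
  HoldsN.of_red (k := 16) (m := 16) (leaf ok5 (G76 _ rfl) (G204 _ rfl) (G456 _ rfl) (by decide +kernel))
theorem l781 : HoldsN X5 (Trg.right (Trg.right (Trg.left (Trg.right (chamber 1 1))))) (Trg.right (Trg.left (Trg.left (chamberN 9 20)))) :=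
  HoldsN.of_red (k := 16) (m := 16) (leaf ok5 (G84 _ rfl) (G256 _ rfl) (G453 _ rfl) (by decide +kernel))
theorem l782 : HoldsN X5 (Trg.left (Trg.left (Trg.right (chamber 1 1)))) (Trg.left (Trg.right (Trg.left (chamberN 9 20)))) :=
  HoldsN.of_red (k := 16) (m := 16) (leaf ok5 (G44 _ rfl) (G171 _ rfl) (G578 _ rfl) (by decide +kernel))
theorem l783 : HoldsN X5 (Trg.left (Trg.left (Trg.right (chamber 1 1)))) (Trg.left (Trg.right (Trg.right (Trg.left (chamberN 9 20))))) :=
  HoldsN.of_red (k := 16) (m := 16) (leaf ok5 (G21 _ rfl) (G374 _ rfl) (G606 _ rfl) (by decide +kernel))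
theorem l784 : HoldsN X5 (Trg.left (Trg.left (Trg.right (chamber 1 1)))) (Trg.right (Trg.right (Trg.right (Trg.left (chamberN 9 20))))) :=
  HoldsN.of_red (k := 16) (m := 16) (leaf ok5 (G44 _ rfl) (G280 _ rfl) (G577 _ rfl) (by decide +kernel))
theorem l785 : HoldsN X5 (Trg.left (Trg.right (Trg.left (Trg.right (chamber 1 1))))) (Trg.left (Trg.right (Trg.left (chamberN 9 20)))) :=
  HoldsN.of_red (k := 16) (m := 16) (leaf ok5 (G37 _ rfl) (G98 _ rfl) (G610 _ rfl) (by decide +kernel))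
theorem l786 : HoldsN X5 (Trg.left (Trg.right (Trg.left (Trg.right (chamber 1 1))))) (Trg.left (Trg.right (Trg.right (Trg.left (chamberN 9 20))))) :=
  HoldsN.of_red (k := 16) (m := 16) (leaf ok5 (G13 _ rfl) (G302 _ rfl) (G641 _ rfl) (by decide +kernel))
theorem l787 : HoldsN X5 (Trg.left (Trg.right (Trg.left (Trg.right (chamber 1 1))))) (Trg.right (Trg.right (Trg.right (Trg.left (chamberN 9 20))))) :=
  HoldsN.of_red (k := 16) (m := 16) (leaf ok5 (G37 _ rfl) (G198 _ rfl) (G610 _ rfl) (by decide +kernel))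
theorem l788 : HoldsN X5 (Trg.right (Trg.right (Trg.left (Trg.right (chamber 1 1))))) (Trg.left (Trg.right (Trg.left (chamberN 9 20)))) :=
  HoldsN.of_red (k := 16) (m := 16) (leaf ok5 (G44 _ rfl) (G138 _ rfl) (G578 _ rfl) (by decide +kernel))
theorem l789 : HoldsN X5 (Trg.right (Trg.right (Trg.left (Trg.right (chamber 1 1))))) (Trg.left (Trg.right (Trg.right (Trg.left (chamberN 9 20))))) :=
  HoldsN.of_red (k := 16) (m := 16) (leaf ok5 (G21 _ rfl) (G334 _ rfl) (G606 _ rfl) (by decide +kernel))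

end Vale.Agent.Lib.P154N.D5
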