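import Vale.Agent.Lib.P154N.D5.Data
import Vale.Agent.Lib.P154N.Red

/-!
# Leaves of the tree of triangles
-/

namespace Vale.Agent.Lib.P154N.D5

open Vale.Agent.Lib.P154K Vale.Agent.Lib.P154Neg

theorem l790 : HoldsN X5 (Trg.right (Trg.right (Trg.left (Trg.right (chamber 1 1))))) (Trg.right (Trg.right (Trg.right (Trg.left (chamberN 9 20))))) :=
  HoldsN.of_red (k := 16) (m := 16) (leaf ok5 (G44 _ rfl) (G252 _ rfl) (G577 _ rfl) (by decide +kernel))
theorem l791 : HoldsN X5 (Trg.left (Trg.left (Trg.left (Trg.right (chamber 1 1))))) (Trg.left (Trg.left (Trg.right (chamberN 9 20)))) :=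
  HoldsN.of_red (k := 16) (m := 16) (leaf ok5 (G9 _ rfl) (G518 _ rfl) (G554 _ rfl) (by decide +kernel))
theorem l792 : HoldsN X5 (Trg.right (Trg.left (Trg.left (Trg.right (chamber 1 1))))) (Trg.left (Trg.left (Trg.left (Trg.left (Trg.right (chamberN 9 20)))))) :=
  HoldsN.of_red (k := 16) (m := 16) (leaf ok5 (G7 _ rfl) (G589 _ rfl) (G569 _ rfl) (by decide +kernel))
theorem l793 : HoldsN X5 (Trg.right (Trg.left (Trg.left (Trg.right (chamber 1 1))))) (Trg.right (Trg.left (Trg.left (Trg.left (Trg.right (chamberN 9 20)))))) :=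
  HoldsN.of_red (k := 16) (m := 16) (leaf ok5 (G18 _ rfl) (G588 _ rfl) (G517 _ rfl) (by decide +kernel))
theorem l794 : HoldsN X5 (Trg.right (Trg.left (Trg.left (Trg.right (chamber 1 1))))) (Trg.right (Trg.left (Trg.left (Trg.right (chamberN 9 20))))) :=
  HoldsN.of_red (k := 16) (m := 16) (leaf ok5 (G7 _ rfl) (G586 _ rfl) (G586 _ rfl) (by decide +kernel))
theorem l795 : HoldsN X5 (Trg.left (Trg.left (Trg.right (chamber 1 1)))) (Trg.left (Trg.right (Trg.left (Trg.right (chamberN 9 20))))) :=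
  HoldsN.of_red (k := 16) (m := 16) (leaf ok5 (G5 _ rfl) (G591 _ rfl) (G553 _ rfl) (by decide +kernel))
theorem l796 : HoldsN X5 (Trg.left (Trg.left (Trg.left (Trg.right (chamber 1 1))))) (Trg.right (Trg.right (Trg.left (Trg.right (chamberN 9 20))))) :=
  HoldsN.of_red (k := 16) (m := 16) (leaf ok5 (G9 _ rfl) (G576 _ rfl) (G553 _ rfl) (by decide +kernel))
theorem l797 : HoldsN X5 (Trg.right (Trg.left (Trg.left (Trg.right (chamber 1 1))))) (Trg.right (Trg.right (Trg.left (Trg.right (chamberN 9 20))))) :=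
  HoldsN.of_red (k := 16) (m := 16) (leaf ok5 (G8 _ rfl) (G605 _ rfl) (G518 _ rfl) (by decide +kernel))
theorem l798 : HoldsN X5 (Trg.left (Trg.right (Trg.left (Trg.right (chamber 1 1))))) (Trg.left (Trg.left (Trg.left (Trg.left (Trg.right (chamberN 9 20)))))) :=
  HoldsN.of_red (k := 16) (m := 16) (leaf ok5 (G4 _ rfl) (G585 _ rfl) (G632 _ rfl) (by decide +kernel))
theorem l799 : HoldsN X5 (Trg.left (Trg.right (Trg.left (Trg.right (chamber 1 1))))) (Trg.right (Trg.left (Trg.left (Trg.left (Trg.right (chamberN 9 20)))))) :=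
  HoldsN.of_red (k := 16) (m := 16) (leaf ok5 (G10 _ rfl) (G584 _ rfl) (G590 _ rfl) (by decide +kernel))

end Vale.Agent.Lib.P154N.D5
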