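import Vale.Agent.Lib.P154N.D5.Data
import Vale.Agent.Lib.P154N.Red

/-!
# Leaves of the tree of triangles
-/

namespace Vale.Agent.Lib.P154N.D5

open Vale.Agent.Lib.P154K Vale.Agent.Lib.P154Neg

theorem l80 : HoldsN X2 (Trg.left (Trg.right (Trg.right (chamberN 9 20)))) (Trg.right (Trg.right (Trg.right (chamberN 9 20)))) :=
  HoldsN.of_red (k := 16) (m := 16) (leaf ok2 (G446 _ rfl) (G310 _ rfl) (G223 _ rfl) (by decide +kernel))
theorem l81 : HoldsN X2 (Trg.left (Trg.right (Trg.right (Trg.right (chamberN 9 20))))) (Trg.left (Trg.left (Trg.right (Trg.right (chamberN 9 20))))) :=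
  HoldsN.of_red (k := 16) (m := 16) (leaf ok2 (G494 _ rfl) (G220 _ rfl) (G309 _ rfl) (by decide +kernel))
theorem l82 : HoldsN X2 (Trg.left (Trg.right (Trg.right (Trg.right (Trg.right (chamberN 9 20)))))) (Trg.left (Trg.left (Trg.left (Trg.right (Trg.right (chamberN 9 20)))))) :=
  HoldsN.of_red (k := 16) (m := 16) (leaf ok2 (G501 _ rfl) (G308 _ rfl) (G307 _ rfl) (by decide +kernel))
theorem l83 : HoldsN X2 (Trg.left (Trg.right (Trg.right (Trg.right (Trg.right (chamberN 9 20)))))) (Trg.right (Trg.left (Trg.left (Trg.right (Trg.right (chamberN 9 20)))))) :=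
  HoldsN.of_red (k := 16) (m := 16) (leaf ok2 (G502 _ rfl) (G259 _ rfl) (G307 _ rfl) (by decide +kernel))
theorem l84 : HoldsN X2 (Trg.right (Trg.right (Trg.right (Trg.right (Trg.right (chamberN 9 20)))))) (Trg.left (Trg.left (Trg.right (Trg.right (chamberN 9 20))))) :=
  HoldsN.of_red (k := 16) (m := 16) (leaf ok2 (G492 _ rfl) (G260 _ rfl) (G309 _ rfl) (by decide +kernel))
theorem l85 : HoldsN X2 (Trg.right (Trg.right (Trg.right (chamberN 9 20)))) (Trg.right (Trg.left (Trg.right (Trg.right (chamberN 9 20))))) :=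
  HoldsN.of_red (k := 16) (m := 16) (leaf ok2 (G438 _ rfl) (G310 _ rfl) (G310 _ rfl) (by decide +kernel))
theorem l86 : HoldsN X2 (Trg.right (Trg.right (Trg.right (chamberN 9 20)))) (Trg.right (Trg.right (Trg.right (chamberN 9 20)))) :=
  HoldsN.of_red (k := 16) (m := 16) (leaf ok2 (G505 _ rfl) (G221 _ rfl) (G221 _ rfl) (by decide +kernel))
theorem l87 : HoldsN X2 (Trg.left (Trg.left (Trg.left (Trg.left (chamberN 9 20))))) (Trg.left (Trg.left (Trg.left (chamberNR 9 20)))) :=
  HoldsN.of_red (k := 16) (m := 16) (leaf ok2 (G405 _ rfl) (G191 _ rfl) (G427 _ rfl) (by decide +kernel))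
theorem l88 : HoldsN X2 (Trg.right (Trg.left (Trg.left (Trg.left (chamberN 9 20))))) (Trg.left (Trg.left (Trg.left (Trg.left (chamberNR 9 20))))) :=
  HoldsN.of_red (k := 16) (m := 16) (leaf ok2 (G433 _ rfl) (G188 _ rfl) (G427 _ rfl) (by decide +kernel))
theorem l89 : HoldsN X2 (Trg.right (Trg.left (Trg.left (Trg.left (chamberN 9 20))))) (Trg.right (Trg.left (Trg.left (Trg.left (chamberNR 9 20))))) :=
  HoldsN.of_red (k := 16) (m := 16) (leaf ok2 (G495 _ rfl) (G134 _ rfl) (G424 _ rfl) (by decide +kernel))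

end Vale.Agent.Lib.P154N.D5
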