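import Vale.Agent.Lib.P154N.D5.Data
import Vale.Agent.Lib.P154N.Red

/-!
# Leaves of the tree of triangles
-/

namespace Vale.Agent.Lib.P154N.D5

open Vale.Agent.Lib.P154K Vale.Agent.Lib.P154Neg

theorem l810 : HoldsN X5 (Trg.right (Trg.right (Trg.left (Trg.right (chamber 1 1))))) (Trg.right (Trg.right (Trg.left (Trg.right (chamberN 9 20))))) :=
  HoldsN.of_red (k := 16) (m := 16) (leaf ok5 (G9 _ rfl) (G576 _ rfl) (G576 _ rfl) (by decide +kernel))
theorem l811 : HoldsN X5 (Trg.left (Trg.left (Trg.right (chamber 1 1)))) (Trg.left (Trg.left (Trg.right (Trg.right (chamberN 9 20))))) :=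
  HoldsN.of_red (k := 16) (m := 16) (leaf ok5 (G41 _ rfl) (G485 _ rfl) (G482 _ rfl) (by decide +kernel))
theorem l812 : HoldsN X5 (Trg.left (Trg.left (Trg.right (chamber 1 1)))) (Trg.right (Trg.left (Trg.right (Trg.right (chamberN 9 20))))) :=
  HoldsN.of_red (k := 16) (m := 16) (leaf ok5 (G84 _ rfl) (G443 _ rfl) (G451 _ rfl) (by decide +kernel))
theorem l813 : HoldsN X5 (Trg.left (Trg.right (Trg.left (Trg.right (chamber 1 1))))) (Trg.left (Trg.left (Trg.right (Trg.right (chamberN 9 20))))) :=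
  HoldsN.of_red (k := 16) (m := 16) (leaf ok5 (G24 _ rfl) (G507 _ rfl) (G537 _ rfl) (by decide +kernel))
theorem l814 : HoldsN X5 (Trg.left (Trg.right (Trg.left (Trg.right (chamber 1 1))))) (Trg.right (Trg.left (Trg.right (Trg.right (chamberN 9 20))))) :=
  HoldsN.of_red (k := 16) (m := 16) (leaf ok5 (G76 _ rfl) (G443 _ rfl) (G456 _ rfl) (by decide +kernel))
theorem l815 : HoldsN X5 (Trg.right (Trg.right (Trg.left (Trg.right (chamber 1 1))))) (Trg.left (Trg.left (Trg.right (Trg.right (chamberN 9 20))))) :=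
  HoldsN.of_red (k := 16) (m := 16) (leaf ok5 (G41 _ rfl) (G485 _ rfl) (G515 _ rfl) (by decide +kernel))
theorem l816 : HoldsN X5 (Trg.right (Trg.right (Trg.left (Trg.right (chamber 1 1))))) (Trg.right (Trg.left (Trg.right (Trg.right (chamberN 9 20))))) :=
  HoldsN.of_red (k := 16) (m := 16) (leaf ok5 (G84 _ rfl) (G443 _ rfl) (G452 _ rfl) (by decide +kernel))
theorem l817 : HoldsN X5 (Trg.left (Trg.left (Trg.left (Trg.right (chamber 1 1))))) (Trg.right (Trg.right (Trg.right (chamberN 9 20)))) :=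
  HoldsN.of_red (k := 16) (m := 16) (leaf ok5 (G22 _ rfl) (G485 _ rfl) (G554 _ rfl) (by decide +kernel))
theorem l818 : HoldsN X5 (Trg.right (Trg.left (Trg.left (Trg.right (chamber 1 1))))) (Trg.right (Trg.right (Trg.right (chamberN 9 20)))) :=
  HoldsN.of_red (k := 16) (m := 16) (leaf ok5 (G21 _ rfl) (G530 _ rfl) (G519 _ rfl) (by decide +kernel))
theorem l819 : HoldsN X5 (Trg.left (Trg.right (Trg.left (Trg.right (chamber 1 1))))) (Trg.right (Trg.right (Trg.right (chamberN 9 20)))) :=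
  HoldsN.of_red (k := 16) (m := 16) (leaf ok5 (G14 _ rfl) (G507 _ rfl) (G591 _ rfl) (by decide +kernel))

end Vale.Agent.Lib.P154N.D5
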