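import Vale.Agent.Lib.P154N.D5.Data
import Vale.Agent.Lib.P154N.Red

/-!
# Leaves of the tree of triangles
-/

namespace Vale.Agent.Lib.P154N.D5

open Vale.Agent.Lib.P154K Vale.Agent.Lib.P154Neg

theorem l820 : HoldsN X5 (Trg.right (Trg.right (Trg.left (Trg.right (chamber 1 1))))) (Trg.right (Trg.right (Trg.right (chamberN 9 20)))) :=
  HoldsN.of_red (k := 16) (m := 16) (leaf ok5 (G22 _ rfl) (G485 _ rfl) (G576 _ rfl) (by decide +kernel))
theorem l821 : HoldsN X5 (Trg.left (Trg.left (Trg.right (Trg.right (chamber 1 1))))) (Trg.left (Trg.left (Trg.left (chamberN 9 20)))) :=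
  HoldsN.of_red (k := 16) (m := 16) (leaf ok5 (G74 _ rfl) (G298 _ rfl) (G511 _ rfl) (by decide +kernel))
theorem l822 : HoldsN X5 (Trg.right (Trg.left (Trg.right (Trg.right (chamber 1 1))))) (Trg.left (Trg.left (Trg.left (chamberN 9 20)))) :=
  HoldsN.of_red (k := 16) (m := 16) (leaf ok5 (G116 _ rfl) (G366 _ rfl) (G443 _ rfl) (by decide +kernel))
theorem l823 : HoldsN X5 (Trg.left (Trg.left (Trg.right (Trg.right (chamber 1 1))))) (Trg.left (Trg.left (Trg.right (Trg.left (Trg.left (chamberN 9 20)))))) :=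
  HoldsN.of_red (k := 16) (m := 16) (leaf ok5 (G164 _ rfl) (G358 _ rfl) (G479 _ rfl) (by decide +kernel))
theorem l824 : HoldsN X5 (Trg.left (Trg.left (Trg.left (Trg.right (Trg.right (chamber 1 1)))))) (Trg.right (Trg.left (Trg.right (Trg.left (Trg.left (chamberN 9 20)))))) :=
  HoldsN.of_red (k := 16) (m := 16) (leaf ok5 (G286 _ rfl) (G384 _ rfl) (G426 _ rfl) (by decide +kernel))
theorem l825 : HoldsN X5 (Trg.right (Trg.left (Trg.left (Trg.right (Trg.right (chamber 1 1)))))) (Trg.right (Trg.left (Trg.right (Trg.left (Trg.left (chamberN 9 20)))))) :=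
  HoldsN.of_red (k := 16) (m := 16) (leaf ok5 (G270 _ rfl) (G352 _ rfl) (G430 _ rfl) (by decide +kernel))
theorem l826 : HoldsN X5 (Trg.left (Trg.left (Trg.right (Trg.right (chamber 1 1))))) (Trg.right (Trg.right (Trg.left (Trg.left (chamberN 9 20))))) :=
  HoldsN.of_red (k := 16) (m := 16) (leaf ok5 (G164 _ rfl) (G294 _ rfl) (G479 _ rfl) (by decide +kernel))
theorem l827 : HoldsN X5 (Trg.left (Trg.right (Trg.left (Trg.right (Trg.right (chamber 1 1)))))) (Trg.right (Trg.left (Trg.left (chamberN 9 20)))) :=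
  HoldsN.of_red (k := 16) (m := 16) (leaf ok5 (G270 _ rfl) (G354 _ rfl) (G430 _ rfl) (by decide +kernel))
theorem l828 : HoldsN X5 (Trg.right (Trg.right (Trg.left (Trg.right (Trg.right (chamber 1 1)))))) (Trg.right (Trg.left (Trg.left (chamberN 9 20)))) :=
  HoldsN.of_red (k := 16) (m := 16) (leaf ok5 (G223 _ rfl) (G359 _ rfl) (G432 _ rfl) (by decide +kernel))
theorem l829 : HoldsN X5 (Trg.left (Trg.left (Trg.right (Trg.right (chamber 1 1))))) (Trg.right (Trg.left (chamberN 9 20))) :=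
  HoldsN.of_red (k := 16) (m := 16) (leaf ok5 (G74 _ rfl) (G206 _ rfl) (G516 _ rfl) (by decide +kernel))

end Vale.Agent.Lib.P154N.D5
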