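import Vale.Agent.Lib.P154N.D5.Data
import Vale.Agent.Lib.P154N.Red

/-!
# Leaves of the tree of triangles
-/

namespace Vale.Agent.Lib.P154N.D5

open Vale.Agent.Lib.P154K Vale.Agent.Lib.P154Neg

theorem l830 : HoldsN X5 (Trg.right (Trg.left (Trg.right (Trg.right (chamber 1 1))))) (Trg.left (Trg.right (Trg.left (chamberN 9 20)))) :=
  HoldsN.of_red (k := 16) (m := 16) (leaf ok5 (G148 _ rfl) (G292 _ rfl) (G448 _ rfl) (by decide +kernel))
theorem l831 : HoldsN X5 (Trg.right (Trg.left (Trg.right (Trg.right (chamber 1 1))))) (Trg.right (Trg.right (Trg.left (chamberN 9 20)))) :=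
  HoldsN.of_red (k := 16) (m := 16) (leaf ok5 (G116 _ rfl) (G366 _ rfl) (G444 _ rfl) (by decide +kernel))
theorem l832 : HoldsN X5 (Trg.right (Trg.right (Trg.right (chamber 1 1)))) (Trg.left (Trg.left (Trg.left (Trg.left (chamberN 9 20))))) :=
  HoldsN.of_red (k := 16) (m := 16) (leaf ok5 (G78 _ rfl) (G298 _ rfl) (G510 _ rfl) (by decide +kernel))
theorem l833 : HoldsN X5 (Trg.right (Trg.right (Trg.right (chamber 1 1)))) (Trg.right (Trg.left (Trg.left (Trg.left (chamberN 9 20))))) :=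
  HoldsN.of_red (k := 16) (m := 16) (leaf ok5 (G36 _ rfl) (G454 _ rfl) (G511 _ rfl) (by decide +kernel))
theorem l834 : HoldsN X5 (Trg.right (Trg.right (Trg.right (chamber 1 1)))) (Trg.right (Trg.left (Trg.left (chamberN 9 20)))) :=
  HoldsN.of_red (k := 16) (m := 16) (leaf ok5 (G116 _ rfl) (G299 _ rfl) (G448 _ rfl) (by decide +kernel))
theorem l835 : HoldsN X5 (Trg.right (Trg.right (Trg.right (chamber 1 1)))) (Trg.left (Trg.right (Trg.left (chamberN 9 20)))) :=
  HoldsN.of_red (k := 16) (m := 16) (leaf ok5 (G55 _ rfl) (G202 _ rfl) (G541 _ rfl) (by decide +kernel))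
theorem l836 : HoldsN X5 (Trg.right (Trg.right (Trg.right (chamber 1 1)))) (Trg.left (Trg.right (Trg.right (Trg.left (chamberN 9 20))))) :=
  HoldsN.of_red (k := 16) (m := 16) (leaf ok5 (G35 _ rfl) (G374 _ rfl) (G550 _ rfl) (by decide +kernel))
theorem l837 : HoldsN X5 (Trg.right (Trg.right (Trg.right (chamber 1 1)))) (Trg.right (Trg.right (Trg.right (Trg.left (chamberN 9 20))))) :=
  HoldsN.of_red (k := 16) (m := 16) (leaf ok5 (G55 _ rfl) (G297 _ rfl) (G539 _ rfl) (by decide +kernel))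
theorem l838 : HoldsN X5 (Trg.left (Trg.left (Trg.right (Trg.right (chamber 1 1))))) (Trg.left (Trg.right (chamberN 9 20))) :=
  HoldsN.of_red (k := 16) (m := 16) (leaf ok5 (G25 _ rfl) (G485 _ rfl) (G485 _ rfl) (by decide +kernel))
theorem l839 : HoldsN X5 (Trg.right (Trg.left (Trg.right (Trg.right (chamber 1 1))))) (Trg.left (Trg.left (Trg.right (chamberN 9 20)))) :=
  HoldsN.of_red (k := 16) (m := 16) (leaf ok5 (G84 _ rfl) (G451 _ rfl) (G443 _ rfl) (by decide +kernel))

end Vale.Agent.Lib.P154N.D5
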