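import Vale.Agent.Lib.P154N.D5.Data
import Vale.Agent.Lib.P154N.Red

/-!
# Leaves of the tree of triangles
-/

namespace Vale.Agent.Lib.P154N.D5

open Vale.Agent.Lib.P154K Vale.Agent.Lib.P154Neg

theorem l850 : HoldsN X5 (Trg.left (Trg.right (Trg.left (Trg.right (Trg.right (chamber 1 1)))))) (Trg.right (Trg.left (Trg.right (Trg.right (chamberN 9 20))))) :=
  HoldsN.of_red (k := 16) (m := 16) (leaf ok5 (G270 _ rfl) (G423 _ rfl) (G430 _ rfl) (by decide +kernel))
theorem l851 : HoldsN X5 (Trg.right (Trg.right (Trg.left (Trg.right (Trg.right (chamber 1 1)))))) (Trg.right (Trg.left (Trg.right (Trg.right (chamberN 9 20))))) :=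
  HoldsN.of_red (k := 16) (m := 16) (leaf ok5 (G223 _ rfl) (G430 _ rfl) (G430 _ rfl) (by decide +kernel))
theorem l852 : HoldsN X5 (Trg.left (Trg.right (Trg.right (chamber 1 1)))) (Trg.right (Trg.right (Trg.right (chamberN 9 20)))) :=
  HoldsN.of_red (k := 16) (m := 16) (leaf ok5 (G76 _ rfl) (G443 _ rfl) (G456 _ rfl) (by decide +kernel))
theorem l853 : HoldsN X5 (Trg.right (Trg.right (Trg.right (chamber 1 1)))) (Trg.left (Trg.left (Trg.right (Trg.right (chamberN 9 20))))) :=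
  HoldsN.of_red (k := 16) (m := 16) (leaf ok5 (G73 _ rfl) (G485 _ rfl) (G464 _ rfl) (by decide +kernel))
theorem l854 : HoldsN X5 (Trg.right (Trg.right (Trg.right (chamber 1 1)))) (Trg.right (Trg.left (Trg.right (Trg.right (chamberN 9 20))))) :=
  HoldsN.of_red (k := 16) (m := 16) (leaf ok5 (G116 _ rfl) (G443 _ rfl) (G443 _ rfl) (by decide +kernel))
theorem l855 : HoldsN X5 (Trg.right (Trg.right (Trg.right (chamber 1 1)))) (Trg.right (Trg.right (Trg.right (chamberN 9 20)))) :=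
  HoldsN.of_red (k := 16) (m := 16) (leaf ok5 (G36 _ rfl) (G485 _ rfl) (G485 _ rfl) (by decide +kernel))
theorem l856 : HoldsN X5 (Trg.left (Trg.left (Trg.left (Trg.left (chamber 1 1))))) (Trg.left (Trg.left (Trg.left (chamberNR 9 20)))) :=
  HoldsN.of_red (k := 16) (m := 16) (leaf ok5 (G139 _ rfl) (G486 _ rfl) (G191 _ rfl) (by decide +kernel))
theorem l857 : HoldsN X5 (Trg.right (Trg.left (Trg.left (Trg.left (chamber 1 1))))) (Trg.left (Trg.left (Trg.left (chamberNR 9 20)))) :=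
  HoldsN.of_red (k := 16) (m := 16) (leaf ok5 (G57 _ rfl) (G543 _ rfl) (G191 _ rfl) (by decide +kernel))
theorem l858 : HoldsN X5 (Trg.left (Trg.left (Trg.left (chamber 1 1)))) (Trg.right (Trg.left (Trg.left (chamberNR 9 20)))) :=
  HoldsN.of_red (k := 16) (m := 16) (leaf ok5 (G149 _ rfl) (G453 _ rfl) (G193 _ rfl) (by decide +kernel))
theorem l859 : HoldsN X5 (Trg.left (Trg.left (Trg.left (Trg.left (chamber 1 1))))) (Trg.right (Trg.left (chamberNR 9 20))) :=
  HoldsN.of_red (k := 16) (m := 16) (leaf ok5 (G140 _ rfl) (G486 _ rfl) (G135 _ rfl) (by decide +kernel))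

end Vale.Agent.Lib.P154N.D5
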