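import Vale.Agent.Lib.P154N.D5.Data
import Vale.Agent.Lib.P154N.Red

/-!
# Leaves of the tree of triangles
-/

namespace Vale.Agent.Lib.P154N.D5

open Vale.Agent.Lib.P154K Vale.Agent.Lib.P154Neg

theorem l860 : HoldsN X5 (Trg.right (Trg.left (Trg.left (Trg.left (chamber 1 1))))) (Trg.right (Trg.left (chamberNR 9 20))) :=
  HoldsN.of_red (k := 16) (m := 16) (leaf ok5 (G57 _ rfl) (G543 _ rfl) (G96 _ rfl) (by decide +kernel))
theorem l861 : HoldsN X5 (Trg.right (Trg.left (Trg.left (chamber 1 1)))) (Trg.left (Trg.left (Trg.left (chamberNR 9 20)))) :=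
  HoldsN.of_red (k := 16) (m := 16) (leaf ok5 (G149 _ rfl) (G453 _ rfl) (G193 _ rfl) (by decide +kernel))
theorem l862 : HoldsN X5 (Trg.right (Trg.left (Trg.left (chamber 1 1)))) (Trg.right (Trg.left (Trg.left (chamberNR 9 20)))) :=
  HoldsN.of_red (k := 16) (m := 16) (leaf ok5 (G264 _ rfl) (G438 _ rfl) (G286 _ rfl) (by decide +kernel))
theorem l863 : HoldsN X5 (Trg.left (Trg.right (Trg.left (Trg.left (chamber 1 1))))) (Trg.left (Trg.right (Trg.left (chamberNR 9 20)))) :=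
  HoldsN.of_red (k := 16) (m := 16) (leaf ok5 (G237 _ rfl) (G451 _ rfl) (G193 _ rfl) (by decide +kernel))
theorem l864 : HoldsN X5 (Trg.right (Trg.right (Trg.left (Trg.left (chamber 1 1))))) (Trg.left (Trg.right (Trg.left (chamberNR 9 20)))) :=
  HoldsN.of_red (k := 16) (m := 16) (leaf ok5 (G240 _ rfl) (G466 _ rfl) (G189 _ rfl) (by decide +kernel))
theorem l865 : HoldsN X5 (Trg.right (Trg.left (Trg.left (chamber 1 1)))) (Trg.right (Trg.right (Trg.left (chamberNR 9 20)))) :=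
  HoldsN.of_red (k := 16) (m := 16) (leaf ok5 (G149 _ rfl) (G453 _ rfl) (G193 _ rfl) (by decide +kernel))
theorem l866 : HoldsN X5 (Trg.left (Trg.right (Trg.left (chamber 1 1)))) (Trg.left (Trg.left (Trg.left (chamberNR 9 20)))) :=
  HoldsN.of_red (k := 16) (m := 16) (leaf ok5 (G125 _ rfl) (G488 _ rfl) (G94 _ rfl) (by decide +kernel))
theorem l867 : HoldsN X5 (Trg.left (Trg.right (Trg.right (Trg.left (chamber 1 1))))) (Trg.left (Trg.left (Trg.left (chamberNR 9 20)))) :=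
  HoldsN.of_red (k := 16) (m := 16) (leaf ok5 (G58 _ rfl) (G555 _ rfl) (G163 _ rfl) (by decide +kernel))
theorem l868 : HoldsN X5 (Trg.right (Trg.right (Trg.right (Trg.left (chamber 1 1))))) (Trg.left (Trg.left (Trg.left (chamberNR 9 20)))) :=
  HoldsN.of_red (k := 16) (m := 16) (leaf ok5 (G124 _ rfl) (G488 _ rfl) (G161 _ rfl) (by decide +kernel))
theorem l869 : HoldsN X5 (Trg.left (Trg.left (Trg.left (Trg.right (Trg.left (chamber 1 1)))))) (Trg.right (Trg.left (Trg.left (chamberNR 9 20)))) :=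
  HoldsN.of_red (k := 16) (m := 16) (leaf ok5 (G238 _ rfl) (G451 _ rfl) (G193 _ rfl) (by decide +kernel))

end Vale.Agent.Lib.P154N.D5
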