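import Vale.Agent.Lib.P154N.D5.Data
import Vale.Agent.Lib.P154N.Red

/-!
# Leaves of the tree of triangles
-/

namespace Vale.Agent.Lib.P154N.D5

open Vale.Agent.Lib.P154K Vale.Agent.Lib.P154Neg

theorem l870 : HoldsN X5 (Trg.right (Trg.left (Trg.left (Trg.right (Trg.left (chamber 1 1)))))) (Trg.right (Trg.left (Trg.left (chamberNR 9 20)))) :=
  HoldsN.of_red (k := 16) (m := 16) (leaf ok5 (G315 _ rfl) (G443 _ rfl) (G247 _ rfl) (by decide +kernel))
theorem l871 : HoldsN X5 (Trg.right (Trg.left (Trg.right (Trg.left (chamber 1 1))))) (Trg.left (Trg.left (Trg.right (Trg.left (Trg.left (chamberNR 9 20)))))) :=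
  HoldsN.of_red (k := 16) (m := 16) (leaf ok5 (G236 _ rfl) (G473 _ rfl) (G188 _ rfl) (by decide +kernel))
theorem l872 : HoldsN X5 (Trg.left (Trg.right (Trg.left (Trg.right (Trg.left (chamber 1 1)))))) (Trg.right (Trg.left (Trg.right (Trg.left (Trg.left (chamberNR 9 20)))))) :=
  HoldsN.of_red (k := 16) (m := 16) (leaf ok5 (G354 _ rfl) (G434 _ rfl) (G286 _ rfl) (by decide +kernel))
theorem l873 : HoldsN X5 (Trg.right (Trg.right (Trg.left (Trg.right (Trg.left (chamber 1 1)))))) (Trg.right (Trg.left (Trg.right (Trg.left (Trg.left (chamberNR 9 20)))))) :=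
  HoldsN.of_red (k := 16) (m := 16) (leaf ok5 (G323 _ rfl) (G436 _ rfl) (G286 _ rfl) (by decide +kernel))
theorem l874 : HoldsN X5 (Trg.right (Trg.left (Trg.right (Trg.left (chamber 1 1))))) (Trg.right (Trg.right (Trg.left (Trg.left (chamberNR 9 20))))) :=
  HoldsN.of_red (k := 16) (m := 16) (leaf ok5 (G240 _ rfl) (G473 _ rfl) (G187 _ rfl) (by decide +kernel))
theorem l875 : HoldsN X5 (Trg.right (Trg.right (Trg.left (chamber 1 1)))) (Trg.right (Trg.left (Trg.left (chamberNR 9 20)))) :=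
  HoldsN.of_red (k := 16) (m := 16) (leaf ok5 (G149 _ rfl) (G453 _ rfl) (G193 _ rfl) (by decide +kernel))
theorem l876 : HoldsN X5 (Trg.left (Trg.right (Trg.left (chamber 1 1)))) (Trg.right (Trg.left (chamberNR 9 20))) :=
  HoldsN.of_red (k := 16) (m := 16) (leaf ok5 (G126 _ rfl) (G488 _ rfl) (G94 _ rfl) (by decide +kernel))
theorem l877 : HoldsN X5 (Trg.left (Trg.right (Trg.right (Trg.left (chamber 1 1))))) (Trg.right (Trg.left (chamberNR 9 20))) :=
  HoldsN.of_red (k := 16) (m := 16) (leaf ok5 (G59 _ rfl) (G555 _ rfl) (G94 _ rfl) (by decide +kernel))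
theorem l878 : HoldsN X5 (Trg.right (Trg.right (Trg.right (Trg.left (chamber 1 1))))) (Trg.right (Trg.left (chamberNR 9 20))) :=
  HoldsN.of_red (k := 16) (m := 16) (leaf ok5 (G125 _ rfl) (G488 _ rfl) (G94 _ rfl) (by decide +kernel))
theorem l879 : HoldsN X5 (Trg.left (Trg.left (Trg.left (Trg.left (chamber 1 1))))) (Trg.left (Trg.right (chamberNR 9 20))) :=
  HoldsN.of_red (k := 16) (m := 16) (leaf ok5 (G49 _ rfl) (G576 _ rfl) (G200 _ rfl) (by decide +kernel))

end Vale.Agent.Lib.P154N.D5
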