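import Vale.Agent.Lib.P154N.D5.Data
import Vale.Agent.Lib.P154N.Red

/-!
# Leaves of the tree of triangles
-/

namespace Vale.Agent.Lib.P154N.D5

open Vale.Agent.Lib.P154K Vale.Agent.Lib.P154Neg

theorem l890 : HoldsN X5 (Trg.right (Trg.left (Trg.right (Trg.left (chamber 1 1))))) (Trg.right (Trg.left (Trg.left (Trg.right (chamberNR 9 20))))) :=
  HoldsN.of_red (k := 16) (m := 16) (leaf ok5 (G68 _ rfl) (G615 _ rfl) (G91 _ rfl) (by decide +kernel))
theorem l891 : HoldsN X5 (Trg.left (Trg.right (Trg.left (chamber 1 1)))) (Trg.left (Trg.right (Trg.left (Trg.right (chamberNR 9 20))))) :=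
  HoldsN.of_red (k := 16) (m := 16) (leaf ok5 (G38 _ rfl) (G610 _ rfl) (G95 _ rfl) (by decide +kernel))
theorem l892 : HoldsN X5 (Trg.left (Trg.left (Trg.right (Trg.left (chamber 1 1))))) (Trg.right (Trg.right (Trg.left (Trg.right (chamberNR 9 20))))) :=
  HoldsN.of_red (k := 16) (m := 16) (leaf ok5 (G65 _ rfl) (G579 _ rfl) (G135 _ rfl) (by decide +kernel))
theorem l893 : HoldsN X5 (Trg.left (Trg.right (Trg.left (Trg.right (Trg.left (chamber 1 1)))))) (Trg.left (Trg.left (Trg.right (Trg.right (Trg.left (Trg.right (chamberNR 9 20))))))) :=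
  HoldsN.of_red (k := 16) (m := 16) (leaf ok5 (G86 _ rfl) (G623 _ rfl) (G129 _ rfl) (by decide +kernel))
theorem l894 : HoldsN X5 (Trg.left (Trg.left (Trg.right (Trg.left (Trg.right (Trg.left (chamber 1 1))))))) (Trg.right (Trg.left (Trg.right (Trg.right (Trg.left (Trg.right (chamberNR 9 20))))))) :=
  HoldsN.of_red (k := 16) (m := 16) (leaf ok5 (G119 _ rfl) (G601 _ rfl) (G151 _ rfl) (by decide +kernel))
theorem l895 : HoldsN X5 (Trg.right (Trg.left (Trg.right (Trg.left (Trg.right (Trg.left (chamber 1 1))))))) (Trg.left (Trg.right (Trg.left (Trg.right (Trg.right (Trg.left (Trg.right (chamberNR 9 20)))))))) :=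
  HoldsN.of_red (k := 16) (m := 16) (leaf ok5 (G118 _ rfl) (G617 _ rfl) (G157 _ rfl) (by decide +kernel))
theorem l896 : HoldsN X5 (Trg.right (Trg.left (Trg.right (Trg.left (Trg.right (Trg.left (chamber 1 1))))))) (Trg.right (Trg.right (Trg.left (Trg.right (Trg.right (Trg.left (Trg.right (chamberNR 9 20)))))))) :=
  HoldsN.of_red (k := 16) (m := 16) (leaf ok5 (G117 _ rfl) (G634 _ rfl) (G129 _ rfl) (by decide +kernel))
theorem l897 : HoldsN X5 (Trg.left (Trg.right (Trg.right (Trg.left (Trg.right (Trg.left (chamber 1 1))))))) (Trg.left (Trg.left (Trg.right (Trg.right (Trg.left (Trg.right (chamberNR 9 20))))))) :=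
  HoldsN.of_red (k := 16) (m := 16) (leaf ok5 (G61 _ rfl) (G638 _ rfl) (G188 _ rfl) (by decide +kernel))
theorem l898 : HoldsN X5 (Trg.left (Trg.right (Trg.right (Trg.left (Trg.right (Trg.left (chamber 1 1))))))) (Trg.right (Trg.left (Trg.right (Trg.right (Trg.left (Trg.right (chamberNR 9 20))))))) :=
  HoldsN.of_red (k := 16) (m := 16) (leaf ok5 (G81 _ rfl) (G619 _ rfl) (G189 _ rfl) (by decide +kernel))
theorem l899 : HoldsN X5 (Trg.right (Trg.right (Trg.right (Trg.left (Trg.right (Trg.left (chamber 1 1))))))) (Trg.left (Trg.right (Trg.right (Trg.left (Trg.right (chamberNR 9 20)))))) :=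
  HoldsN.of_red (k := 16) (m := 16) (leaf ok5 (G87 _ rfl) (G605 _ rfl) (G172 _ rfl) (by decide +kernel))

end Vale.Agent.Lib.P154N.D5
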