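import Vale.Agent.Lib.P154N.D5.Data
import Vale.Agent.Lib.P154N.Red

/-!
# Leaves of the tree of triangles
-/

namespace Vale.Agent.Lib.P154N.D5

open Vale.Agent.Lib.P154K Vale.Agent.Lib.P154Neg

theorem l90 : HoldsN X2 (Trg.left (Trg.left (Trg.left (chamberN 9 20)))) (Trg.right (Trg.left (Trg.left (chamberNR 9 20)))) :=
  HoldsN.of_red (k := 16) (m := 16) (leaf ok2 (G404 _ rfl) (G247 _ rfl) (G428 _ rfl) (by decide +kernel))
theorem l91 : HoldsN X2 (Trg.left (Trg.left (Trg.left (Trg.left (chamberN 9 20))))) (Trg.right (Trg.left (chamberNR 9 20))) :=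
  HoldsN.of_red (k := 16) (m := 16) (leaf ok2 (G363 _ rfl) (G191 _ rfl) (G461 _ rfl) (by decide +kernel))
theorem l92 : HoldsN X2 (Trg.right (Trg.left (Trg.left (Trg.left (chamberN 9 20))))) (Trg.left (Trg.right (Trg.left (chamberNR 9 20)))) :=
  HoldsN.of_red (k := 16) (m := 16) (leaf ok2 (G435 _ rfl) (G154 _ rfl) (G478 _ rfl) (by decide +kernel))
theorem l93 : HoldsN X2 (Trg.right (Trg.left (Trg.left (Trg.left (chamberN 9 20))))) (Trg.left (Trg.right (Trg.right (Trg.left (chamberNR 9 20))))) :=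
  HoldsN.of_red (k := 16) (m := 16) (leaf ok2 (G495 _ rfl) (G133 _ rfl) (G460 _ rfl) (by decide +kernel))
theorem l94 : HoldsN X2 (Trg.right (Trg.left (Trg.left (Trg.left (chamberN 9 20))))) (Trg.right (Trg.right (Trg.right (Trg.left (chamberNR 9 20))))) :=
  HoldsN.of_red (k := 16) (m := 16) (leaf ok2 (G435 _ rfl) (G154 _ rfl) (G470 _ rfl) (by decide +kernel))
theorem l95 : HoldsN X2 (Trg.right (Trg.left (Trg.left (chamberN 9 20)))) (Trg.left (Trg.left (Trg.left (chamberNR 9 20)))) :=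
  HoldsN.of_red (k := 16) (m := 16) (leaf ok2 (G404 _ rfl) (G247 _ rfl) (G428 _ rfl) (by decide +kernel))
theorem l96 : HoldsN X2 (Trg.right (Trg.left (Trg.left (chamberN 9 20)))) (Trg.right (Trg.left (Trg.left (chamberNR 9 20)))) :=
  HoldsN.of_red (k := 16) (m := 16) (leaf ok2 (G399 _ rfl) (G319 _ rfl) (G423 _ rfl) (by decide +kernel))
theorem l97 : HoldsN X2 (Trg.right (Trg.left (Trg.left (chamberN 9 20)))) (Trg.right (Trg.left (chamberNR 9 20))) :=
  HoldsN.of_red (k := 16) (m := 16) (leaf ok2 (G362 _ rfl) (G247 _ rfl) (G428 _ rfl) (by decide +kernel))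
theorem l98 : HoldsN X2 (Trg.left (Trg.right (Trg.left (chamberN 9 20)))) (Trg.left (Trg.left (Trg.left (Trg.left (chamberNR 9 20))))) :=
  HoldsN.of_red (k := 16) (m := 16) (leaf ok2 (G356 _ rfl) (G221 _ rfl) (G476 _ rfl) (by decide +kernel))
theorem l99 : HoldsN X2 (Trg.left (Trg.right (Trg.left (chamberN 9 20)))) (Trg.right (Trg.left (Trg.left (Trg.left (chamberNR 9 20))))) :=
  HoldsN.of_red (k := 16) (m := 16) (leaf ok2 (G435 _ rfl) (G154 _ rfl) (G478 _ rfl) (by decide +kernel))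

end Vale.Agent.Lib.P154N.D5
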